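import Mathlib

/-!
# Explicit solution of the discrete Dirichlet problem, and a fixed point lemma

`D (c D U) = R` on `0 < i < n`, `U 0 = U n = 0`, for complex edge weights `c i`, `b i = 1 / c i`.
-/

namespace Vale.Agent.P097.H799

open Finset

/-- partial sums `S R i = R 1 + ... + R i`. -/
noncomputable def dS (R : ℕ → ℂ) (i : ℕ) : ℂ := ∑ j ∈ range i, R (j + 1)

/-- the constant `A` (initial flux). -/
noncomputable def dA (n : ℕ) (b R : ℕ → ℂ) : ℂ :=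
  -(∑ i ∈ range n, b i * dS R i) / ∑ i ∈ range n, b i

/-- the solution. -/
noncomputable def dG (n : ℕ) (b R : ℕ → ℂ) (k : ℕ) : ℂ :=
  ∑ i ∈ range k, b i * (dA n b R + dS R i)

@[simp] lemma dG_zero (n : ℕ) (b R : ℕ → ℂ) : dG n b R 0 = 0 := by simp [dG]

lemma dG_n (n : ℕ) (b R : ℕ → ℂ) (h : ∑ i ∈ range n, b i ≠ 0) : dG n b R n = 0 := by
  simp only [dG, mul_add, sum_add_distrib, ← sum_mul]
  rw [dA, mul_div_cancel₀ _ h]
  ring

lemma dG_succ (n : ℕ) (b R : ℕ → ℂ) (k : ℕ) :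
    dG n b R (k + 1) - dG n b R k = b k * (dA n b R + dS R k) := by
  simp [dG, sum_range_succ]

lemma dS_succ (R : ℕ → ℂ) (k : ℕ) : dS R (k + 1) - dS R k = R (k + 1) := by
  simp [dS, sum_range_succ]

lemma dG_eq (n : ℕ) (b c R : ℕ → ℂ) (hbc : ∀ i < n, c i * b i = 1) (k : ℕ) (hk : k + 1 < n) :
    c (k + 1) * (dG n b R (k + 2) - dG n b R (k + 1))
      - c k * (dG n b R (k + 1) - dG n b R k) = R (k + 1) := by
  rw [dG_succ, dG_succ, ← mul_assoc, ← mul_assoc, hbc _ hk, hbc k (by omega)]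
  rw [← dS_succ R k]; ring

lemma dS_sub (R R' : ℕ → ℂ) (i : ℕ) : dS R i - dS R' i = dS (fun j => R j - R' j) i := by
  simp [dS, sum_sub_distrib]

lemma dA_sub (n : ℕ) (b R R' : ℕ → ℂ) :
    dA n b R - dA n b R' = dA n b (fun j => R j - R' j) := by
  simp only [dA, ← dS_sub, mul_sub, sum_sub_distrib]
  ring

lemma dG_sub (n : ℕ) (b R R' : ℕ → ℂ) (k : ℕ) :
    dG n b R k - dG n b R' k = dG n b (fun j => R j - R' j) k := by
  simp only [dG, ← dS_sub, ← dA_sub, ← sum_sub_distrib]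
  exact sum_congr rfl fun i _ => by ring

lemma norm_dS_le (R : ℕ → ℂ) (n : ℕ) {ρ : ℝ} (hρ : 0 ≤ ρ)
    (hR : ∀ i, i + 1 < n → ‖R (i + 1)‖ ≤ ρ) (i : ℕ) (hi : i < n) : ‖dS R i‖ ≤ n * ρ := by
  calc ‖dS R i‖ ≤ ∑ j ∈ range i, ‖R (j + 1)‖ := norm_sum_le _ _
    _ ≤ ∑ j ∈ range i, ρ := sum_le_sum fun j hj => hR j (by have := mem_range.1 hj; omega)
    _ = i * ρ := by simp
    _ ≤ n * ρ := by gcongr

lemma norm_dA_le (n : ℕ) (b R : ℕ → ℂ) {B β ρ : ℝ} (hβ : 0 < β) (hρ : 0 ≤ ρ) (hn : 0 < n)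
    (hb : ∀ i < n, ‖b i‖ ≤ B) (hs : n * β ≤ ‖∑ i ∈ range n, b i‖)
    (hR : ∀ i, i + 1 < n → ‖R (i + 1)‖ ≤ ρ) : ‖dA n b R‖ ≤ n * ρ * (B / β) := by
  have hB : 0 ≤ B := (norm_nonneg _).trans (hb 0 hn)
  have hn' : (0 : ℝ) < n := by exact_mod_cast hn
  have h1 : ‖∑ i ∈ range n, b i * dS R i‖ ≤ n * (B * (n * ρ)) := by
    calc ‖∑ i ∈ range n, b i * dS R i‖ ≤ ∑ i ∈ range n, ‖b i * dS R i‖ := norm_sum_le _ _
      _ ≤ ∑ i ∈ range n, B * (n * ρ) := sum_le_sum fun i hi => by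
          rw [norm_mul]
          exact mul_le_mul (hb i (mem_range.1 hi)) (norm_dS_le R n hρ hR i (mem_range.1 hi))
            (norm_nonneg _) hB
      _ = n * (B * (n * ρ)) := by simp
  rw [dA, norm_div, norm_neg]
  calc ‖∑ i ∈ range n, b i * dS R i‖ / ‖∑ i ∈ range n, b i‖
      ≤ (n * (B * (n * ρ))) / (n * β) := by
        apply div_le_div₀ (by positivity) h1 (by positivity) hs
    _ = n * ρ * (B / β) := by field_simp

lemma norm_dG_le (n : ℕ) (b R : ℕ → ℂ) {B β ρ : ℝ} (hβ : 0 < β) (hρ : 0 ≤ ρ) (hn : 0 < n)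
    (hb : ∀ i < n, ‖b i‖ ≤ B) (hs : n * β ≤ ‖∑ i ∈ range n, b i‖)
    (hR : ∀ i, i + 1 < n → ‖R (i + 1)‖ ≤ ρ) (k : ℕ) (hk : k ≤ n) :
    ‖dG n b R k‖ ≤ n ^ 2 * (B * (1 + B / β)) * ρ := by
  have hB : 0 ≤ B := (norm_nonneg _).trans (hb 0 hn)
  have hA := norm_dA_le n b R hβ hρ hn hb hs hR
  calc ‖dG n b R k‖ ≤ ∑ i ∈ range k, ‖b i * (dA n b R + dS R i)‖ := norm_sum_le _ _
    _ ≤ ∑ i ∈ range k, B * (n * ρ * (B / β) + n * ρ) := sum_le_sum fun i hi => by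
        have hi' : i < n := (mem_range.1 hi).trans_le hk
        rw [norm_mul]
        refine mul_le_mul (hb i hi') ((norm_add_le _ _).trans
          (add_le_add hA (norm_dS_le R n hρ hR i hi'))) (norm_nonneg _) hB
    _ = k * (B * (n * ρ * (B / β) + n * ρ)) := by simp
    _ ≤ n * (B * (n * ρ * (B / β) + n * ρ)) := by gcongr
    _ = n ^ 2 * (B * (1 + B / β)) * ρ := by ring

/-- Weights close to a positive real number `κ`. -/
lemma weight_bounds {κ : ℝ} (hκ : 0 < κ) (c : ℂ) (hc : ‖c - κ‖ ≤ κ / 4) :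
    c ≠ 0 ∧ ‖c⁻¹‖ ≤ 4 / (3 * κ) ∧ 12 / (25 * κ) ≤ (c⁻¹).re := by
  have h1 : κ - κ / 4 ≤ c.re := by
    have := (abs_le.1 ((Complex.abs_re_le_norm (c - κ)).trans hc)).1
    simp at this; linarith
  have h1' : c.re ≤ κ + κ / 4 := by
    have := (abs_le.1 ((Complex.abs_re_le_norm (c - κ)).trans hc)).2
    simp at this; linarith
  have h0 : 3 * κ / 4 ≤ ‖c‖ := le_trans (by linarith) (Complex.re_le_norm c)
  have hc0 : c ≠ 0 := by
    intro h; rw [h, norm_zero] at h0; linarith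
  refine ⟨hc0, ?_, ?_⟩
  · rw [norm_inv, inv_le_comm₀ (by positivity) (by positivity)]
    rw [inv_div]; linarith
  · rw [Complex.inv_re, Complex.normSq_eq_norm_sq]
    have h2 : ‖c‖ ≤ 5 * κ / 4 := by
      calc ‖c‖ = ‖(c - κ) + κ‖ := by ring_nf
        _ ≤ ‖c - κ‖ + ‖(κ : ℂ)‖ := norm_add_le _ _
        _ ≤ κ / 4 + κ := by
            rw [Complex.norm_real, Real.norm_of_nonneg hκ.le]; linarith
        _ = _ := by ring
    have h3 : 0 < ‖c‖ ^ 2 := by positivity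
    rw [le_div_iff₀ h3]
    have : ‖c‖ ^ 2 ≤ (5 * κ / 4) ^ 2 := by gcongr
    calc 12 / (25 * κ) * ‖c‖ ^ 2 ≤ 12 / (25 * κ) * (5 * κ / 4) ^ 2 := by gcongr
      _ = 3 * κ / 4 := by field_simp; ring
      _ ≤ c.re := by linarith

lemma dG_weight (n : ℕ) (c R : ℕ → ℂ) {κ ρ : ℝ} (hκ : 0 < κ) (hρ : 0 ≤ ρ) (hn : 0 < n)
    (hc : ∀ i < n, ‖c i - κ‖ ≤ κ / 4)
    (hR : ∀ i, i + 1 < n → ‖R (i + 1)‖ ≤ ρ) (k : ℕ) (hk : k ≤ n) :
    ‖dG n (fun i => (c i)⁻¹) R k‖ ≤ 6 * n ^ 2 / κ * ρ := by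
  have hn' : (0 : ℝ) < n := by exact_mod_cast hn
  have hs : (n : ℝ) * (12 / (25 * κ)) ≤ ‖∑ i ∈ range n, (c i)⁻¹‖ := by
    calc (n : ℝ) * (12 / (25 * κ)) = ∑ i ∈ range n, 12 / (25 * κ) := by simp
      _ ≤ ∑ i ∈ range n, ((c i)⁻¹).re :=
          sum_le_sum fun i hi => (weight_bounds hκ _ (hc i (mem_range.1 hi))).2.2
      _ = (∑ i ∈ range n, (c i)⁻¹).re := by simp
      _ ≤ _ := Complex.re_le_norm _
  have := norm_dG_le n (fun i => (c i)⁻¹) R (B := 4 / (3 * κ)) (β := 12 / (25 * κ)) (ρ := ρ)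
    (by positivity) hρ hn (fun i hi => (weight_bounds hκ _ (hc i hi)).2.1) hs hR k hk
  refine this.trans ?_
  gcongr
  rw [show (4 / (3 * κ)) / (12 / (25 * κ)) = 25 / 9 by field_simp; norm_num]
  rw [div_mul_eq_mul_div, mul_div_assoc', div_le_div_iff₀ (by positivity) hκ]
  nlinarith [sq_nonneg (n : ℝ), mul_pos hκ (pow_pos hn' 2)]

lemma sum_weight_ne_zero (n : ℕ) (c : ℕ → ℂ) {κ : ℝ} (hκ : 0 < κ) (hn : 0 < n)
    (hc : ∀ i < n, ‖c i - κ‖ ≤ κ / 4) : ∑ i ∈ range n, (c i)⁻¹ ≠ 0 := by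
  have hn' : (0 : ℝ) < n := by exact_mod_cast hn
  have hs : (n : ℝ) * (12 / (25 * κ)) ≤ ‖∑ i ∈ range n, (c i)⁻¹‖ := by
    calc (n : ℝ) * (12 / (25 * κ)) = ∑ i ∈ range n, 12 / (25 * κ) := by simp
      _ ≤ ∑ i ∈ range n, ((c i)⁻¹).re :=
          sum_le_sum fun i hi => (weight_bounds hκ _ (hc i (mem_range.1 hi))).2.2
      _ = (∑ i ∈ range n, (c i)⁻¹).re := by simp
      _ ≤ _ := Complex.re_le_norm _
  intro h
  rw [h, norm_zero] at hs
  have : 0 < (n : ℝ) * (12 / (25 * κ)) := by positivity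
  linarith

/-! ### fixed point lemma in the sup norm -/

section FP

variable {ι : Type*} {T : (ι → ℂ) → (ι → ℂ)} {ρ : ℝ}

/-- `T` is a half-contraction of the ball of radius `ρ` (in the sup norm). -/
structure HalfContr (T : (ι → ℂ) → (ι → ℂ)) (ρ : ℝ) : Prop where
  zero : ∀ i, ‖T 0 i‖ ≤ ρ / 2
  lip : ∀ U V, (∀ i, ‖U i‖ ≤ ρ) → (∀ i, ‖V i‖ ≤ ρ) → ∀ d, (∀ i, ‖U i - V i‖ ≤ d) →
    ∀ i, ‖T U i - T V i‖ ≤ d / 2

lemma HalfContr.nonneg [Nonempty ι] (h : HalfContr T ρ) : 0 ≤ ρ := by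
  have := (norm_nonneg _).trans (h.zero (Classical.arbitrary ι)); linarith

lemma HalfContr.maps (h : HalfContr T ρ) (U : ι → ℂ) (hU : ∀ i, ‖U i‖ ≤ ρ) (i : ι) :
    ‖T U i‖ ≤ ρ := by
  have : Nonempty ι := ⟨i⟩
  have h1 := h.lip U 0 hU (fun i => by simpa using h.nonneg) ρ (fun i => by simpa using hU i) i
  have h2 := h.zero i
  calc ‖T U i‖ = ‖(T U i - T 0 i) + T 0 i‖ := by ring_nf
    _ ≤ _ := norm_add_le _ _
    _ ≤ ρ := by linarith

lemma HalfContr.iter_le (h : HalfContr T ρ) (k : ℕ) (i : ι) : ‖(T^[k]) 0 i‖ ≤ ρ := by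
  have : Nonempty ι := ⟨i⟩
  induction k generalizing i with
  | zero => simpa using h.nonneg
  | succ k ih =>
    rw [Function.iterate_succ_apply']
    exact h.maps _ ih i

lemma HalfContr.iter_step (h : HalfContr T ρ) (k : ℕ) {δ : ℝ} (hδ : ∀ i, ‖T 0 i‖ ≤ δ) (i : ι) :
    ‖(T^[k + 1]) 0 i - (T^[k]) 0 i‖ ≤ δ * (1 / 2) ^ k := by
  induction k generalizing i with
  | zero => simpa using hδ i
  | succ k ih =>
    rw [Function.iterate_succ_apply' T (k + 1), Function.iterate_succ_apply' T k]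
    have := h.lip _ _ (h.iter_le (k + 1)) (h.iter_le k) (δ * (1 / 2) ^ k) ih i
    rw [Function.iterate_succ_apply'] at this
    rw [Function.iterate_succ_apply'] at *
    calc _ ≤ δ * (1 / 2) ^ k / 2 := this
      _ = _ := by ring

/-- existence of the fixed point as the limit of the iterates. -/
lemma HalfContr.exists_fp (h : HalfContr T ρ) {δ : ℝ} (hδ : ∀ i, ‖T 0 i‖ ≤ δ) :
    ∃ U : ι → ℂ, T U = U ∧ (∀ i, ‖U i‖ ≤ ρ) ∧ (∀ i, ‖U i‖ ≤ 2 * δ) ∧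
      ∀ k i, ‖(T^[k]) 0 i - U i‖ ≤ 2 * δ * (1 / 2) ^ k := by
  have hstep : ∀ i, ∀ k, dist ((T^[k]) 0 i) ((T^[k + 1]) 0 i) ≤ (2 * δ) / 2 / 2 ^ k := by
    intro i k
    rw [dist_comm, dist_eq_norm]
    refine (h.iter_step k hδ i).trans (le_of_eq ?_)
    rw [one_div, inv_pow]; field_simp
  have hlim : ∀ i, ∃ u, Filter.Tendsto (fun k => (T^[k]) 0 i) Filter.atTop (nhds u) := fun i =>
    cauchySeq_tendsto_of_complete (cauchySeq_of_le_geometric_two (hstep i))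
  choose U hU using hlim
  have hd : ∀ k i, ‖(T^[k]) 0 i - U i‖ ≤ 2 * δ * (1 / 2) ^ k := by
    intro k i
    have := dist_le_of_le_geometric_two_of_tendsto (hstep i) (hU i) k
    rw [dist_eq_norm] at this
    refine this.trans (le_of_eq ?_)
    rw [one_div, inv_pow]; field_simp
  have hUρ : ∀ i, ‖U i‖ ≤ ρ := fun i =>
    le_of_tendsto (hU i).norm (Filter.Eventually.of_forall fun k => h.iter_le k i)
  refine ⟨U, ?_, hUρ, ?_, hd⟩
  · funext i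
    have h1 : Filter.Tendsto (fun k => (T^[k + 1]) 0 i) Filter.atTop (nhds (T U i)) := by
      rw [tendsto_iff_norm_sub_tendsto_zero]
      have h2 : ∀ k, ‖(T^[k + 1]) 0 i - T U i‖ ≤ 2 * δ * (1 / 2) ^ k := by
        intro k
        have hδ0 : 0 ≤ δ := (norm_nonneg _).trans (hδ i)
        rw [Function.iterate_succ_apply']
        refine (h.lip _ _ (h.iter_le k) hUρ _ (hd k) i).trans ?_
        have : 0 ≤ 2 * δ * (1 / 2 : ℝ) ^ k := by positivity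
        linarith
      refine squeeze_zero (fun _ => norm_nonneg _) h2 ?_
      have := (tendsto_pow_atTop_nhds_zero_of_lt_one (r := (1 / 2 : ℝ)) (by norm_num)
        (by norm_num)).const_mul (2 * δ)
      simpa using this
    exact tendsto_nhds_unique h1 ((Filter.tendsto_add_atTop_iff_nat 1).2 (hU i))
  · intro i
    simpa using hd 0 i

lemma HalfContr.unique (h : HalfContr T ρ) {U V : ι → ℂ} (hU : T U = U) (hV : T V = V)
    (hUρ : ∀ i, ‖U i‖ ≤ ρ) (hVρ : ∀ i, ‖V i‖ ≤ ρ) : U = V := by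
  have key : ∀ k : ℕ, ∀ i, ‖U i - V i‖ ≤ 2 * ρ * (1 / 2) ^ k := by
    intro k
    induction k with
    | zero =>
      intro i
      simp only [pow_zero, mul_one]
      calc _ ≤ ‖U i‖ + ‖V i‖ := norm_sub_le _ _
        _ ≤ _ := by linarith [hUρ i, hVρ i]
    | succ k ih =>
      intro i
      have := h.lip U V hUρ hVρ _ ih i
      rw [hU, hV] at this
      calc _ ≤ _ := this
        _ = _ := by ring
  funext i
  have h0 : ‖U i - V i‖ ≤ 0 := by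
    have := (tendsto_pow_atTop_nhds_zero_of_lt_one (r := (1 / 2 : ℝ)) (by norm_num)
        (by norm_num)).const_mul (2 * ρ)
    rw [mul_zero] at this
    exact ge_of_tendsto' this (fun k => key k i)
  exact sub_eq_zero.1 (norm_le_zero_iff.1 h0)

end FP

end Vale.Agent.P097.H799
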