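import Mathlib
import Vale.Agent.P097.H799.Dir

/-!
# Pinned critical chains of a generating function, for complex parameters
-/

namespace Vale.Agent.P097.H799

open Finset Complex

/-- A generating function `F` on an open convex set `Ω` of `ℂ × ℂ` with its first and second
partial derivatives; `M` is a Lipschitz constant of the second derivatives, `M₂` a bound of them. -/
structure GF (F F1 F2 F11 F12 F22 : ℂ × ℂ → ℂ) (Ω : Set (ℂ × ℂ)) (M M₂ : ℝ) : Prop where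
  conv : Convex ℝ Ω
  dF : ∀ q ∈ Ω, HasFDerivAt F
    (F1 q • ContinuousLinearMap.fst ℂ ℂ ℂ + F2 q • ContinuousLinearMap.snd ℂ ℂ ℂ) q
  dF1 : ∀ q ∈ Ω, HasFDerivAt F1
    (F11 q • ContinuousLinearMap.fst ℂ ℂ ℂ + F12 q • ContinuousLinearMap.snd ℂ ℂ ℂ) q
  dF2 : ∀ q ∈ Ω, HasFDerivAt F2
    (F12 q • ContinuousLinearMap.fst ℂ ℂ ℂ + F22 q • ContinuousLinearMap.snd ℂ ℂ ℂ) q
  d12 : ∀ q ∈ Ω, DifferentiableAt ℂ F12 q
  lip11 : ∀ q ∈ Ω, ∀ q' ∈ Ω, ‖F11 q - F11 q'‖ ≤ M * ‖q - q'‖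
  lip12 : ∀ q ∈ Ω, ∀ q' ∈ Ω, ‖F12 q - F12 q'‖ ≤ M * ‖q - q'‖
  lip22 : ∀ q ∈ Ω, ∀ q' ∈ Ω, ‖F22 q - F22 q'‖ ≤ M * ‖q - q'‖
  bd11 : ∀ q ∈ Ω, ‖F11 q‖ ≤ M₂
  bd12 : ∀ q ∈ Ω, ‖F12 q‖ ≤ M₂
  bd22 : ∀ q ∈ Ω, ‖F22 q‖ ≤ M₂

lemma norm_fst_snd_le (a b : ℂ) :
    ‖a • ContinuousLinearMap.fst ℂ ℂ ℂ + b • ContinuousLinearMap.snd ℂ ℂ ℂ‖ ≤ ‖a‖ + ‖b‖ := by
  refine ContinuousLinearMap.opNorm_le_bound _ (by positivity) fun x => ?_
  simp only [_root_.add_apply, _root_.smul_apply,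
    ContinuousLinearMap.coe_fst', ContinuousLinearMap.coe_snd', smul_eq_mul]
  calc ‖a * x.1 + b * x.2‖ ≤ ‖a * x.1‖ + ‖b * x.2‖ := norm_add_le _ _
    _ = ‖a‖ * ‖x.1‖ + ‖b‖ * ‖x.2‖ := by simp
    _ ≤ ‖a‖ * ‖x‖ + ‖b‖ * ‖x‖ := by gcongr; exacts [norm_fst_le x, norm_snd_le x]
    _ = _ := by ring

/-- second order remainder of a function whose derivative is Lipschitz on a convex set. -/
lemma remainder_le {Ω : Set (ℂ × ℂ)} (hΩ : Convex ℝ Ω) {f f1 f2 : ℂ × ℂ → ℂ} {M : ℝ}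
    (hf : ∀ q ∈ Ω, HasFDerivAt f
      (f1 q • ContinuousLinearMap.fst ℂ ℂ ℂ + f2 q • ContinuousLinearMap.snd ℂ ℂ ℂ) q)
    (h1 : ∀ q ∈ Ω, ∀ q' ∈ Ω, ‖f1 q - f1 q'‖ ≤ M * ‖q - q'‖)
    (h2 : ∀ q ∈ Ω, ∀ q' ∈ Ω, ‖f2 q - f2 q'‖ ≤ M * ‖q - q'‖)
    (q a b : ℂ × ℂ) (hq : q ∈ Ω) (ha : a ∈ Ω) (hb : b ∈ Ω) {ρ : ℝ} (hM : 0 ≤ M)
    (haρ : ‖a - q‖ ≤ ρ) (hbρ : ‖b - q‖ ≤ ρ) :
    ‖f b - f a - (f1 q * (b.1 - a.1) + f2 q * (b.2 - a.2))‖ ≤ 2 * M * ρ * ‖b - a‖ := by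
  set S : Set (ℂ × ℂ) := Ω ∩ Metric.closedBall q ρ with hS
  have hSc : Convex ℝ S := hΩ.inter (convex_closedBall q ρ)
  have haS : a ∈ S := ⟨ha, by simpa [dist_eq_norm] using haρ⟩
  have hbS : b ∈ S := ⟨hb, by simpa [dist_eq_norm] using hbρ⟩
  set L : ℂ × ℂ →L[ℂ] ℂ :=
    f1 q • ContinuousLinearMap.fst ℂ ℂ ℂ + f2 q • ContinuousLinearMap.snd ℂ ℂ ℂ with hL
  have key := hSc.norm_image_sub_le_of_norm_hasFDerivWithin_le (𝕜 := ℂ) (f := fun x => f x - L x)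
    (f' := fun x => (f1 x • ContinuousLinearMap.fst ℂ ℂ ℂ +
      f2 x • ContinuousLinearMap.snd ℂ ℂ ℂ) - L) (C := 2 * M * ρ)
    (fun x hx => ((hf x hx.1).sub L.hasFDerivAt).hasFDerivWithinAt) ?_ haS hbS
  · have e1 : L b = f1 q * b.1 + f2 q * b.2 := rfl
    have e2 : L a = f1 q * a.1 + f2 q * a.2 := rfl
    have e3 : f b - f a - (f1 q * (b.1 - a.1) + f2 q * (b.2 - a.2)) =
        f b - L b - (f a - L a) := by rw [e1, e2]; ring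
    rw [e3]; exact key
  · intro x hx
    have hx2 : ‖x - q‖ ≤ ρ := by simpa [dist_eq_norm] using hx.2
    have : (f1 x • ContinuousLinearMap.fst ℂ ℂ ℂ + f2 x • ContinuousLinearMap.snd ℂ ℂ ℂ) - L
        = (f1 x - f1 q) • ContinuousLinearMap.fst ℂ ℂ ℂ +
          (f2 x - f2 q) • ContinuousLinearMap.snd ℂ ℂ ℂ := by
      rw [hL]; module
    rw [this]
    refine (norm_fst_snd_le _ _).trans ?_
    have e1 := h1 x hx.1 q hq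
    have e2 := h2 x hx.1 q hq
    have e3 : M * ‖x - q‖ ≤ M * ρ := by gcongr
    linarith

section Chain

variable (F1 F2 F12 : ℂ × ℂ → ℂ) (θ v : ℂ → ℂ) (ε : ℝ)

/-- vertices of the approximate chain. -/
noncomputable def zc (i : ℕ) (x : ℂ) : ℂ := θ (x + i * ε)

/-- edge weights. -/
noncomputable def cw (x : ℂ) : ℂ := -F12 (θ x, θ (x + ε)) * v x * v (x + ε)

/-- chain defined by `U`. -/
noncomputable def Yc (U : ℕ → ℂ) (i : ℕ) (x : ℂ) : ℂ := θ (x + i * ε) + v (x + i * ε) * U i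

/-- the Euler-Lagrange residue of a chain at the vertex `i + 1`. -/
noncomputable def ELr (y : ℕ → ℂ) (i : ℕ) : ℂ :=
  F1 (y (i + 1), y (i + 2)) + F2 (y i, y (i + 1))

/-- nonlinear term `N` at the vertex `k` (only used for `k ≥ 1`). -/
noncomputable def Nt (x : ℂ) (U : ℕ → ℂ) (k : ℕ) : ℂ :=
  v (x + k * ε) * ELr F1 F2 (fun i => Yc θ v ε U i x) (k - 1)
    + cw F12 θ v ε (x + k * ε) * (U (k + 1) - U k)
    - cw F12 θ v ε (x + (k - 1 : ℕ) * ε) * (U k - U (k - 1))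

/-- the fixed point map. -/
noncomputable def Tm (n : ℕ) (x : ℂ) (U : ℕ → ℂ) (k : ℕ) : ℂ :=
  if k < n then dG n (fun i => (cw F12 θ v ε (x + i * ε))⁻¹) (Nt F1 F2 F12 θ v ε x U) k else 0

end Chain

/-- The data at a real parameter `ε`: almost invariant family `θ` with Euler-Lagrange error `≤ e₀`
and derivative of the error `≤ e₁`. -/
structure Approx (F1 F2 F11 F12 F22 : ℂ × ℂ → ℂ) (Ω : Set (ℂ × ℂ)) (θ v : ℂ → ℂ)
    (ε r κ ρ e₀ e₁ : ℝ) : Prop where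
  hκ : 0 < κ
  hθ : ∀ x : ℂ, |x.im| < r → HasDerivAt θ (v x) x
  hv : DifferentiableOn ℂ v {x | |x.im| < r}
  hv2 : ∀ x : ℂ, |x.im| < r → ‖v x‖ ≤ 2
  hE0 : ∀ x : ℂ, |x.im| < r → ‖F1 (θ x, θ (x + ε)) + F2 (θ (x - ε), θ x)‖ ≤ e₀
  hE1 : ∀ x : ℂ, |x.im| < r → ‖F11 (θ x, θ (x + ε)) * v x + F12 (θ x, θ (x + ε)) * v (x + ε) +
    F12 (θ (x - ε), θ x) * v (x - ε) + F22 (θ (x - ε), θ x) * v x‖ ≤ e₁
  hc : ∀ x : ℂ, |x.im| < r → ‖cw F12 θ v ε x - κ‖ ≤ κ / 4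
  hΩ : ∀ x : ℂ, |x.im| < r → ∀ h : ℂ × ℂ, ‖h‖ ≤ 2 * ρ → (θ x, θ (x + ε)) + h ∈ Ω

section Lip

variable {F F1 F2 F11 F12 F22 : ℂ × ℂ → ℂ} {Ω : Set (ℂ × ℂ)} {M M₂ : ℝ} {θ v : ℂ → ℂ}
  {ε r κ ρ e₀ e₁ : ℝ}

lemma im_add_real {x : ℂ} (n : ℕ) (ε : ℝ) : (x + n * ε).im = x.im := by simp

lemma Nt_succ (x : ℂ) (U : ℕ → ℂ) (k : ℕ) :
    Nt F1 F2 F12 θ v ε x U (k + 1) =
      v (x + (k + 1 : ℕ) * ε) * (F1 (Yc θ v ε U (k + 1) x, Yc θ v ε U (k + 2) x)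
        + F2 (Yc θ v ε U k x, Yc θ v ε U (k + 1) x))
      + cw F12 θ v ε (x + (k + 1 : ℕ) * ε) * (U (k + 2) - U (k + 1))
      - cw F12 θ v ε (x + k * ε) * (U (k + 1) - U k) := by
  simp [Nt, ELr]

lemma Approx.pair_mem (h : Approx F1 F2 F11 F12 F22 Ω θ v ε r κ ρ e₀ e₁) {x : ℂ}
    (hx : |x.im| < r) (i : ℕ) {a b : ℂ} (ha : ‖a‖ ≤ 2 * ρ) (hb : ‖b‖ ≤ 2 * ρ) :
    (θ (x + i * ε) + a, θ (x + (i + 1 : ℕ) * ε) + b) ∈ Ω := by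
  have := h.hΩ (x + i * ε) (by rwa [im_add_real]) (a, b) (by
    rw [Prod.norm_mk]; exact max_le ha hb)
  rw [Prod.mk_add_mk] at this
  have e : x + ((i + 1 : ℕ) : ℂ) * ε = x + i * ε + ε := by push_cast; ring
  rw [e]; exact this

lemma Approx.vU (h : Approx F1 F2 F11 F12 F22 Ω θ v ε r κ ρ e₀ e₁) {x : ℂ}
    (hx : |x.im| < r) (i : ℕ) {u : ℂ} {d : ℝ} (hu : ‖u‖ ≤ d) : ‖v (x + i * ε) * u‖ ≤ 2 * d := by
  rw [norm_mul]
  exact mul_le_mul (h.hv2 _ (by rwa [im_add_real])) hu (norm_nonneg _) (by norm_num)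

lemma Approx.Yc_mem (h : Approx F1 F2 F11 F12 F22 Ω θ v ε r κ ρ e₀ e₁) {x : ℂ}
    (hx : |x.im| < r) (i : ℕ) {U : ℕ → ℂ} (hU : ∀ i, ‖U i‖ ≤ ρ) :
    (Yc θ v ε U i x, Yc θ v ε U (i + 1) x) ∈ Ω :=
  h.pair_mem hx i (h.vU hx i (hU i)) (h.vU hx (i + 1) (hU (i + 1)))

/-- Lipschitz estimate for the nonlinear term. -/
lemma Approx.Nt_lip (hF : GF F F1 F2 F11 F12 F22 Ω M M₂) (hM : 0 ≤ M)
    (h : Approx F1 F2 F11 F12 F22 Ω θ v ε r κ ρ e₀ e₁) {x : ℂ} (hx : |x.im| < r)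
    {U V : ℕ → ℂ} (hU : ∀ i, ‖U i‖ ≤ ρ) (hV : ∀ i, ‖V i‖ ≤ ρ) {d : ℝ}
    (hd : ∀ i, ‖U i - V i‖ ≤ d) (k : ℕ) :
    ‖Nt F1 F2 F12 θ v ε x U (k + 1) - Nt F1 F2 F12 θ v ε x V (k + 1)‖
      ≤ (2 * e₁ + 32 * M * ρ) * d := by
  have hρ : 0 ≤ ρ := (norm_nonneg _).trans (hU 0)
  have hd0 : 0 ≤ d := (norm_nonneg _).trans (hd 0)
  rw [Nt_succ, Nt_succ]
  -- base points
  have q1 := h.pair_mem hx (k + 1) (a := 0) (b := 0) (by simp; positivity) (by simp; positivity)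
  have q0 := h.pair_mem hx k (a := 0) (b := 0) (by simp; positivity) (by simp; positivity)
  simp only [add_zero] at q1 q0
  set z0 := θ (x + k * ε) with hz0
  set z1 := θ (x + (k + 1 : ℕ) * ε) with hz1
  set z2 := θ (x + (k + 2 : ℕ) * ε) with hz2
  set v0 := v (x + k * ε) with hv0
  set v1 := v (x + (k + 1 : ℕ) * ε) with hv1
  set v2 := v (x + (k + 2 : ℕ) * ε) with hv2
  have hY0 : ∀ W : ℕ → ℂ, Yc θ v ε W k x = z0 + v0 * W k := fun W => rfl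
  have hY1 : ∀ W : ℕ → ℂ, Yc θ v ε W (k + 1) x = z1 + v1 * W (k + 1) := fun W => rfl
  have hY2 : ∀ W : ℕ → ℂ, Yc θ v ε W (k + 2) x = z2 + v2 * W (k + 2) := fun W => rfl
  -- remainders
  have r1 := remainder_le hF.conv hF.dF1 hF.lip11 hF.lip12 (z1, z2)
    (Yc θ v ε V (k + 1) x, Yc θ v ε V (k + 2) x) (Yc θ v ε U (k + 1) x, Yc θ v ε U (k + 2) x)
    q1 (h.Yc_mem hx (k + 1) hV) (h.Yc_mem hx (k + 1) hU) (ρ := 2 * ρ) hM (by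
      rw [hY1, hY2]
      simp only [Prod.mk_sub_mk, add_sub_cancel_left, Prod.norm_mk]
      exact max_le (h.vU hx _ (hV _)) (h.vU hx _ (hV _))) (by
      rw [hY1, hY2]
      simp only [Prod.mk_sub_mk, add_sub_cancel_left, Prod.norm_mk]
      exact max_le (h.vU hx _ (hU _)) (h.vU hx _ (hU _)))
  have r2 := remainder_le hF.conv hF.dF2 hF.lip12 hF.lip22 (z0, z1)
    (Yc θ v ε V k x, Yc θ v ε V (k + 1) x) (Yc θ v ε U k x, Yc θ v ε U (k + 1) x)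
    q0 (h.Yc_mem hx k hV) (h.Yc_mem hx k hU) (ρ := 2 * ρ) hM (by
      rw [hY0, hY1]
      simp only [Prod.mk_sub_mk, add_sub_cancel_left, Prod.norm_mk]
      exact max_le (h.vU hx _ (hV _)) (h.vU hx _ (hV _))) (by
      rw [hY0, hY1]
      simp only [Prod.mk_sub_mk, add_sub_cancel_left, Prod.norm_mk]
      exact max_le (h.vU hx _ (hU _)) (h.vU hx _ (hU _)))
  have b1 : ‖(Yc θ v ε U (k + 1) x, Yc θ v ε U (k + 2) x) -
      (Yc θ v ε V (k + 1) x, Yc θ v ε V (k + 2) x)‖ ≤ 2 * d := by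
    rw [hY1, hY2, hY1, hY2]
    simp only [Prod.mk_sub_mk, add_sub_add_left_eq_sub, Prod.norm_mk, ← mul_sub]
    exact max_le (h.vU hx _ (hd _)) (h.vU hx _ (hd _))
  have b2 : ‖(Yc θ v ε U k x, Yc θ v ε U (k + 1) x) -
      (Yc θ v ε V k x, Yc θ v ε V (k + 1) x)‖ ≤ 2 * d := by
    rw [hY0, hY1, hY0, hY1]
    simp only [Prod.mk_sub_mk, add_sub_add_left_eq_sub, Prod.norm_mk, ← mul_sub]
    exact max_le (h.vU hx _ (hd _)) (h.vU hx _ (hd _))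
  have r1' := r1.trans (mul_le_mul_of_nonneg_left b1 (by positivity))
  have r2' := r2.trans (mul_le_mul_of_nonneg_left b2 (by positivity))
  clear r1 r2 b1 b2
  -- the linear part
  have hE := h.hE1 (x + (k + 1 : ℕ) * ε) (by rwa [im_add_real])
  have x2 : x + ((k + 1 : ℕ) : ℂ) * ε + ε = x + (k + 2 : ℕ) * ε := by push_cast; ring
  have x0 : x + ((k + 1 : ℕ) : ℂ) * ε - ε = x + (k : ℕ) * ε := by push_cast; ring
  have x1 : x + (k : ℂ) * ε + ε = x + (k + 1 : ℕ) * ε := by push_cast; ring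
  rw [x2, x0] at hE
  rw [← hz0, ← hz1, ← hz2, ← hv0, ← hv1, ← hv2] at hE
  have hc1 : cw F12 θ v ε (x + (k + 1 : ℕ) * ε) = -F12 (z1, z2) * v1 * v2 := by
    rw [cw, x2]
  have hc0 : cw F12 θ v ε (x + k * ε) = -F12 (z0, z1) * v0 * v1 := by
    rw [cw, x1]
  rw [hc1, hc0]
  have hn1 : ‖v1‖ ≤ 2 := h.hv2 _ (by rwa [im_add_real])
  set R1 := F1 (Yc θ v ε U (k + 1) x, Yc θ v ε U (k + 2) x) -
    F1 (Yc θ v ε V (k + 1) x, Yc θ v ε V (k + 2) x) -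
      (F11 (z1, z2) * ((Yc θ v ε U (k + 1) x, Yc θ v ε U (k + 2) x).1 -
        (Yc θ v ε V (k + 1) x, Yc θ v ε V (k + 2) x).1) +
      F12 (z1, z2) * ((Yc θ v ε U (k + 1) x, Yc θ v ε U (k + 2) x).2 -
        (Yc θ v ε V (k + 1) x, Yc θ v ε V (k + 2) x).2)) with hR1
  set R2 := F2 (Yc θ v ε U k x, Yc θ v ε U (k + 1) x) -
    F2 (Yc θ v ε V k x, Yc θ v ε V (k + 1) x) -
      (F12 (z0, z1) * ((Yc θ v ε U k x, Yc θ v ε U (k + 1) x).1 -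
        (Yc θ v ε V k x, Yc θ v ε V (k + 1) x).1) +
      F22 (z0, z1) * ((Yc θ v ε U k x, Yc θ v ε U (k + 1) x).2 -
        (Yc θ v ε V k x, Yc θ v ε V (k + 1) x).2)) with hR2
  have hid : v1 * (F1 (Yc θ v ε U (k + 1) x, Yc θ v ε U (k + 2) x) +
        F2 (Yc θ v ε U k x, Yc θ v ε U (k + 1) x)) +
        -F12 (z1, z2) * v1 * v2 * (U (k + 2) - U (k + 1)) -
        -F12 (z0, z1) * v0 * v1 * (U (k + 1) - U k) -
      (v1 * (F1 (Yc θ v ε V (k + 1) x, Yc θ v ε V (k + 2) x) +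
        F2 (Yc θ v ε V k x, Yc θ v ε V (k + 1) x)) +
        -F12 (z1, z2) * v1 * v2 * (V (k + 2) - V (k + 1)) -
        -F12 (z0, z1) * v0 * v1 * (V (k + 1) - V k)) =
      v1 * (R1 + R2) + v1 * (F11 (z1, z2) * v1 + F12 (z1, z2) * v2 + F12 (z0, z1) * v0 +
        F22 (z0, z1) * v1) * (U (k + 1) - V (k + 1)) := by
    rw [hR1, hR2]
    simp only [hY0, hY1, hY2]
    ring
  rw [hid]
  calc _ ≤ ‖v1 * (R1 + R2)‖ + ‖v1 * (F11 (z1, z2) * v1 + F12 (z1, z2) * v2 +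
        F12 (z0, z1) * v0 + F22 (z0, z1) * v1) * (U (k + 1) - V (k + 1))‖ := norm_add_le _ _
    _ ≤ 2 * (2 * M * (2 * ρ) * (2 * d) + 2 * M * (2 * ρ) * (2 * d)) + 2 * e₁ * d := by
        gcongr
        · rw [norm_mul]
          exact mul_le_mul hn1 ((norm_add_le _ _).trans (add_le_add r1' r2')) (norm_nonneg _)
            (by norm_num)
        · rw [norm_mul, norm_mul]
          refine mul_le_mul (mul_le_mul hn1 hE (norm_nonneg _) (by norm_num)) (hd _)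
            (norm_nonneg _) ?_
          have : 0 ≤ e₁ := (norm_nonneg _).trans hE
          positivity
    _ = (2 * e₁ + 32 * M * ρ) * d := by ring

lemma Nt_zero (x : ℂ) (k : ℕ) : Nt F1 F2 F12 θ v ε x 0 (k + 1) = v (x + (k + 1 : ℕ) * ε) *
      (F1 (θ (x + (k + 1 : ℕ) * ε), θ (x + (k + 1 : ℕ) * ε + ε)) +
        F2 (θ (x + (k + 1 : ℕ) * ε - ε), θ (x + (k + 1 : ℕ) * ε))) := by
  rw [Nt_succ]
  have x2 : x + ((k + 1 : ℕ) : ℂ) * ε + ε = x + (k + 2 : ℕ) * ε := by push_cast; ring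
  have x0 : x + ((k + 1 : ℕ) : ℂ) * ε - ε = x + (k : ℕ) * ε := by push_cast; ring
  rw [x2, x0]
  simp [Yc]

lemma Approx.Nt_zero_le (h : Approx F1 F2 F11 F12 F22 Ω θ v ε r κ ρ e₀ e₁) {x : ℂ}
    (hx : |x.im| < r) (k : ℕ) : ‖Nt F1 F2 F12 θ v ε x 0 (k + 1)‖ ≤ 2 * e₀ := by
  rw [Nt_zero, norm_mul]
  have hx' : |(x + (k + 1 : ℕ) * ε).im| < r := by rwa [im_add_real]
  exact mul_le_mul (h.hv2 _ hx') (h.hE0 _ hx') (norm_nonneg _) (by norm_num)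

/-- `Tm` is a half contraction. -/
lemma Approx.halfContr (hF : GF F F1 F2 F11 F12 F22 Ω M M₂) (hM : 0 ≤ M)
    (h : Approx F1 F2 F11 F12 F22 Ω θ v ε r κ ρ e₀ e₁) (n : ℕ) (hn : 0 < n)
    (hρ : ρ = 24 * n ^ 2 * e₀ / κ)
    (hsmall : 24 * n ^ 2 * e₁ / κ + 9216 * M * n ^ 4 * e₀ / κ ^ 2 ≤ 1)
    {x : ℂ} (hx : |x.im| < r) : HalfContr (Tm F1 F2 F12 θ v ε n x) ρ := by
  have hκ := h.hκ
  have he0 : 0 ≤ e₀ := (norm_nonneg _).trans (h.hE0 x hx)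
  have he1 : 0 ≤ e₁ := (norm_nonneg _).trans (h.hE1 x hx)
  have hρ0 : 0 ≤ ρ := by rw [hρ]; positivity
  have hcw : ∀ i < n, ‖cw F12 θ v ε (x + i * ε) - κ‖ ≤ κ / 4 := fun i _ =>
    h.hc _ (by rwa [im_add_real])
  refine ⟨fun i => ?_, fun U V hU hV d hd i => ?_⟩
  · unfold Tm
    split_ifs with hi
    · refine (dG_weight n _ _ hκ (ρ := 2 * e₀) (by positivity) hn hcw
        (fun k _ => h.Nt_zero_le hx k) i hi.le).trans (le_of_eq ?_)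
      rw [hρ]; field_simp; ring
    · simp; positivity
  · have hd0 : 0 ≤ d := (norm_nonneg _).trans (hd 0)
    unfold Tm
    split_ifs with hi
    · rw [dG_sub]
      have := dG_weight n (fun i : ℕ => cw F12 θ v ε (x + i * ε))
        (fun j => Nt F1 F2 F12 θ v ε x U j - Nt F1 F2 F12 θ v ε x V j) hκ
        (ρ := (2 * e₁ + 32 * M * ρ) * d) (by positivity) hn hcw
        (fun k _ => h.Nt_lip hF hM hx hU hV hd k) i hi.le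
      refine this.trans ?_
      have e : 6 * (n : ℝ) ^ 2 / κ * ((2 * e₁ + 32 * M * ρ) * d) =
          (24 * n ^ 2 * e₁ / κ + 9216 * M * n ^ 4 * e₀ / κ ^ 2) / 2 * d := by
        rw [hρ]; field_simp; ring
      rw [e]
      nlinarith
    · simp; positivity

end Lip

end Vale.Agent.P097.H799
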