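import Mathlib
import Vale.Agent.P097.H799.Pin

/-!
# Existence and holomorphy of the pinned critical chains
-/

namespace Vale.Agent.P097.H799

open Finset Complex Filter Topology

/-- the open strip. -/
def strip (r : ℝ) : Set ℂ := {x | |x.im| < r}

lemma mem_strip {r : ℝ} {x : ℂ} : x ∈ strip r ↔ |x.im| < r := Iff.rfl

lemma isOpen_strip (r : ℝ) : IsOpen (strip r) :=
  isOpen_lt (continuous_abs.comp Complex.continuous_im) continuous_const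

lemma strip_add {r : ℝ} {x : ℂ} (hx : x ∈ strip r) (n : ℕ) (ε : ℝ) : x + n * ε ∈ strip r := by
  rw [mem_strip, im_add_real]; exact hx

/-- Conclusion: a family of pinned critical chains, `y i x = θ (x + i ε) + v (x + i ε) U i x`. -/
structure Pinned (F1 F2 F12 : ℂ × ℂ → ℂ) (θ v : ℂ → ℂ) (ε r ρ δ₂ : ℝ) (n : ℕ)
    (U : ℕ → ℂ → ℂ) : Prop where
  hol : ∀ i, DifferentiableOn ℂ (U i) (strip r)
  zero : ∀ x ∈ strip r, U 0 x = 0
  top : ∀ x ∈ strip r, ∀ i, n ≤ i → U i x = 0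
  bd : ∀ x ∈ strip r, ∀ i, ‖U i x‖ ≤ ρ
  el : ∀ x ∈ strip r, ∀ i, i + 1 < n →
    ELr F1 F2 (fun j => Yc θ v ε (fun k => U k x) j x) i = 0
  lin : ∀ x ∈ strip r, ∀ i, i + 1 < n →
    ‖cw F12 θ v ε (x + (i + 1 : ℕ) * ε) * (U (i + 2) x - U (i + 1) x)
      - cw F12 θ v ε (x + i * ε) * (U (i + 1) x - U i x)
      - v (x + (i + 1 : ℕ) * ε) *
        (F1 (θ (x + (i + 1 : ℕ) * ε), θ (x + (i + 1 : ℕ) * ε + ε)) +
        F2 (θ (x + (i + 1 : ℕ) * ε - ε), θ (x + (i + 1 : ℕ) * ε)))‖ ≤ δ₂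

section

variable {F F1 F2 F11 F12 F22 : ℂ × ℂ → ℂ} {Ω : Set (ℂ × ℂ)} {M M₂ : ℝ} {θ v : ℂ → ℂ}
  {ε r κ ρ e₀ e₁ : ℝ}

lemma Approx.diff_θ (h : Approx F1 F2 F11 F12 F22 Ω θ v ε r κ ρ e₀ e₁) {x : ℂ}
    (hx : x ∈ strip r) (i : ℕ) : DifferentiableAt ℂ (fun x => θ (x + i * ε)) x :=
  (h.hθ _ (strip_add hx i ε)).differentiableAt.comp x (by fun_prop)

lemma Approx.diff_v (h : Approx F1 F2 F11 F12 F22 Ω θ v ε r κ ρ e₀ e₁) {x : ℂ}
    (hx : x ∈ strip r) (i : ℕ) : DifferentiableAt ℂ (fun x => v (x + i * ε)) x :=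
  ((h.hv.differentiableAt ((isOpen_strip r).mem_nhds (strip_add hx i ε)))).comp x (by fun_prop)

lemma Approx.nonneg_ρ (h : Approx F1 F2 F11 F12 F22 Ω θ v ε r κ ρ e₀ e₁) (hρ : 0 ≤ ρ) {x : ℂ}
    (hx : x ∈ strip r) (i : ℕ) : (θ (x + i * ε), θ (x + (i + 1 : ℕ) * ε)) ∈ Ω := by
  have := h.pair_mem hx i (a := 0) (b := 0) (by simp; positivity) (by simp; positivity)
  simpa using this

lemma Approx.diff_cw (hF : GF F F1 F2 F11 F12 F22 Ω M M₂)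
    (h : Approx F1 F2 F11 F12 F22 Ω θ v ε r κ ρ e₀ e₁) (hρ : 0 ≤ ρ) {x : ℂ}
    (hx : x ∈ strip r) (i : ℕ) :
    DifferentiableAt ℂ (fun x => cw F12 θ v ε (x + i * ε)) x := by
  have e : ∀ x : ℂ, x + (i : ℂ) * ε + ε = x + (i + 1 : ℕ) * ε := by
    intro x; push_cast; ring
  simp only [cw, e]
  have h1 : DifferentiableAt ℂ (fun x => F12 (θ (x + i * ε), θ (x + (i + 1 : ℕ) * ε))) x :=
    (hF.d12 _ (h.nonneg_ρ hρ hx i)).comp x ((h.diff_θ hx i).prodMk (h.diff_θ hx (i + 1)))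
  exact (h1.neg.mul (h.diff_v hx i)).mul (h.diff_v hx (i + 1))

lemma Approx.cw_ne (h : Approx F1 F2 F11 F12 F22 Ω θ v ε r κ ρ e₀ e₁) {x : ℂ}
    (hx : x ∈ strip r) (i : ℕ) : cw F12 θ v ε (x + i * ε) ≠ 0 :=
  (weight_bounds h.hκ _ (h.hc _ (strip_add hx i ε))).1

lemma Approx.v_ne (h : Approx F1 F2 F11 F12 F22 Ω θ v ε r κ ρ e₀ e₁) {x : ℂ}
    (hx : x ∈ strip r) (i : ℕ) : v (x + i * ε) ≠ 0 := by
  have := h.cw_ne hx i
  intro h0
  apply this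
  simp [cw, h0]

lemma Approx.diff_Nt (hF : GF F F1 F2 F11 F12 F22 Ω M M₂)
    (h : Approx F1 F2 F11 F12 F22 Ω θ v ε r κ ρ e₀ e₁) (hρ : 0 ≤ ρ) {W : ℂ → ℕ → ℂ} {x : ℂ}
    (hx : x ∈ strip r) (hW : ∀ i, DifferentiableAt ℂ (fun x => W x i) x)
    (hWρ : ∀ i, ‖W x i‖ ≤ ρ) (k : ℕ) :
    DifferentiableAt ℂ (fun x => Nt F1 F2 F12 θ v ε x (W x) (k + 1)) x := by
  simp only [Nt_succ]
  have hY : ∀ i, DifferentiableAt ℂ (fun x => Yc θ v ε (W x) i x) x := fun i =>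
    (h.diff_θ hx i).add ((h.diff_v hx i).mul (hW i))
  have h1 : DifferentiableAt ℂ
      (fun x => F1 (Yc θ v ε (W x) (k + 1) x, Yc θ v ε (W x) (k + 2) x)) x :=
    (hF.dF1 _ (h.Yc_mem hx (k + 1) hWρ)).differentiableAt.comp x
      ((hY (k + 1)).prodMk (hY (k + 2)))
  have h2 : DifferentiableAt ℂ
      (fun x => F2 (Yc θ v ε (W x) k x, Yc θ v ε (W x) (k + 1) x)) x :=
    (hF.dF2 _ (h.Yc_mem hx k hWρ)).differentiableAt.comp x ((hY k).prodMk (hY (k + 1)))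
  exact (((h.diff_v hx (k + 1)).mul (h1.add h2)).add
    ((h.diff_cw hF hρ hx (k + 1)).mul ((hW (k + 2)).sub (hW (k + 1))))).sub
    ((h.diff_cw hF hρ hx k).mul ((hW (k + 1)).sub (hW k)))

lemma diff_dS {R : ℂ → ℕ → ℂ} {x : ℂ} (hR : ∀ k, DifferentiableAt ℂ (fun x => R x (k + 1)) x)
    (i : ℕ) : DifferentiableAt ℂ (fun x => dS (R x) i) x := by
  unfold dS
  exact DifferentiableAt.fun_sum fun j _ => hR j

lemma Approx.diff_Tm (hF : GF F F1 F2 F11 F12 F22 Ω M M₂)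
    (h : Approx F1 F2 F11 F12 F22 Ω θ v ε r κ ρ e₀ e₁) (hρ : 0 ≤ ρ) {n : ℕ} (hn : 0 < n)
    {W : ℂ → ℕ → ℂ} {x : ℂ} (hx : x ∈ strip r)
    (hW : ∀ i, DifferentiableAt ℂ (fun x => W x i) x)
    (hWρ : ∀ i, ‖W x i‖ ≤ ρ) (k : ℕ) :
    DifferentiableAt ℂ (fun x => Tm F1 F2 F12 θ v ε n x (W x) k) x := by
  unfold Tm
  split_ifs with hk
  · unfold dG dA
    have hN := fun k => h.diff_Nt hF hρ hx hW hWρ k
    have hb : ∀ i : ℕ, DifferentiableAt ℂ (fun x => (cw F12 θ v ε (x + i * ε))⁻¹) x := fun i =>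
      (h.diff_cw hF hρ hx i).inv (h.cw_ne hx i)
    refine DifferentiableAt.fun_sum fun i _ => (hb i).mul (DifferentiableAt.add ?_ (diff_dS hN i))
    refine DifferentiableAt.div ?_ ?_ ?_
    · exact (DifferentiableAt.fun_sum fun i _ => (hb i).mul (diff_dS hN i)).neg
    · exact DifferentiableAt.fun_sum fun i _ => hb i
    · exact sum_weight_ne_zero n _ h.hκ hn fun i _ => h.hc _ (strip_add hx i ε)
  · exact differentiableAt_const _

lemma Approx.diff_iter (hF : GF F F1 F2 F11 F12 F22 Ω M M₂)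
    (h : Approx F1 F2 F11 F12 F22 Ω θ v ε r κ ρ e₀ e₁) (hρ : 0 ≤ ρ) {n : ℕ} (hn : 0 < n)
    (hT : ∀ x ∈ strip r, HalfContr (Tm F1 F2 F12 θ v ε n x) ρ) (k : ℕ) (i : ℕ) {x : ℂ}
    (hx : x ∈ strip r) :
    DifferentiableAt ℂ (fun x => ((Tm F1 F2 F12 θ v ε n x)^[k]) 0 i) x := by
  induction k generalizing i with
  | zero => simp
  | succ k ih =>
    simp only [Function.iterate_succ_apply']
    exact h.diff_Tm hF hρ hn hx (W := fun x => ((Tm F1 F2 F12 θ v ε n x)^[k]) 0) ih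
      (fun i => (hT x hx).iter_le k i) i

/-- **Existence of pinned critical chains** (package A4). -/
theorem Approx.exists_pinned (hF : GF F F1 F2 F11 F12 F22 Ω M M₂) (hM : 0 ≤ M)
    (h : Approx F1 F2 F11 F12 F22 Ω θ v ε r κ ρ e₀ e₁) (hr : 0 < r) (n : ℕ) (hn : 0 < n)
    (hρ : ρ = 24 * n ^ 2 * e₀ / κ)
    (hsmall : 24 * n ^ 2 * e₁ / κ + 9216 * M * n ^ 4 * e₀ / κ ^ 2 ≤ 1) :
    ∃ U : ℕ → ℂ → ℂ, Pinned F1 F2 F12 θ v ε r ρ ((2 * e₁ + 32 * M * ρ) * ρ) n U ∧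
      (∀ x ∈ strip r, Tm F1 F2 F12 θ v ε n x (fun i => U i x) = fun i => U i x) ∧
      (∀ x ∈ strip r, ∀ i, Tendsto (fun k => ((Tm F1 F2 F12 θ v ε n x)^[k]) 0 i) atTop
        (𝓝 (U i x))) := by
  classical
  have hκ := h.hκ
  have h0 : (0 : ℂ) ∈ strip r := by simp [mem_strip, hr]
  have he0 : 0 ≤ e₀ := (norm_nonneg _).trans (h.hE0 0 h0)
  have hρ0 : 0 ≤ ρ := by rw [hρ]; positivity
  have hT : ∀ x ∈ strip r, HalfContr (Tm F1 F2 F12 θ v ε n x) ρ := fun x hx =>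
    h.halfContr hF hM n hn hρ hsmall hx
  have hex : ∀ x : ℂ, ∃ U : ℕ → ℂ, x ∈ strip r → (Tm F1 F2 F12 θ v ε n x U = U ∧
      (∀ i, ‖U i‖ ≤ ρ) ∧
      ∀ k i, ‖((Tm F1 F2 F12 θ v ε n x)^[k]) 0 i - U i‖ ≤ 2 * (ρ / 2) * (1 / 2) ^ k) := by
    intro x
    by_cases hx : x ∈ strip r
    · obtain ⟨U, h1, h2, _, h4⟩ := (hT x hx).exists_fp (hT x hx).zero
      exact ⟨U, fun _ => ⟨h1, h2, h4⟩⟩
    · exact ⟨0, fun hx' => absurd hx' hx⟩
  choose V hV using hex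
  have hgeo : Tendsto (fun k : ℕ => 2 * (ρ / 2) * (1 / 2 : ℝ) ^ k) atTop (𝓝 0) := by
    have := (tendsto_pow_atTop_nhds_zero_of_lt_one (r := (1 / 2 : ℝ)) (by norm_num)
        (by norm_num)).const_mul (2 * (ρ / 2))
    simpa using this
  have hunif : ∀ i, TendstoUniformlyOn (fun k x => ((Tm F1 F2 F12 θ v ε n x)^[k]) 0 i)
      (fun x => V x i) atTop (strip r) := by
    intro i
    rw [Metric.tendstoUniformlyOn_iff]
    intro δ hδ
    filter_upwards [hgeo.eventually (gt_mem_nhds hδ)] with k hk x hx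
    rw [dist_comm, dist_eq_norm]
    exact ((hV x hx).2.2 k i).trans_lt hk
  have hUn : ∀ x ∈ strip r, ∀ i, i ≤ n → V x i =
      dG n (fun i => (cw F12 θ v ε (x + i * ε))⁻¹) (Nt F1 F2 F12 θ v ε x (V x)) i := by
    intro x hx i hi
    have h1 := congrFun (hV x hx).1 i
    rcases hi.lt_or_eq with hi | rfl
    · rw [Tm, if_pos hi] at h1
      exact h1.symm
    · rw [Tm, if_neg (lt_irrefl _)] at h1
      rw [← h1, dG_n]
      exact sum_weight_ne_zero i _ hκ hn fun j _ => h.hc _ (strip_add hx j ε)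
  have hkey : ∀ x ∈ strip r, ∀ i, i + 1 < n →
      cw F12 θ v ε (x + (i + 1 : ℕ) * ε) * (V x (i + 2) - V x (i + 1))
      - cw F12 θ v ε (x + i * ε) * (V x (i + 1) - V x i) =
      Nt F1 F2 F12 θ v ε x (V x) (i + 1) := by
    intro x hx i hi
    rw [hUn x hx (i + 2) hi, hUn x hx (i + 1) hi.le, hUn x hx i (by omega)]
    exact dG_eq n _ (fun i : ℕ => cw F12 θ v ε (x + i * ε)) _
      (fun j _ => mul_inv_cancel₀ (h.cw_ne hx j)) i hi
  refine ⟨fun i x => V x i, ⟨?_, ?_, ?_, ?_, ?_, ?_⟩, ?_, ?_⟩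
  · intro i
    refine (hunif i).tendstoLocallyUniformlyOn.differentiableOn ?_ (isOpen_strip r)
    exact Eventually.of_forall fun k x hx =>
      (h.diff_iter hF hρ0 hn hT k i hx).differentiableWithinAt
  · intro x hx
    rw [hUn x hx 0 hn.le, dG_zero]
  · intro x hx i hi
    have h1 := congrFun (hV x hx).1 i
    rw [Tm, if_neg (not_lt.2 hi)] at h1
    exact h1.symm
  · intro x hx i
    exact (hV x hx).2.1 i
  · intro x hx i hi
    have h1 := hkey x hx i hi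
    rw [Nt_succ] at h1
    have h2 : v (x + (i + 1 : ℕ) * ε) * (F1 (Yc θ v ε (V x) (i + 1) x, Yc θ v ε (V x) (i + 2) x)
        + F2 (Yc θ v ε (V x) i x, Yc θ v ε (V x) (i + 1) x)) = 0 := by
      linear_combination -h1
    rcases mul_eq_zero.1 h2 with h3 | h3
    · exact absurd h3 (h.v_ne hx (i + 1))
    · exact h3
  · intro x hx i hi
    rw [hkey x hx i hi, ← Nt_zero x i (F1 := F1) (F2 := F2) (F12 := F12)]
    exact h.Nt_lip hF hM hx (hV x hx).2.1 (fun i => by simpa using hρ0)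
      (fun i => by simpa using (hV x hx).2.1 i) i
  · intro x hx
    exact (hV x hx).1
  · intro x hx i
    exact (hunif i).tendsto_at hx

end

end Vale.Agent.P097.H799
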