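import Mathlib
import Vale.Agent.P097.H799.Pin2

/-!
# Pinned chains through a resonant leaf are closed; the action is constant
-/

namespace Vale.Agent.P097.H799

open Finset Complex Filter Topology

/-! ### The order argument -/

/-- the twist condition, as monotonicity of the partial derivatives on a set of real pairs. -/
structure Twist (F1 F2 : ℂ × ℂ → ℂ) (D : Set (ℝ × ℝ)) : Prop where
  t1 : ∀ a b b' : ℝ, (a, b) ∈ D → (a, b') ∈ D → b < b' → (F1 (a, b')).re < (F1 (a, b)).re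
  t2 : ∀ a a' b : ℝ, (a, b) ∈ D → (a', b) ∈ D → a < a' → (F2 (a', b)).re < (F2 (a, b)).re

/-- An invariant graph all of whose orbits are closed chains of type `(n, p)`. -/
structure Leaf (F1 F2 : ℂ × ℂ → ℂ) (D : Set (ℝ × ℝ)) (f g : ℝ → ℝ) (n : ℕ) (p : ℝ) : Prop where
  mono : StrictMono f
  fg : ∀ y, f (g y) = y
  gf : ∀ y, g (f y) = y
  mem : ∀ y, (y, f y) ∈ D
  el : ∀ y : ℝ, F1 ((y : ℂ), (f y : ℂ)) + F2 ((g y : ℂ), (y : ℂ)) = 0
  per : ∀ y, f^[n] y = y + p

section Order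

variable {F1 F2 : ℂ × ℂ → ℂ} {D : Set (ℝ × ℝ)} {f g : ℝ → ℝ} {n : ℕ} {p : ℝ}

lemma Leaf.gmono (h : Leaf F1 F2 D f g n p) : StrictMono g := by
  intro a b hab
  by_contra hc
  have := h.mono.monotone (not_lt.1 hc)
  rw [h.fg, h.fg] at this
  linarith

lemma Leaf.gmem (h : Leaf F1 F2 D f g n p) (y : ℝ) : (g y, y) ∈ D := by
  have := h.mem (g y)
  rwa [h.fg] at this

lemma Leaf.step_gt (ht : Twist F1 F2 D) (h : Leaf F1 F2 D f g n p) {a b c : ℝ}
    (hab : (a, b) ∈ D) (hbc : (b, c) ∈ D)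
    (hel : F1 ((b : ℂ), (c : ℂ)) + F2 ((a : ℂ), (b : ℂ)) = 0) (hgt : f a < b) : f b < c := by
  have h1 : a < g b := by
    have := h.gmono hgt
    rwa [h.gf] at this
  have h2 := ht.t2 a (g b) b hab (h.gmem b) h1
  have h3 := congrArg Complex.re hel
  have h4 := congrArg Complex.re (h.el b)
  simp only [Complex.add_re, Complex.zero_re] at h3 h4
  by_contra hc
  rcases (not_lt.1 hc).lt_or_eq with hc | rfl
  · have := ht.t1 b c (f b) hbc (h.mem b) hc
    linarith
  · linarith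

lemma Leaf.step_lt (ht : Twist F1 F2 D) (h : Leaf F1 F2 D f g n p) {a b c : ℝ}
    (hab : (a, b) ∈ D) (hbc : (b, c) ∈ D)
    (hel : F1 ((b : ℂ), (c : ℂ)) + F2 ((a : ℂ), (b : ℂ)) = 0) (hgt : b < f a) : c < f b := by
  have h1 : g b < a := by
    have := h.gmono hgt
    rwa [h.gf] at this
  have h2 := ht.t2 (g b) a b (h.gmem b) hab h1
  have h3 := congrArg Complex.re hel
  have h4 := congrArg Complex.re (h.el b)
  simp only [Complex.add_re, Complex.zero_re] at h3 h4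
  by_contra hc
  rcases (not_lt.1 hc).lt_or_eq with hc | hc
  · have := ht.t1 b (f b) c (h.mem b) hbc hc
    linarith
  · rw [hc] at h4
    linarith

lemma Leaf.step_eq (ht : Twist F1 F2 D) (h : Leaf F1 F2 D f g n p) {a b c : ℝ}
    (hbc : (b, c) ∈ D)
    (hel : F1 ((b : ℂ), (c : ℂ)) + F2 ((a : ℂ), (b : ℂ)) = 0) (hgt : f a = b) : f b = c := by
  have h1 : g b = a := by rw [← hgt, h.gf]
  have h4 := h.el b
  rw [h1] at h4
  have h5 : (F1 ((b : ℂ), (c : ℂ))).re = (F1 ((b : ℂ), (f b : ℂ))).re := by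
    have h3 := congrArg Complex.re hel
    have h4 := congrArg Complex.re h4
    simp only [Complex.add_re, Complex.zero_re] at h3 h4
    linarith
  rcases lt_trichotomy (f b) c with hc | hc | hc
  · have := ht.t1 b (f b) c (h.mem b) hbc hc
    linarith
  · exact hc
  · have := ht.t1 b c (f b) hbc (h.mem b) hc
    linarith

/-- **Order argument**: a real chain of type `(n,p)`, critical at the interior vertices, is the leaf
chain. -/
theorem Leaf.chain_eq (ht : Twist F1 F2 D) (h : Leaf F1 F2 D f g n p) (hn : 0 < n) (y : ℕ → ℝ)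
    (hD : ∀ i < n, (y i, y (i + 1)) ∈ D)
    (hel : ∀ i, i + 1 < n → F1 ((y (i + 1) : ℂ), (y (i + 2) : ℂ)) +
      F2 ((y i : ℂ), (y (i + 1) : ℂ)) = 0)
    (hend : y n = y 0 + p) : ∀ i ≤ n, y i = f^[i] (y 0) := by
  have h01 : f (y 0) = y 1 := by
    rcases lt_trichotomy (f (y 0)) (y 1) with hlt | heq | hlt
    · exfalso
      have key : ∀ i, i + 1 ≤ n → f (y i) < y (i + 1) ∧ f^[i + 1] (y 0) < y (i + 1) := by
        intro i
        induction i with
        | zero => exact fun _ => ⟨hlt, hlt⟩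
        | succ i ih =>
          intro hi
          obtain ⟨h1, h2⟩ := ih (by omega)
          have h3 := h.step_gt ht (hD i (by omega)) (hD (i + 1) hi) (hel i hi) h1
          refine ⟨h3, ?_⟩
          rw [Function.iterate_succ_apply']
          exact (h.mono h2).trans h3
      have h1 := (key (n - 1) (by omega)).2
      rw [Nat.sub_add_cancel hn, h.per, hend] at h1
      exact lt_irrefl _ h1
    · exact heq
    · exfalso
      have key : ∀ i, i + 1 ≤ n → y (i + 1) < f (y i) ∧ y (i + 1) < f^[i + 1] (y 0) := by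
        intro i
        induction i with
        | zero => exact fun _ => ⟨hlt, hlt⟩
        | succ i ih =>
          intro hi
          obtain ⟨h1, h2⟩ := ih (by omega)
          have h3 := h.step_lt ht (hD i (by omega)) (hD (i + 1) hi) (hel i hi) h1
          refine ⟨h3, ?_⟩
          rw [Function.iterate_succ_apply']
          exact h3.trans (h.mono h2)
      have h1 := (key (n - 1) (by omega)).2
      rw [Nat.sub_add_cancel hn, h.per, hend] at h1
      exact lt_irrefl _ h1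
  have key : ∀ i, i + 1 ≤ n → f (y i) = y (i + 1) := by
    intro i
    induction i with
    | zero => exact fun _ => h01
    | succ i ih =>
      intro hi
      exact h.step_eq ht (hD (i + 1) hi) (hel i hi) (ih (by omega))
  intro i
  induction i with
  | zero => intro _; rfl
  | succ i ih =>
    intro hi
    rw [Function.iterate_succ_apply', ← ih (by omega), key i hi]

/-- Such a chain is also critical at the end point. -/
theorem Leaf.closing (ht : Twist F1 F2 D) (h : Leaf F1 F2 D f g n p) (hn : 0 < n) (y : ℕ → ℝ)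
    (hD : ∀ i < n, (y i, y (i + 1)) ∈ D)
    (hel : ∀ i, i + 1 < n → F1 ((y (i + 1) : ℂ), (y (i + 2) : ℂ)) +
      F2 ((y i : ℂ), (y (i + 1) : ℂ)) = 0)
    (hend : y n = y 0 + p)
    (hper : ∀ a b : ℝ, (a, b) ∈ D → F1 ((a + p : ℝ), (b + p : ℝ)) = F1 (a, b)) :
    F1 ((y 0 : ℂ), (y 1 : ℂ)) + F2 ((y (n - 1) : ℂ), (y n : ℂ)) = 0 := by
  have hc := h.chain_eq ht hn y hD hel hend
  have h1 : f (y 0) = y 1 := by rw [hc 1 hn]; rfl
  have h2 : g (y n) = y (n - 1) := by
    rw [hc n le_rfl, hc (n - 1) (by omega)]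
    conv_lhs => rw [← Nat.sub_add_cancel hn, Nat.sub_add_cancel hn]
    have : f^[n] (y 0) = f (f^[n - 1] (y 0)) := by
      rw [← Function.iterate_succ_apply' f (n - 1), Nat.succ_eq_add_one, Nat.sub_add_cancel hn]
    rw [this, h.gf]
  have h3 := h.el (y n)
  rw [h2] at h3
  have h4 : f (y n) = y 1 + p := by
    rw [hc n le_rfl, ← Function.iterate_succ_apply' f n, Function.iterate_succ_apply, h1, h.per]
  rw [h4] at h3
  have h5 := hper (y 0) (y 1) (by have := hD 0 hn; simpa using this)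
  rw [← hend] at h5
  rw [← h5]
  exact h3

end Order

/-! ### real parameters give real chains -/

/-- Reality of the data. -/
structure RealData (F1 F2 F12 : ℂ × ℂ → ℂ) (Ω : Set (ℂ × ℂ)) (θ v : ℂ → ℂ) : Prop where
  θr : ∀ x : ℝ, (θ x).im = 0
  vr : ∀ x : ℝ, (v x).im = 0
  F1r : ∀ q ∈ Ω, q.1.im = 0 → q.2.im = 0 → (F1 q).im = 0
  F2r : ∀ q ∈ Ω, q.1.im = 0 → q.2.im = 0 → (F2 q).im = 0
  F12r : ∀ q ∈ Ω, q.1.im = 0 → q.2.im = 0 → (F12 q).im = 0

/-- the real numbers as a subfield. -/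
noncomputable abbrev KR : Subfield ℂ := Complex.ofRealHom.fieldRange

lemma mem_KR {z : ℂ} : z ∈ KR ↔ z.im = 0 := by
  constructor
  · rintro ⟨a, rfl⟩; simp
  · intro h; exact ⟨z.re, by apply Complex.ext <;> simp [h]⟩

section Real

variable {F F1 F2 F11 F12 F22 : ℂ × ℂ → ℂ} {Ω : Set (ℂ × ℂ)} {M M₂ : ℝ} {θ v : ℂ → ℂ}
  {ε r κ ρ e₀ e₁ : ℝ}

lemma add_real_eq (x : ℝ) (i : ℕ) (ε : ℝ) : (x : ℂ) + i * ε = ((x + i * ε : ℝ) : ℂ) := by
  push_cast; ring

lemma RealData.Yc_mem (hR : RealData F1 F2 F12 Ω θ v) (x : ℝ) {W : ℕ → ℂ} (hW : ∀ i, W i ∈ KR)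
    (i : ℕ) : Yc θ v ε W i x ∈ KR := by
  unfold Yc
  rw [add_real_eq]
  exact KR.add_mem (mem_KR.2 (hR.θr _)) (KR.mul_mem (mem_KR.2 (hR.vr _)) (hW i))

lemma RealData.cw_mem (hR : RealData F1 F2 F12 Ω θ v)
    (h : Approx F1 F2 F11 F12 F22 Ω θ v ε r κ ρ e₀ e₁) (hρ : 0 ≤ ρ) (hr : 0 < r)
    (x : ℝ) (i : ℕ) : cw F12 θ v ε (x + i * ε) ∈ KR := by
  have hx : (x : ℂ) ∈ strip r := by simp [mem_strip, hr]
  have hm := h.nonneg_ρ hρ hx i
  unfold cw
  have e : (x : ℂ) + (i : ℂ) * ε + ε = x + (i + 1 : ℕ) * ε := by push_cast; ring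
  rw [e]
  rw [add_real_eq, add_real_eq] at *
  exact KR.mul_mem (KR.mul_mem (KR.neg_mem (mem_KR.2 (hR.F12r _ hm (hR.θr _) (hR.θr _))))
    (mem_KR.2 (hR.vr _))) (mem_KR.2 (hR.vr _))

lemma RealData.Nt_mem (hR : RealData F1 F2 F12 Ω θ v)
    (h : Approx F1 F2 F11 F12 F22 Ω θ v ε r κ ρ e₀ e₁) (hρ : 0 ≤ ρ) (hr : 0 < r)
    (x : ℝ) {W : ℕ → ℂ} (hW : ∀ i, W i ∈ KR) (hWρ : ∀ i, ‖W i‖ ≤ ρ) (k : ℕ) :
    Nt F1 F2 F12 θ v ε x W (k + 1) ∈ KR := by
  have hx : (x : ℂ) ∈ strip r := by simp [mem_strip, hr]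
  have hY := fun i => hR.Yc_mem (ε := ε) x hW i
  have m1 := h.Yc_mem hx (k + 1) hWρ
  have m0 := h.Yc_mem hx k hWρ
  rw [Nt_succ]
  have hv : v (x + (k + 1 : ℕ) * ε) ∈ KR := by
    rw [add_real_eq]; exact mem_KR.2 (hR.vr _)
  refine KR.sub_mem (KR.add_mem (KR.mul_mem hv (KR.add_mem ?_ ?_)) (KR.mul_mem ?_ ?_))
    (KR.mul_mem ?_ ?_)
  · exact mem_KR.2 (hR.F1r _ m1 (mem_KR.1 (hY _)) (mem_KR.1 (hY _)))
  · exact mem_KR.2 (hR.F2r _ m0 (mem_KR.1 (hY _)) (mem_KR.1 (hY _)))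
  · exact hR.cw_mem h hρ hr x (k + 1)
  · exact KR.sub_mem (hW _) (hW _)
  · exact hR.cw_mem h hρ hr x k
  · exact KR.sub_mem (hW _) (hW _)

lemma RealData.Tm_mem (hR : RealData F1 F2 F12 Ω θ v)
    (h : Approx F1 F2 F11 F12 F22 Ω θ v ε r κ ρ e₀ e₁) (hρ : 0 ≤ ρ) (hr : 0 < r) (n : ℕ)
    (x : ℝ) {W : ℕ → ℂ} (hW : ∀ i, W i ∈ KR) (hWρ : ∀ i, ‖W i‖ ≤ ρ) (k : ℕ) :
    Tm F1 F2 F12 θ v ε n x W k ∈ KR := by
  have hN := fun k => hR.Nt_mem h hρ hr x hW hWρ k
  have hb : ∀ i : ℕ, (cw F12 θ v ε (x + i * ε))⁻¹ ∈ KR := fun i =>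
    KR.inv_mem (hR.cw_mem h hρ hr x i)
  have hS : ∀ i, dS (Nt F1 F2 F12 θ v ε x W) i ∈ KR := fun i =>
    KR.sum_mem fun j _ => hN j
  unfold Tm
  split_ifs with hk
  · unfold dG dA
    refine KR.sum_mem fun i _ => KR.mul_mem (hb i) (KR.add_mem ?_ (hS i))
    exact KR.div_mem (KR.neg_mem (KR.sum_mem fun i _ => KR.mul_mem (hb i) (hS i)))
      (KR.sum_mem fun i _ => hb i)
  · exact KR.zero_mem

lemma RealData.iter_mem (hR : RealData F1 F2 F12 Ω θ v)
    (h : Approx F1 F2 F11 F12 F22 Ω θ v ε r κ ρ e₀ e₁) (hρ : 0 ≤ ρ) (hr : 0 < r) (n : ℕ)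
    (x : ℝ) (hT : HalfContr (Tm F1 F2 F12 θ v ε n x) ρ) (k i : ℕ) :
    ((Tm F1 F2 F12 θ v ε n x)^[k]) 0 i ∈ KR := by
  induction k generalizing i with
  | zero => simp [KR.zero_mem]
  | succ k ih =>
    rw [Function.iterate_succ_apply']
    exact hR.Tm_mem h hρ hr n x ih (hT.iter_le k) i

lemma im_zero_of_tendsto {u : ℕ → ℂ} {z : ℂ} (hu : ∀ k, u k ∈ KR)
    (h : Tendsto u atTop (𝓝 z)) : z.im = 0 := by
  have h1 : Tendsto (fun k => (u k).im) atTop (𝓝 z.im) :=
    (Complex.continuous_im.tendsto z).comp h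
  have h2 : (fun k => (u k).im) = fun _ => (0 : ℝ) := funext fun k => mem_KR.1 (hu k)
  rw [h2] at h1
  exact (tendsto_nhds_unique h1 tendsto_const_nhds)

end Real

/-! ### summation by parts -/

lemma sum_parts (m : ℕ) (a b h : ℕ → ℂ) :
    ∑ i ∈ range (m + 1), (a i * h i + b i * h (i + 1)) =
      a 0 * h 0 + b m * h (m + 1) + ∑ i ∈ range m, (a (i + 1) + b i) * h (i + 1) := by
  induction m with
  | zero => simp
  | succ m ih =>
    rw [sum_range_succ, ih, sum_range_succ _ m]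
    ring

/-- identity theorem on the strip. -/
lemma eq_zero_of_real {r : ℝ} (hr : 0 < r) {φ : ℂ → ℂ} (hφ : DifferentiableOn ℂ φ (strip r))
    (h0 : ∀ x : ℝ, φ x = 0) : ∀ x ∈ strip r, φ x = 0 := by
  have ha : AnalyticOnNhd ℂ φ (strip r) := hφ.analyticOnNhd (isOpen_strip r)
  have hc : IsPreconnected (strip r) := by
    apply Convex.isPreconnected
    intro a ha b hb s t hs ht hst
    simp only [mem_strip] at *
    have : (s • a + t • b).im = s * a.im + t * b.im := by simp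
    rw [this]
    rw [abs_lt] at *
    constructor
    · rcases hs.eq_or_lt with rfl | hs
      · have : t = 1 := by linarith
        subst this; linarith
      · nlinarith
    · rcases hs.eq_or_lt with rfl | hs
      · have : t = 1 := by linarith
        subst this; linarith
      · nlinarith
  have hz : (0 : ℂ) ∈ strip r := by simp [mem_strip, hr]
  have := ha.eqOn_zero_of_preconnected_of_frequently_eq_zero hc hz ?_
  · exact this
  · have ht : Tendsto (fun k : ℕ => (((1 : ℝ) / (k + 1) : ℝ) : ℂ)) atTop (𝓝[≠] 0) := by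
      refine tendsto_nhdsWithin_iff.2 ⟨?_, Eventually.of_forall fun k => ?_⟩
      · have h1 : Tendsto (fun k : ℕ => (1 : ℝ) / (k + 1)) atTop (𝓝 0) :=
          tendsto_one_div_add_atTop_nhds_zero_nat
        have := (Complex.continuous_ofReal.tendsto 0).comp h1
        rw [Complex.ofReal_zero] at this
        exact this
      · simp only [Set.mem_compl_iff, Set.mem_singleton_iff, Complex.ofReal_eq_zero]
        positivity
    exact ht.frequently (Frequently.of_forall fun k => h0 _)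

end Vale.Agent.P097.H799
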