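import Mathlib
import Vale.Agent.P097.H799.Pin3

/-!
# The action of the approximate chains at a resonance is constant up to quadratic terms,
on the full complex strip
-/

namespace Vale.Agent.P097.H799

open Finset Complex Filter Topology

section

variable {F F1 F2 F11 F12 F22 : ℂ × ℂ → ℂ} {Ω : Set (ℂ × ℂ)} {M M₂ : ℝ} {θ v : ℂ → ℂ}
  {ε r κ ρ e₀ e₁ : ℝ} {D : Set (ℝ × ℝ)} {f g : ℝ → ℝ} {n : ℕ} {p : ℝ}

lemma convex_strip (r : ℝ) : Convex ℝ (strip r) := by
  intro a ha b hb s t hs ht hst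
  simp only [mem_strip] at *
  have : (s • a + t • b).im = s * a.im + t * b.im := by simp
  rw [this]
  rw [abs_lt] at *
  constructor
  · rcases hs.eq_or_lt with rfl | hs
    · have : t = 1 := by linarith
      subst this; linarith
    · nlinarith
  · rcases hs.eq_or_lt with rfl | hs
    · have : t = 1 := by linarith
      subst this; linarith
    · nlinarith

lemma GF.lip1 (hF : GF F F1 F2 F11 F12 F22 Ω M M₂) : ∀ q ∈ Ω, ∀ q' ∈ Ω,
    ‖F1 q - F1 q'‖ ≤ 2 * M₂ * ‖q - q'‖ := by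
  intro q hq q' hq'
  refine hF.conv.norm_image_sub_le_of_norm_hasFDerivWithin_le (𝕜 := ℂ)
    (fun x hx => (hF.dF1 x hx).hasFDerivWithinAt) (fun x hx => ?_) hq' hq
  refine (norm_fst_snd_le _ _).trans ?_
  have := hF.bd11 x hx
  have := hF.bd12 x hx
  linarith

lemma GF.lip2 (hF : GF F F1 F2 F11 F12 F22 Ω M M₂) : ∀ q ∈ Ω, ∀ q' ∈ Ω,
    ‖F2 q - F2 q'‖ ≤ 2 * M₂ * ‖q - q'‖ := by
  intro q hq q' hq'
  refine hF.conv.norm_image_sub_le_of_norm_hasFDerivWithin_le (𝕜 := ℂ)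
    (fun x hx => (hF.dF2 x hx).hasFDerivWithinAt) (fun x hx => ?_) hq' hq
  refine (norm_fst_snd_le _ _).trans ?_
  have := hF.bd12 x hx
  have := hF.bd22 x hx
  linarith

/-- **Resonant action**: at a resonance `n ε = p` with a real leaf, the action of the approximate
chain `θ (x + i ε)` is constant up to a quadratic error on the whole complex strip. -/
theorem resonant_action (hF : GF F F1 F2 F11 F12 F22 Ω M M₂) (hM : 0 ≤ M)
    (h : Approx F1 F2 F11 F12 F22 Ω θ v ε r κ ρ e₀ e₁) (hr : 0 < r) (hn : 0 < n)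
    (hρ : ρ = 24 * n ^ 2 * e₀ / κ)
    (hsmall : 24 * n ^ 2 * e₁ / κ + 9216 * M * n ^ 4 * e₀ / κ ^ 2 ≤ 1)
    (hR : RealData F1 F2 F12 Ω θ v) (ht : Twist F1 F2 D) (hL : Leaf F1 F2 D f g n p)
    (hD : ∀ x a b : ℝ, |a - (θ x).re| ≤ 2 * ρ → |b - (θ (x + ε)).re| ≤ 2 * ρ → (a, b) ∈ D)
    (hper : ∀ a b : ℝ, (a, b) ∈ D → F1 ((a + p : ℝ), (b + p : ℝ)) = F1 (a, b))
    (hend : ∀ x ∈ strip r, θ (x + n * ε) = θ x + p) :
    ∃ A : ℂ, ∀ x ∈ strip r,
      ‖∑ i ∈ range n, F (θ (x + i * ε), θ (x + (i + 1 : ℕ) * ε)) - A‖ ≤ 16 * n * M₂ * ρ ^ 2 := by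
  obtain ⟨U, hU, hfix, hlim⟩ := h.exists_pinned hF hM hr n hn hρ hsmall
  have h0 : (0 : ℂ) ∈ strip r := by simp [mem_strip, hr]
  have he0 : 0 ≤ e₀ := (norm_nonneg _).trans (h.hE0 0 h0)
  have hκ := h.hκ
  have hρ0 : 0 ≤ ρ := by rw [hρ]; positivity
  have hM2 : 0 ≤ M₂ := (norm_nonneg _).trans (hF.bd11 _ (h.nonneg_ρ hρ0 h0 0))
  set Y : ℕ → ℂ → ℂ := fun i x => Yc θ v ε (fun k => U k x) i x with hY
  have hYdef : ∀ i x, Y i x = θ (x + i * ε) + v (x + i * ε) * U i x := fun i x => rfl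
  have hYΩ : ∀ x ∈ strip r, ∀ i, (Y i x, Y (i + 1) x) ∈ Ω := fun x hx i =>
    h.Yc_mem hx i (hU.bd x hx)
  -- differentiability
  have hUd : ∀ i, ∀ x ∈ strip r, DifferentiableAt ℂ (U i) x := fun i x hx =>
    (hU.hol i).differentiableAt ((isOpen_strip r).mem_nhds hx)
  have hYd : ∀ i, ∀ x ∈ strip r, DifferentiableAt ℂ (Y i) x := fun i x hx =>
    (h.diff_θ hx i).add ((h.diff_v hx i).mul (hUd i x hx))
  -- end points
  have hY0 : ∀ x ∈ strip r, Y 0 x = θ x := fun x hx => by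
    rw [hYdef, hU.zero x hx]; simp
  have hYn : ∀ x ∈ strip r, Y n x = θ x + p := fun x hx => by
    rw [hYdef, hU.top x hx n le_rfl, hend x hx]; simp
  -- reality
  have hreal : ∀ x : ℝ, ∀ i, (U i x).im = 0 := by
    intro x i
    have hx : (x : ℂ) ∈ strip r := by simp [mem_strip, hr]
    exact im_zero_of_tendsto
      (fun k => hR.iter_mem h hρ0 hr n x (h.halfContr hF hM n hn hρ hsmall hx) k i) (hlim x hx i)
  have hYreal : ∀ x : ℝ, ∀ i, Y i x = ((Y i x).re : ℂ) := by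
    intro x i
    have : Y i x ∈ KR := hR.Yc_mem x (fun j => mem_KR.2 (hreal x j)) i
    apply Complex.ext
    · simp
    · simpa using mem_KR.1 this
  have hθreal : ∀ x : ℝ, θ x = ((θ x).re : ℂ) := fun x => by
    apply Complex.ext
    · simp
    · simpa using hR.θr x
  -- real chain
  have hclose : ∀ x : ℝ, F1 (Y 0 x, Y 1 x) + F2 (Y (n - 1) x, Y n x) = 0 := by
    intro x
    have hx : (x : ℂ) ∈ strip r := by simp [mem_strip, hr]
    have hYD : ∀ i, (((Y i x).re, (Y (i + 1) x).re) : ℝ × ℝ) ∈ D := by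
      intro i
      refine hD (x + i * ε) _ _ ?_ ?_
      · have e : Y i x - θ ((x + i * ε : ℝ) : ℂ) = v (x + i * ε) * U i x := by
          rw [hYdef, add_real_eq]; ring
        have := h.vU hx i (hU.bd x hx i)
        rw [← e] at this
        calc |(Y i x).re - (θ ((x + i * ε : ℝ) : ℂ)).re|
            = |(Y i x - θ ((x + i * ε : ℝ) : ℂ)).re| := by rw [Complex.sub_re]
          _ ≤ _ := Complex.abs_re_le_norm _
          _ ≤ _ := this
      · have e0 : (((x + i * ε : ℝ) : ℂ) + ε) = (x : ℂ) + (i + 1 : ℕ) * ε := by push_cast; ring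
        rw [e0]
        have e : Y (i + 1) x - θ ((x : ℂ) + (i + 1 : ℕ) * ε) =
            v (x + (i + 1 : ℕ) * ε) * U (i + 1) x := by
          rw [hYdef]; ring
        have := h.vU hx (i + 1) (hU.bd x hx (i + 1))
        rw [← e] at this
        calc |(Y (i + 1) x).re - (θ ((x : ℂ) + (i + 1 : ℕ) * ε)).re|
            = |(Y (i + 1) x - θ ((x : ℂ) + (i + 1 : ℕ) * ε)).re| := by rw [Complex.sub_re]
          _ ≤ _ := Complex.abs_re_le_norm _
          _ ≤ _ := this
    have hcl := hL.closing ht hn (fun i => (Y i x).re) (fun i _ => hYD i) ?_ ?_ hper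
    · simp only [← hYreal] at hcl
      exact hcl
    · intro i hi
      have := hU.el x hx i hi
      simp only [← hYreal]
      exact this
    · have e1 := hYn x hx
      have e2 := hY0 x hx
      simp only [e1, e2, Complex.add_re, Complex.ofReal_re]
  -- closing on the full strip
  have hclose' : ∀ x ∈ strip r, F1 (Y 0 x, Y 1 x) + F2 (Y (n - 1) x, Y n x) = 0 := by
    refine eq_zero_of_real hr (fun x hx => ?_) hclose
    have d1 : DifferentiableAt ℂ (fun x => F1 (Y 0 x, Y 1 x)) x :=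
      (hF.dF1 _ (hYΩ x hx 0)).differentiableAt.comp x ((hYd 0 x hx).prodMk (hYd 1 x hx))
    have hm : (Y (n - 1) x, Y n x) ∈ Ω := by
      have := hYΩ x hx (n - 1)
      rwa [Nat.sub_add_cancel hn] at this
    have d2 : DifferentiableAt ℂ (fun x => F2 (Y (n - 1) x, Y n x)) x :=
      (hF.dF2 _ hm).differentiableAt.comp x ((hYd (n - 1) x hx).prodMk (hYd n x hx))
    exact (d1.add d2).differentiableWithinAt
  obtain ⟨m, rfl⟩ : ∃ m, n = m + 1 := ⟨n - 1, by omega⟩
  simp only [Nat.add_sub_cancel] at hclose'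
  -- the action of the pinned chain
  set S : ℂ → ℂ := fun x => ∑ i ∈ range (m + 1), F (Y i x, Y (i + 1) x) with hS
  have hSd : ∀ x ∈ strip r, HasDerivAt S 0 x := by
    intro x hx
    have h1 : ∀ i ∈ range (m + 1), HasDerivAt (fun x => F (Y i x, Y (i + 1) x))
        (F1 (Y i x, Y (i + 1) x) * deriv (Y i) x +
          F2 (Y i x, Y (i + 1) x) * deriv (Y (i + 1)) x) x := by
      intro i _
      have hp : HasDerivAt (fun x => (Y i x, Y (i + 1) x)) (deriv (Y i) x, deriv (Y (i + 1)) x) x :=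
        (hYd i x hx).hasDerivAt.prodMk (hYd (i + 1) x hx).hasDerivAt
      have := (hF.dF _ (hYΩ x hx i)).comp_hasDerivAt x hp
      exact this
    have h2 := HasDerivAt.fun_sum h1
    have hz : ∑ i ∈ range (m + 1), (F1 (Y i x, Y (i + 1) x) * deriv (Y i) x +
          F2 (Y i x, Y (i + 1) x) * deriv (Y (i + 1)) x) = 0 := ?_
    · rw [hz] at h2; exact h2
    rw [sum_parts m (fun i => F1 (Y i x, Y (i + 1) x)) (fun i => F2 (Y i x, Y (i + 1) x))
      (fun i => deriv (Y i) x)]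
    have h3 : ∑ i ∈ range m, (F1 (Y (i + 1) x, Y (i + 1 + 1) x) + F2 (Y i x, Y (i + 1) x)) *
        deriv (Y (i + 1)) x = 0 := by
      refine sum_eq_zero fun i hi => ?_
      have : F1 (Y (i + 1) x, Y (i + 2) x) + F2 (Y i x, Y (i + 1) x) = 0 :=
        hU.el x hx i (by have := mem_range.1 hi; omega)
      rw [this, zero_mul]
    have h4 : deriv (Y (m + 1)) x = deriv (Y 0) x := by
      have e1 : Y (m + 1) =ᶠ[𝓝 x] fun x => Y 0 x + p := by
        filter_upwards [(isOpen_strip r).mem_nhds hx] with y hy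
        rw [hYn y hy, hY0 y hy]
      rw [e1.deriv_eq, deriv_add_const]
    rw [h3, h4, add_zero, ← add_mul]
    have := hclose' x hx
    rw [this, zero_mul]
  have hconst : ∀ x ∈ strip r, S x = S 0 := by
    intro x hx
    exact (isOpen_strip r).is_const_of_deriv_eq_zero (convex_strip r).isPreconnected
      (fun y hy => (hSd y hy).differentiableAt.differentiableWithinAt)
      (fun y hy => (hSd y hy).deriv) hx h0
  refine ⟨S 0, fun x hx => ?_⟩
  rw [← hconst x hx, hS]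
  simp only
  rw [← sum_sub_distrib]
  -- linear terms vanish
  set hh : ℕ → ℂ := fun i => θ (x + i * ε) - Y i x with hhh
  have hh0 : hh 0 = 0 := by simp [hhh, hY0 x hx]
  have hhn : hh (m + 1) = 0 := by
    simp only [hhh]; rw [hYn x hx, hend x hx]; ring
  have hlin : ∑ i ∈ range (m + 1), (F1 (Y i x, Y (i + 1) x) * hh i +
      F2 (Y i x, Y (i + 1) x) * hh (i + 1)) = 0 := by
    rw [sum_parts m (fun i => F1 (Y i x, Y (i + 1) x)) (fun i => F2 (Y i x, Y (i + 1) x)) hh,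
      hh0, hhn]
    have h3 : ∑ i ∈ range m, (F1 (Y (i + 1) x, Y (i + 1 + 1) x) + F2 (Y i x, Y (i + 1) x)) *
        hh (i + 1) = 0 := by
      refine sum_eq_zero fun i hi => ?_
      have : F1 (Y (i + 1) x, Y (i + 2) x) + F2 (Y i x, Y (i + 1) x) = 0 :=
        hU.el x hx i (by have := mem_range.1 hi; omega)
      rw [this, zero_mul]
    rw [h3]; ring
  have hrw : ∑ i ∈ range (m + 1), (F (θ (x + i * ε), θ (x + (i + 1 : ℕ) * ε)) -
      F (Y i x, Y (i + 1) x)) = ∑ i ∈ range (m + 1),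
      (F (θ (x + i * ε), θ (x + (i + 1 : ℕ) * ε)) - F (Y i x, Y (i + 1) x) -
      (F1 (Y i x, Y (i + 1) x) * hh i + F2 (Y i x, Y (i + 1) x) * hh (i + 1))) := by
    rw [sum_sub_distrib (f := fun i : ℕ => F (θ (x + i * ε), θ (x + (i + 1 : ℕ) * ε)) -
      F (Y i x, Y (i + 1) x)), hlin, sub_zero]
  rw [hrw]
  have hhb : ∀ i, ‖hh i‖ ≤ 2 * ρ := by
    intro i
    have e : hh i = -(v (x + i * ε) * U i x) := by simp only [hhh, hYdef]; ring
    rw [e, norm_neg]
    exact h.vU hx i (hU.bd x hx i)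
  calc _ ≤ ∑ i ∈ range (m + 1), ‖F (θ (x + i * ε), θ (x + (i + 1 : ℕ) * ε)) -
      F (Y i x, Y (i + 1) x) -
      (F1 (Y i x, Y (i + 1) x) * hh i + F2 (Y i x, Y (i + 1) x) * hh (i + 1))‖ :=
        norm_sum_le _ _
    _ ≤ ∑ i ∈ range (m + 1), 16 * M₂ * ρ ^ 2 := by
        refine sum_le_sum fun i _ => ?_
        have hnorm : ‖(θ (x + i * ε), θ (x + (i + 1 : ℕ) * ε)) - (Y i x, Y (i + 1) x)‖ ≤
            2 * ρ := by
          rw [Prod.mk_sub_mk, Prod.norm_mk]
          exact max_le (hhb i) (hhb (i + 1))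
        have := remainder_le hF.conv hF.dF hF.lip1 hF.lip2 (Y i x, Y (i + 1) x)
          (Y i x, Y (i + 1) x) (θ (x + i * ε), θ (x + (i + 1 : ℕ) * ε)) (hYΩ x hx i)
          (hYΩ x hx i) (h.nonneg_ρ hρ0 hx i) (ρ := 2 * ρ) (by positivity)
          (by simp; positivity) hnorm
        refine this.trans ?_
        calc _ ≤ 2 * (2 * M₂) * (2 * ρ) * (2 * ρ) := by gcongr
          _ = _ := by ring
    _ = 16 * ((m + 1 : ℕ) : ℝ) * M₂ * ρ ^ 2 := by
        rw [sum_const, card_range, nsmul_eq_mul]; ring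

end

end Vale.Agent.P097.H799
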