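import Vale.Agent.P097.H799.GenB
import Vale.Agent.P097.H799.Pin4
import Vale.Agent.P097.H477.Apx

/-!
# Symmetries of the generating function, twist
-/

set_option linter.all false

open scoped ComplexConjugate Topology
open Filter Metric

namespace Vale.Agent.P097.TA

/-- rational leaves, with their leaf maps -/
def LeafMap (b : ℂ → ℂ → ℂ) (η CH : ℝ) : Prop :=
  ∀ n p : ℕ, 0 < n → 0 < p → (p : ℝ) / n < η → ∃ f g : ℝ → ℝ, StrictMono f ∧
    (∀ y, f (g y) = y) ∧ (∀ y, g (f y) = y) ∧ (∀ y, f^[n] y = y + p) ∧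
    (∀ y, 0 < f y - y ∧ f y - y ≤ CH * ((p : ℝ) / n)) ∧
    ∀ y : ℝ, EL b (g y) y (f y) = 0

theorem GD_conj {s : ℝ} {x y : ℂ} (h : (x, y) ∈ GD s) : (conj x, conj y) ∈ GD s := by
  obtain ⟨h1, h2, h3⟩ := h
  refine ⟨?_, ?_, ?_⟩
  · simpa using h1
  · simpa using h2
  · show ‖conj y - conj x‖ < s
    rw [← map_sub, RCLike.norm_conj]; exact h3

theorem GD_one {s : ℝ} {x y : ℂ} (h : (x, y) ∈ GD s) : (x + 1, y + 1) ∈ GD s := by
  obtain ⟨h1, h2, h3⟩ := h
  refine ⟨by simpa using h1, by simpa using h2, ?_⟩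
  show ‖y + 1 - (x + 1)‖ < s
  rw [add_sub_add_right_eq_sub]; exact h3

theorem dx_conj_symm {f : ℂ → ℂ → ℂ} {S : Set (ℂ × ℂ)} (hS : IsOpen S)
    (hc : ∀ x y, (x, y) ∈ S → f (conj x) (conj y) = conj (f x y)) {x y : ℂ} (h : (x, y) ∈ S) :
    dx f (conj x) (conj y) = conj (dx f x y) := by
  have e : (fun t => f t y) =ᶠ[𝓝 x] (conj ∘ (fun t => f t (conj y)) ∘ conj) := by
    have hn : ∀ᶠ u in 𝓝 x, (u, y) ∈ S := by
      have : ContinuousAt (fun u : ℂ => (u, y)) x := by fun_prop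
      exact this.eventually (hS.mem_nhds h)
    filter_upwards [hn] with u hu
    simp only [Function.comp_apply]
    rw [hc u y hu]; simp
  have h1 : dx f x y = deriv (conj ∘ (fun t => f t (conj y)) ∘ conj) x := e.deriv_eq
  rw [h1, deriv_conj_conj]
  simp [dx]

theorem de_conj_symm {f : ℂ → ℂ → ℂ} {S : Set (ℂ × ℂ)} (hS : IsOpen S)
    (hc : ∀ x y, (x, y) ∈ S → f (conj x) (conj y) = conj (f x y)) {x y : ℂ} (h : (x, y) ∈ S) :
    de f (conj x) (conj y) = conj (de f x y) := by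
  have e : (fun t => f x t) =ᶠ[𝓝 y] (conj ∘ (fun t => f (conj x) t) ∘ conj) := by
    have hn : ∀ᶠ u in 𝓝 y, (x, u) ∈ S := by
      have : ContinuousAt (fun u : ℂ => (x, u)) y := by fun_prop
      exact this.eventually (hS.mem_nhds h)
    filter_upwards [hn] with u hu
    simp only [Function.comp_apply]
    rw [hc x u hu]; simp
  have h1 : de f x y = deriv (conj ∘ (fun t => f (conj x) t) ∘ conj) y := e.deriv_eq
  rw [h1, deriv_conj_conj]
  simp [de]

section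

variable {b : ℂ → ℂ → ℂ} {ρ M : ℝ}

theorem Gen.Fg_per (h : Gen ρ M b) {x y : ℂ} (hq : (x, y) ∈ GD ρ) :
    Fg b (x + 1) (y + 1) = Fg b x y := by
  unfold Fg
  have e1 : (x + 1 + (y + 1)) / 2 = (x + y) / 2 + 1 := by ring
  have e2 : y + 1 - (x + 1) = y - x := by ring
  rw [e1, e2, h.per _ _ (Gen.mid_mem hq) hq.2.2]

theorem Gen.F1_per (h : Gen ρ M b) {x y : ℂ} (hq : (x, y) ∈ GD ρ) :
    F1 b (x + 1) (y + 1) = F1 b x y := by
  show deriv (fun t => Fg b t (y + 1)) (x + 1) = deriv (fun t => Fg b t y) x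
  rw [← deriv_comp_add_const]
  apply EventuallyEq.deriv_eq
  have hn : ∀ᶠ u in 𝓝 x, (u, y) ∈ GD ρ := by
    have : ContinuousAt (fun u : ℂ => (u, y)) x := by fun_prop
    exact this.eventually ((isOpen_GD ρ).mem_nhds hq)
  filter_upwards [hn] with u hu
  exact h.Fg_per hu

theorem Gen.F1_per_nat (h : Gen ρ M b) {x y : ℂ} (hq : (x, y) ∈ GD ρ) (p : ℕ) :
    (x + p, y + p) ∈ GD ρ ∧ F1 b (x + p) (y + p) = F1 b x y := by
  induction p with
  | zero => simpa using hq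
  | succ p ih =>
    have e1 : x + ((p + 1 : ℕ) : ℂ) = x + p + 1 := by push_cast; ring
    have e2 : y + ((p + 1 : ℕ) : ℂ) = y + p + 1 := by push_cast; ring
    rw [e1, e2]
    exact ⟨GD_one ih.1, by rw [h.F1_per ih.1, ih.2]⟩

theorem Gen.Fg_conj (h : Gen ρ M b) (x y : ℂ) (hq : (x, y) ∈ GD ρ) :
    Fg b (conj x) (conj y) = conj (Fg b x y) := by
  unfold Fg
  have c2 : conj (2 : ℂ) = 2 := map_ofNat _ 2
  have c6 : conj (6 : ℂ) = 6 := map_ofNat _ 6
  have e1 : (conj x + conj y) / 2 = conj ((x + y) / 2) := by rw [map_div₀, map_add, c2]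
  have e2 : conj y - conj x = conj (y - x) := by simp
  rw [e1, e2, h.real _ _ (Gen.mid_mem hq) hq.2.2]
  simp [c6]

theorem Gen.F1_conj (h : Gen ρ M b) (x y : ℂ) (hq : (x, y) ∈ GD ρ) :
    F1 b (conj x) (conj y) = conj (F1 b x y) := dx_conj_symm (isOpen_GD ρ) h.Fg_conj hq

theorem Gen.F2_conj (h : Gen ρ M b) (x y : ℂ) (hq : (x, y) ∈ GD ρ) :
    F2 b (conj x) (conj y) = conj (F2 b x y) := de_conj_symm (isOpen_GD ρ) h.Fg_conj hq

theorem Gen.F12_conj (h : Gen ρ M b) (x y : ℂ) (hq : (x, y) ∈ GD ρ) :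
    F12 b (conj x) (conj y) = conj (F12 b x y) := dx_conj_symm (isOpen_GD ρ) h.F2_conj hq

theorem im_zero_of_conj {f : ℂ → ℂ → ℂ} {S : Set (ℂ × ℂ)}
    (hc : ∀ x y, (x, y) ∈ S → f (conj x) (conj y) = conj (f x y)) {x y : ℂ} (h : (x, y) ∈ S)
    (hx : x.im = 0) (hy : y.im = 0) : (f x y).im = 0 := by
  have h1 := hc x y h
  rw [Complex.conj_eq_iff_im.2 hx, Complex.conj_eq_iff_im.2 hy] at h1
  exact Complex.conj_eq_iff_im.1 h1.symm

/-- Real pairs at distance `< δ₀`. -/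
def DR (δ₀ : ℝ) : Set (ℝ × ℝ) := {q | 0 < q.2 - q.1 ∧ q.2 - q.1 < δ₀}

theorem DR_GD {δ₀ : ℝ} {a c : ℝ} (h : (a, c) ∈ DR δ₀) : ((a : ℂ), (c : ℂ)) ∈ GD δ₀ := by
  obtain ⟨h1, h2⟩ := h
  simp only at h1 h2
  refine ⟨by simpa using h1.trans h2, by simpa using h1.trans h2, ?_⟩
  show ‖(c : ℂ) - a‖ < δ₀
  rw [← Complex.ofReal_sub, Complex.norm_real, Real.norm_of_nonneg h1.le]
  exact h2

theorem Gen.F12_neg (h : Gen ρ M b) {δ₀ : ℝ} (hδ : δ₀ ≤ ρ / (1000 * M)) {a c : ℝ}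
    (hD : (a, c) ∈ DR δ₀) : (F12 b a c).re < 0 := by
  have hρ := h.hρ
  have hρ1 := h.hρ1
  have hM := h.hM
  have hM0 : 0 < M := by linarith
  have hδρ : δ₀ ≤ ρ / 1000 := hδ.trans (by
    apply div_le_div_of_nonneg_left hρ.le (by norm_num); linarith)
  obtain ⟨h1, h2⟩ := hD
  simp only at h1 h2
  have hq : ((a : ℂ), (c : ℂ)) ∈ GD (3 * ρ / 4) :=
    GD_mono (by linarith) (DR_GD ⟨h1, h2⟩)
  have hnorm : ‖(c : ℂ) - a‖ = c - a := by
    rw [← Complex.ofReal_sub, Complex.norm_real, Real.norm_of_nonneg h1.le]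
  have key := h.F12_asym h1 (by linarith) hq hnorm.le
  have h3 : (F12 b a c + ((c : ℂ) - a)).re ≤ 972 * M * (c - a) ^ 3 :=
    (Complex.re_le_norm _).trans key
  have h4 : (F12 b a c + ((c : ℂ) - a)).re = (F12 b a c).re + (c - a) := by simp
  rw [h4] at h3
  have h5 : 972 * M * (c - a) ^ 3 < c - a := by
    have h6 : (c - a) * (1000 * M) < 1 := by
      have := h2.trans_le hδ
      rw [lt_div_iff₀ (by positivity)] at this
      linarith
    have h7 : 972 * M * (c - a) ^ 2 < 1 := by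
      have h8 : c - a < 1 := by linarith
      calc 972 * M * (c - a) ^ 2 = (972 / 1000) * ((c - a) * (1000 * M)) * (c - a) := by ring
        _ < 1 * 1 * 1 := by
            have : 0 < (c - a) * (1000 * M) := by positivity
            nlinarith
        _ = 1 := by norm_num
    calc 972 * M * (c - a) ^ 3 = (972 * M * (c - a) ^ 2) * (c - a) := by ring
      _ < 1 * (c - a) := by gcongr
      _ = c - a := one_mul _
  linarith

theorem Gen.twist (h : Gen ρ M b) {δ₀ : ℝ} (hδ : δ₀ ≤ ρ / (1000 * M)) :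
    H799.Twist (fun q => F1 b q.1 q.2) (fun q => F2 b q.1 q.2) (DR δ₀) := by
  have hρ := h.hρ
  have hM := h.hM
  have hM0 : 0 < M := by linarith
  have hδρ : δ₀ ≤ ρ / 1000 := hδ.trans (by
    apply div_le_div_of_nonneg_left hρ.le (by norm_num); linarith)
  constructor
  · intro a c c' h1 h2 hcc
    simp only
    have hmem : ∀ s ∈ Set.Icc c c', (a, s) ∈ DR δ₀ := fun s hs =>
      ⟨h1.1.trans_le (sub_le_sub_right hs.1 a), (sub_le_sub_right hs.2 a).trans_lt h2.2⟩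
    have hder : ∀ s ∈ Set.Icc c c', HasDerivAt (fun s : ℝ => (F1 b a s).re) (F12 b a s).re s := by
      intro s hs
      have hq : ((a : ℂ), (s : ℂ)) ∈ GD ρ := GD_mono (by linarith) (DR_GD (hmem s hs))
      have h3 := h.JD_F1.hasDerivAt_e (isOpen_GD ρ) hq
      rw [h.F12_symm hq] at h3
      exact h3.real_of_complex
    have hanti : StrictAntiOn (fun s : ℝ => (F1 b a s).re) (Set.Icc c c') := by
      refine strictAntiOn_of_deriv_neg (convex_Icc _ _)
        (fun s hs => (hder s hs).continuousAt.continuousWithinAt) fun s hs => ?_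
      rw [(hder s (interior_subset hs)).deriv]
      exact h.F12_neg hδ (hmem s (interior_subset hs))
    exact hanti ⟨le_rfl, hcc.le⟩ ⟨hcc.le, le_rfl⟩ hcc
  · intro a a' c h1 h2 haa
    simp only
    have hmem : ∀ s ∈ Set.Icc a a', (s, c) ∈ DR δ₀ := fun s hs =>
      ⟨h2.1.trans_le (sub_le_sub_left hs.2 c), (sub_le_sub_left hs.1 c).trans_lt h1.2⟩
    have hder : ∀ s ∈ Set.Icc a a', HasDerivAt (fun s : ℝ => (F2 b s c).re) (F12 b s c).re s := by
      intro s hs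
      have hq : ((s : ℂ), (c : ℂ)) ∈ GD ρ := GD_mono (by linarith) (DR_GD (hmem s hs))
      have h3 := h.JD_F2.hasDerivAt_x (isOpen_GD ρ) hq
      exact h3.real_of_complex
    have hanti : StrictAntiOn (fun s : ℝ => (F2 b s c).re) (Set.Icc a a') := by
      refine strictAntiOn_of_deriv_neg (convex_Icc _ _)
        (fun s hs => (hder s hs).continuousAt.continuousWithinAt) fun s hs => ?_
      rw [(hder s (interior_subset hs)).deriv]
      exact h.F12_neg hδ (hmem s (interior_subset hs))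
    exact hanti ⟨le_rfl, haa.le⟩ ⟨haa.le, le_rfl⟩ haa

/-- The structure `GF` of the generating function. -/
theorem Gen.gf (h : Gen ρ M b) : H799.GF (fun q => Fg b q.1 q.2) (fun q => F1 b q.1 q.2)
    (fun q => F2 b q.1 q.2) (fun q => dx (F1 b) q.1 q.2) (fun q => F12 b q.1 q.2)
    (fun q => de (F2 b) q.1 q.2) (GD (5 * ρ / 8)) (B3 ρ M) (B2 ρ M) := by
  have hρ := h.hρ
  have h58 : 5 * ρ / 8 ≤ ρ := by linarith
  have h34 : 5 * ρ / 8 ≤ 3 * ρ / 4 := by linarith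
  have hfd : ∀ (f : ℂ → ℂ → ℂ), JD f (GD ρ) → ∀ q ∈ GD ρ, HasFDerivAt (fun q : ℂ × ℂ => f q.1 q.2)
      (dx f q.1 q.2 • ContinuousLinearMap.fst ℂ ℂ ℂ + de f q.1 q.2 • ContinuousLinearMap.snd ℂ ℂ ℂ)
      q := by
    intro f hf q hq
    have h1 := hf.hasFDerivAt (isOpen_GD ρ) (x := q.1) (ε := q.2) hq
    convert h1 using 1
    ext
    · simp [hf.dx_eq (isOpen_GD ρ) (x := q.1) (ε := q.2) hq]
    · simp [hf.de_eq (isOpen_GD ρ) (x := q.1) (ε := q.2) hq]
  refine ⟨convex_GD _, ?_, ?_, ?_, ?_, ?_, ?_, ?_, ?_, ?_, ?_⟩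
  · intro q hq
    exact hfd _ h.JD_Fg q (GD_mono h58 hq)
  · intro q hq
    have h1 := hfd _ h.JD_F1 q (GD_mono h58 hq)
    rw [h.F12_symm (x := q.1) (y := q.2) (GD_mono h58 hq)] at h1
    exact h1
  · intro q hq
    exact hfd _ h.JD_F2 q (GD_mono h58 hq)
  · intro q hq
    exact h.JD_F12.at (isOpen_GD ρ) (x := q.1) (ε := q.2) (GD_mono h58 hq)
  · intro q hq q' hq'; exact h.lip_F11 hq hq'
  · intro q hq q' hq'; exact h.lip_F12 hq hq'
  · intro q hq q' hq'; exact h.lip_F22 hq hq'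
  · intro q hq; exact h.Bd_F11 _ _ (GD_mono h34 hq)
  · intro q hq; exact h.Bd_F12 _ _ (GD_mono h34 hq)
  · intro q hq; exact h.Bd_F22 _ _ (GD_mono h34 hq)

theorem Gen.B2_nonneg (h : Gen ρ M b) : 0 ≤ B2 ρ M := by
  have := h.hρ; have := h.hM
  unfold B2; positivity

theorem Gen.B3_nonneg (h : Gen ρ M b) : 0 ≤ B3 ρ M := by
  have := h.hρ; have := h.B2_nonneg
  unfold B3; positivity

/-- antisymmetry -/
theorem Gen.Fg_anti' (h : Gen ρ M b) {x y : ℂ} (hq : (x, y) ∈ GD ρ) : Fg b y x = -Fg b x y := by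
  unfold Fg
  have e1 : b ((y + x) / 2) (x - y) = b ((x + y) / 2) (y - x) := by
    rw [add_comm y x, ← h.even _ _ (Gen.mid_mem hq) hq.2.2]; congr 1; ring
  rw [e1]; ring

end

end Vale.Agent.P097.TA
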