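import Vale.Agent.P097.H799.TrigU

/-!
# TRIG-T4, part 5: the good sector
-/

set_option linter.all false

open scoped ComplexConjugate Topology
open Filter Metric Complex

namespace Vale.Agent.P097.TT4

open Vale.Agent.P097.TA Vale.Agent.P097.H536

section

variable {Y c₁ K₁ L r e a h₀ C₁ C₂ c' c₃ : ℝ} {b k θ : ℂ → ℂ → ℂ}

theorem low_df (U : UC Y K₁ L r e a h₀ C₁ C₂ c' c₃) (F : Fam b L r e θ) {n : ℕ} {t w : ℂ}
    (h : (t, w) ∈ Dn Y c' a h₀ n) (h2 : t.im < h₀) :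
    ‖θ t w - θ (t - w) w - w‖ * (Y - |t.im|) ^ 2 ≤ C₁ * ‖w‖ ^ 3 := by
  have G := Dn_facts U h
  have hh := U.hh
  have h3 : -h₀ < t.im := h.2.2.1
  have h4 : |t.im| < 3 / 2 * h₀ := by rw [abs_lt]; constructor <;> linarith
  refine le_trans ?_ (th_small U h)
  have := th_df U F G.we G.wh h4
  gcongr

theorem low_mem (U : UC Y K₁ L r e a h₀ C₁ C₂ c' c₃) {n : ℕ} {t w : ℂ}
    (h : (t, w) ∈ Dn Y c' a h₀ n) (h2 : t.im < h₀) : (t, w) ∈ WW 0 r e := by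
  have G := Dn_facts U h
  have hh := U.hh
  have h3 : -h₀ < t.im := h.2.2.1
  exact mem_WW0 U G.we (by rw [abs_lt]; constructor <;> linarith)

theorem low_cl (U : UC Y K₁ L r e a h₀ C₁ C₂ c' c₃) (F : Fam b L r e θ) {n : ℕ} {t w : ℂ}
    (h : (t, w) ∈ Dn Y c' a h₀ n) (h2 : t.im < h₀) :
    ‖θ t w - t‖ * (Y - |t.im|) ≤ C₂ * ‖w‖ ^ 2 := by
  have G := Dn_facts U h
  have h5 := F.cl t w (low_mem U h h2)
  have hD := G.D0
  have hDY := G.DY
  have hL := U.L0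
  calc ‖θ t w - t‖ * (Y - |t.im|) ≤ (L * ‖w‖ ^ 2) * (Y - |t.im|) := by gcongr
    _ ≤ (L * ‖w‖ ^ 2) * Y := by gcongr
    _ = (L * Y) * ‖w‖ ^ 2 := by ring
    _ ≤ C₂ * ‖w‖ ^ 2 := by
        have := U.C2
        gcongr

theorem inv_zero (U : UC Y K₁ L r e a h₀ C₁ C₂ c' c₃) (F : Fam b L r e θ) :
    Inv Y a h₀ C₁ C₂ c' b θ 0 := by
  have hlt : ∀ t w : ℂ, (t, w) ∈ Dn Y c' a h₀ 0 → t.im < h₀ := fun t w h => by
    have := h.2.2.2
    simpa using this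
  refine ⟨F.hol.mono ?_, ?_, ?_, ?_⟩
  · rintro ⟨t, w⟩ h
    exact low_mem U h (hlt t w h)
  · intro t w h _
    exact low_df U F h (hlt t w h)
  · intro t w h
    exact low_cl U F h (hlt t w h)
  · intro t w h
    exact F.per t w (low_mem U h (hlt t w h))

theorem inv_succ (U : UC Y K₁ L r e a h₀ C₁ C₂ c' c₃) (F : Fam b L r e θ) (S : SK Y c₁ K₁ b k)
    (C : SC c₁ K₁ c₃) {n : ℕ} (I : Inv Y a h₀ C₁ C₂ c' b θ n) :
    Inv Y a h₀ C₁ C₂ c' b θ (n + 1) := by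
  have hh := U.hh
  have oD := isOpen_Dn Y c' a h₀ (n + 1)
  refine ⟨?_, ?_, ?_, ?_⟩
  · rintro ⟨t, w⟩ h
    apply DifferentiableAt.differentiableWithinAt
    by_cases h2 : t.im < h₀
    · have h3 := low_mem U h h2
      have h4 := F.hol.at (isOpen_WW 0 r e) h3
      refine h4.congr_of_eventuallyEq ?_
      have h5 : ∀ᶠ p : ℂ × ℂ in 𝓝 (t, w), p.1.im < h₀ :=
        (isOpen_lt (Complex.continuous_im.comp continuous_fst) continuous_const).mem_nhds h2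
      filter_upwards [h5] with p hp
      exact Xs_of_lt _ hp
    · push Not at h2
      set A : Set (ℂ × ℂ) := Dn Y c' a h₀ (n + 1) ∩ {p | h₀ / 2 < p.1.im} with hA
      have oA : IsOpen A := oD.inter
        (isOpen_lt continuous_const (Complex.continuous_im.comp continuous_fst))
      have h3 : JD (fun t w => St b (Xs b θ h₀ n (t - 2 * w) w) (Xs b θ h₀ n (t - w) w)) A := by
        have j1 : JD (fun t w => Xs b θ h₀ n (t - 2 * w) w) A :=
          JD.comp I.hol (JD.fst.sub (JD.snd.const_mul 2)) JD.snd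
            fun t w h => Dn_sub2 U h.1 h.2
        have j2 : JD (fun t w => Xs b θ h₀ n (t - w) w) A :=
          JD.comp I.hol (JD.fst.sub JD.snd) JD.snd
            fun t w h => (Dn_sub1 U h.1 (by have : h₀ / 2 < t.im := h.2; linarith)).1
        exact JD.comp (JD_St S C) j1 j2 fun t w h => (st_data U I h.1 h.2 rfl rfl).2.2.2.1
      have h4 : JD (Xs b θ h₀ (n + 1)) A := h3.congr fun t w h => Xs_step U F S C h.1 h.2
      exact h4.at oA ⟨h, by show h₀ / 2 < t.im; linarith⟩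
  · intro t w h ht
    by_cases h2 : t.im < h₀
    · have G := Dn_facts U h
      have hs0 := G.s0
      rw [Xs_of_lt _ h2, Xs_of_lt _ (show (t - w).im < h₀ by rw [im_sub1]; linarith)]
      exact low_df U F h h2
    · push Not at h2
      have ht2 : h₀ / 2 < t.im := by linarith
      have G := Dn_facts U h
      rw [Xs_step U F S C h ht2, Xs_stable n (t := t - w) (w := w) G.s0
        (Dn_sub1 U h ht).1.2.2.2]
      exact (step_est U S C I h ht2 rfl rfl).1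
  · intro t w h
    by_cases h2 : t.im < h₀
    · rw [Xs_of_lt _ h2]
      exact low_cl U F h h2
    · push Not at h2
      have ht2 : h₀ / 2 < t.im := by linarith
      rw [Xs_step U F S C h ht2]
      exact (step_est U S C I h ht2 rfl rfl).2
  · intro t w h
    by_cases h2 : t.im < h₀
    · rw [Xs_of_lt _ h2, Xs_of_lt _ (show (t + 1).im < h₀ by simpa using h2)]
      exact F.per t w (low_mem U h h2)
    · have h2' : h₀ ≤ t.im := not_lt.1 h2
      have ht2 : h₀ / 2 < t.im := by linarith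
      rw [Xs_of_ge n h2, Xs_of_ge n (show ¬ (t + 1).im < h₀ by simpa using h2),
        show t + 1 - 2 * w = (t - 2 * w) + 1 by ring, show t + 1 - w = (t - w) + 1 by ring,
        I.per _ _ (Dn_sub2 U h ht2), I.per _ _ (Dn_sub1 U h (by linarith)).1]
      exact St_per S C (st_data U I h ht2 rfl rfl).2.2.2.1

theorem inv_all (U : UC Y K₁ L r e a h₀ C₁ C₂ c' c₃) (F : Fam b L r e θ) (S : SK Y c₁ K₁ b k)
    (C : SC c₁ K₁ c₃) (n : ℕ) : Inv Y a h₀ C₁ C₂ c' b θ n := by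
  induction n with
  | zero => exact inv_zero U F
  | succ n ih => exact inv_succ U F S C ih

/-! ### the limit -/

/-- the extended family, upper half plane, `Im w > 0` -/
noncomputable def Th (b θ : ℂ → ℂ → ℂ) (h₀ : ℝ) (t w : ℂ) : ℂ :=
  Xs b θ h₀ ⌈t.im / w.im⌉₊ t w

theorem Th_eq (hh : 0 < h₀) {n : ℕ} {t w : ℂ} (hw : 0 < w.im) (h : t.im < h₀ + n * w.im) :
    Th b θ h₀ t w = Xs b θ h₀ n t w := by
  unfold Th
  have h1 : t.im < h₀ + (⌈t.im / w.im⌉₊ : ℝ) * w.im := by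
    have := Nat.le_ceil (t.im / w.im)
    rw [div_le_iff₀ hw] at this
    linarith
  rcases le_total n ⌈t.im / w.im⌉₊ with h2 | h2
  · exact Xs_stable' h2 hw h
  · exact (Xs_stable' h2 hw h1).symm

/-- domain of the limit -/
def DI (Y c' a h₀ : ℝ) : Set (ℂ × ℂ) :=
  {p | a * ‖p.2‖ < p.2.im ∧ ‖p.2‖ < c' * (Y - |p.1.im|) ∧ -h₀ < p.1.im}

theorem DI_Dn (hh : 0 < h₀) (ha : 0 < a) {t w : ℂ} (h : (t, w) ∈ DI Y c' a h₀) :
    0 < w.im ∧ (t, w) ∈ Dn Y c' a h₀ ⌈t.im / w.im⌉₊ := by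
  obtain ⟨h1, h2, h3⟩ := h
  simp only at h1 h2 h3
  have hw : 0 < w.im := (mul_nonneg ha.le (norm_nonneg w)).trans_lt h1
  refine ⟨hw, h1, h2, h3, ?_⟩
  show t.im < h₀ + (⌈t.im / w.im⌉₊ : ℝ) * w.im
  have := Nat.le_ceil (t.im / w.im)
  rw [div_le_iff₀ hw] at this
  linarith

theorem Th_at (U : UC Y K₁ L r e a h₀ C₁ C₂ c' c₃) (F : Fam b L r e θ) (S : SK Y c₁ K₁ b k)
    (C : SC c₁ K₁ c₃) {t w : ℂ} (h : (t, w) ∈ DI Y c' a h₀) :
    DifferentiableAt ℂ (fun p : ℂ × ℂ => Th b θ h₀ p.1 p.2) (t, w) := by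
  obtain ⟨hw, hD⟩ := DI_Dn U.hh U.ha h
  set n := ⌈t.im / w.im⌉₊ with hn
  have I := inv_all U F S C n
  have oD := isOpen_Dn Y c' a h₀ n
  refine (I.hol.at oD hD).congr_of_eventuallyEq ?_
  filter_upwards [oD.mem_nhds hD] with p hp
  exact Th_eq U.hh (Dn_facts U (t := p.1) (w := p.2) hp).s0 hp.2.2.2

theorem Th_cl (U : UC Y K₁ L r e a h₀ C₁ C₂ c' c₃) (F : Fam b L r e θ) (S : SK Y c₁ K₁ b k)
    (C : SC c₁ K₁ c₃) {t w : ℂ} (h : (t, w) ∈ DI Y c' a h₀) :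
    ‖Th b θ h₀ t w - t‖ * (Y - |t.im|) ≤ C₂ * ‖w‖ ^ 2 := by
  obtain ⟨hw, hD⟩ := DI_Dn U.hh U.ha h
  exact (inv_all U F S C _).cl t w hD

theorem Th_per (U : UC Y K₁ L r e a h₀ C₁ C₂ c' c₃) (F : Fam b L r e θ) (S : SK Y c₁ K₁ b k)
    (C : SC c₁ K₁ c₃) {t w : ℂ} (h : (t, w) ∈ DI Y c' a h₀) :
    Th b θ h₀ (t + 1) w = Th b θ h₀ t w + 1 := by
  obtain ⟨hw, hD⟩ := DI_Dn U.hh U.ha h
  have := (inv_all U F S C _).per t w hD
  unfold Th
  rw [show (t + 1).im = t.im by simp]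
  exact this

theorem Th_low (hh : 0 < h₀) {t w : ℂ} (h : t.im < h₀) :
    Th b θ h₀ t w = θ t w := Xs_of_lt _ h

/-! ### symmetrisation -/

/-- both signs of `Im w` -/
noncomputable def Tg (b θ : ℂ → ℂ → ℂ) (h₀ : ℝ) (t w : ℂ) : ℂ :=
  if 0 < w.im then Th b θ h₀ t w else Th b θ h₀ t (-w)

/-- both signs of `Im t` -/
noncomputable def Tf (b θ : ℂ → ℂ → ℂ) (h₀ : ℝ) (t w : ℂ) : ℂ :=
  if 0 ≤ t.im then Tg b θ h₀ t w else conj (Tg b θ h₀ (conj t) (conj w))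

theorem Sec_w {t w : ℂ} (ha : 0 < a) (h : (t, w) ∈ Sec Y c' a) :
    (0 < w.im ∧ a * ‖w‖ < w.im) ∨ (w.im < 0 ∧ a * ‖w‖ < -w.im) := by
  obtain ⟨h1, h2⟩ := h
  simp only at h1
  have h3 : 0 < |w.im| := (mul_nonneg ha.le (norm_nonneg w)).trans_lt h1
  rcases lt_or_gt_of_ne (abs_pos.1 h3) with h4 | h4
  · right; rw [abs_of_neg h4] at h1; exact ⟨h4, h1⟩
  · left; rw [abs_of_pos h4] at h1; exact ⟨h4, h1⟩

theorem Sec_DI {t w : ℂ} (ha : 0 < a) (h : (t, w) ∈ Sec Y c' a) (ht : -h₀ < t.im) :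
    (0 < w.im → (t, w) ∈ DI Y c' a h₀) ∧ (w.im < 0 → (t, -w) ∈ DI Y c' a h₀) := by
  have h2 := h.2
  simp only at h2
  constructor
  · intro hw
    rcases Sec_w ha h with ⟨_, h1⟩ | ⟨h1, _⟩
    · exact ⟨h1, h2, ht⟩
    · linarith
  · intro hw
    rcases Sec_w ha h with ⟨h1, _⟩ | ⟨_, h1⟩
    · linarith
    · exact ⟨by simpa using h1, by simpa using h2, ht⟩

theorem Sec_conj {t w : ℂ} (h : (t, w) ∈ Sec Y c' a) : (conj t, conj w) ∈ Sec Y c' a := by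
  obtain ⟨h1, h2⟩ := h
  simp only at h1 h2
  refine ⟨?_, ?_⟩
  · simp only [norm_conj, conj_im, abs_neg]; exact h1
  · simp only [norm_conj, conj_im, abs_neg]; exact h2

theorem Sec_low (U : UC Y K₁ L r e a h₀ C₁ C₂ c' c₃) {t w : ℂ} (h : (t, w) ∈ Sec Y c' a)
    (ht : |t.im| < h₀) : (t, w) ∈ WW 0 r e := by
  have h2 : ‖w‖ < c' * (Y - |t.im|) := h.2
  have hc := U.c0
  have h3 : c' * (Y - |t.im|) ≤ c' * Y := by
    gcongr; linarith [abs_nonneg t.im]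
  have h4 := U.c2
  have h5 := U.hh
  have he : 0 ≤ ‖w‖ := norm_nonneg w
  refine mem_WW0 U (by linarith) (by linarith)

theorem Tg_low (U : UC Y K₁ L r e a h₀ C₁ C₂ c' c₃) (F : Fam b L r e θ) {t w : ℂ}
    (h : (t, w) ∈ Sec Y c' a) (ht : |t.im| < h₀) : Tg b θ h₀ t w = θ t w := by
  have h1 : t.im < h₀ := (le_abs_self _).trans_lt ht
  unfold Tg
  split_ifs
  · exact Th_low U.hh h1
  · rw [Th_low U.hh h1]
    exact F.ev t w (Sec_low U h ht)

theorem Tg_at (U : UC Y K₁ L r e a h₀ C₁ C₂ c' c₃) (F : Fam b L r e θ) (S : SK Y c₁ K₁ b k)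
    (C : SC c₁ K₁ c₃) {t w : ℂ} (h : (t, w) ∈ Sec Y c' a) (ht : -h₀ < t.im) :
    DifferentiableAt ℂ (fun p : ℂ × ℂ => Tg b θ h₀ p.1 p.2) (t, w) := by
  have hI := Sec_DI U.ha h ht
  have ci : Continuous fun p : ℂ × ℂ => p.2.im := Complex.continuous_im.comp continuous_snd
  rcases Sec_w U.ha h with ⟨h1, _⟩ | ⟨h1, _⟩
  · refine (Th_at U F S C (hI.1 h1)).congr_of_eventuallyEq ?_
    filter_upwards [(isOpen_lt continuous_const ci).mem_nhds h1] with p hp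
    exact if_pos hp
  · have h3 := Th_at U F S C (hI.2 h1)
    have h4 : DifferentiableAt ℂ (fun p : ℂ × ℂ => (p.1, -p.2)) (t, w) := by fun_prop
    have h5 : DifferentiableAt ℂ (fun p : ℂ × ℂ => Th b θ h₀ p.1 (-p.2)) (t, w) :=
      DifferentiableAt.comp (t, w) (g := fun p : ℂ × ℂ => Th b θ h₀ p.1 p.2)
        (f := fun p : ℂ × ℂ => (p.1, -p.2)) h3 h4
    refine h5.congr_of_eventuallyEq ?_
    filter_upwards [(isOpen_lt ci continuous_const).mem_nhds h1] with p hp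
    have hp' : p.2.im < 0 := hp
    exact if_neg (by linarith)

theorem Tg_cl (U : UC Y K₁ L r e a h₀ C₁ C₂ c' c₃) (F : Fam b L r e θ) (S : SK Y c₁ K₁ b k)
    (C : SC c₁ K₁ c₃) {t w : ℂ} (h : (t, w) ∈ Sec Y c' a) (ht : -h₀ < t.im) :
    ‖Tg b θ h₀ t w - t‖ * (Y - |t.im|) ≤ C₂ * ‖w‖ ^ 2 := by
  have hI := Sec_DI U.ha h ht
  unfold Tg
  rcases Sec_w U.ha h with ⟨h1, _⟩ | ⟨h1, _⟩
  · rw [if_pos h1]; exact Th_cl U F S C (hI.1 h1)
  · rw [if_neg (by linarith), ← norm_neg w]; exact Th_cl U F S C (hI.2 h1)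

theorem Tg_per (U : UC Y K₁ L r e a h₀ C₁ C₂ c' c₃) (F : Fam b L r e θ) (S : SK Y c₁ K₁ b k)
    (C : SC c₁ K₁ c₃) {t w : ℂ} (h : (t, w) ∈ Sec Y c' a) (ht : -h₀ < t.im) :
    Tg b θ h₀ (t + 1) w = Tg b θ h₀ t w + 1 := by
  have hI := Sec_DI U.ha h ht
  unfold Tg
  rcases Sec_w U.ha h with ⟨h1, _⟩ | ⟨h1, _⟩
  · rw [if_pos h1, if_pos h1]; exact Th_per U F S C (hI.1 h1)
  · rw [if_neg (by linarith), if_neg (by linarith)]; exact Th_per U F S C (hI.2 h1)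

theorem conj_at {f : ℂ → ℂ → ℂ} {t w : ℂ}
    (h : DifferentiableAt ℂ (fun p : ℂ × ℂ => f p.1 p.2) (conj t, conj w)) :
    DifferentiableAt ℂ (fun p : ℂ × ℂ => conj (f (conj p.1) (conj p.2))) (t, w) := by
  have h1 := h.star_star
  have e : star ((conj t, conj w) : ℂ × ℂ) = (t, w) := by
    ext <;> simp
  rw [e] at h1
  exact h1

theorem Tf_low (U : UC Y K₁ L r e a h₀ C₁ C₂ c' c₃) (F : Fam b L r e θ) {t w : ℂ}
    (h : (t, w) ∈ Sec Y c' a) (ht : |t.im| < h₀) : Tf b θ h₀ t w = θ t w := by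
  unfold Tf
  split_ifs
  · exact Tg_low U F h ht
  · rw [Tg_low U F (Sec_conj h) (by simpa using ht), F.re t w (Sec_low U h ht), conj_conj]

theorem Tf_at (U : UC Y K₁ L r e a h₀ C₁ C₂ c' c₃) (F : Fam b L r e θ) (S : SK Y c₁ K₁ b k)
    (C : SC c₁ K₁ c₃) {t w : ℂ} (h : (t, w) ∈ Sec Y c' a) :
    DifferentiableAt ℂ (fun p : ℂ × ℂ => Tf b θ h₀ p.1 p.2) (t, w) := by
  have ci : Continuous fun p : ℂ × ℂ => p.1.im := Complex.continuous_im.comp continuous_fst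
  have hh := U.hh
  rcases lt_trichotomy t.im 0 with h1 | h1 | h1
  · have h3 := Tg_at U F S C (Sec_conj h) (by simp; linarith)
    refine (conj_at h3).congr_of_eventuallyEq ?_
    filter_upwards [(isOpen_lt ci continuous_const).mem_nhds h1] with p hp
    have hp' : p.1.im < 0 := hp
    exact if_neg (by linarith)
  · have h2 : |t.im| < h₀ := by rw [h1, abs_zero]; exact hh
    have h3 := F.hol.at (isOpen_WW 0 r e) (Sec_low U h h2)
    refine h3.congr_of_eventuallyEq ?_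
    have oS : IsOpen (Sec Y c' a) := by
      have hi2 : Continuous fun p : ℂ × ℂ => p.2.im := Complex.continuous_im.comp continuous_snd
      have hn : Continuous fun p : ℂ × ℂ => ‖p.2‖ := continuous_snd.norm
      exact (isOpen_lt ((hn.const_mul a).congr fun _ => rfl) hi2.abs).inter
        (isOpen_lt hn (((continuous_const.sub ci.abs).const_mul c').congr fun _ => rfl))
    filter_upwards [(isOpen_lt ci.abs continuous_const).mem_nhds h2, oS.mem_nhds h] with p hp hp2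
    exact Tf_low U F hp2 hp
  · have h3 := Tg_at U F S C h (by linarith)
    refine h3.congr_of_eventuallyEq ?_
    filter_upwards [(isOpen_lt continuous_const ci).mem_nhds h1] with p hp
    have hp' : 0 < p.1.im := hp
    exact if_pos hp'.le

theorem Tf_cl (U : UC Y K₁ L r e a h₀ C₁ C₂ c' c₃) (F : Fam b L r e θ) (S : SK Y c₁ K₁ b k)
    (C : SC c₁ K₁ c₃) {t w : ℂ} (h : (t, w) ∈ Sec Y c' a) :
    ‖Tf b θ h₀ t w - t‖ * (Y - |t.im|) ≤ C₂ * ‖w‖ ^ 2 := by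
  have hh := U.hh
  unfold Tf
  split_ifs with h1
  · exact Tg_cl U F S C h (by linarith)
  · have h2 := Tg_cl U F S C (Sec_conj h) (by simp; linarith)
    rw [norm_conj, conj_im, abs_neg] at h2
    rw [← norm_conj, map_sub, conj_conj]
    exact h2

theorem Tf_per (U : UC Y K₁ L r e a h₀ C₁ C₂ c' c₃) (F : Fam b L r e θ) (S : SK Y c₁ K₁ b k)
    (C : SC c₁ K₁ c₃) {t w : ℂ} (h : (t, w) ∈ Sec Y c' a) :
    Tf b θ h₀ (t + 1) w = Tf b θ h₀ t w + 1 := by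
  have hh := U.hh
  have e : (t + 1).im = t.im := by simp
  unfold Tf
  rw [e]
  split_ifs with h1
  · exact Tg_per U F S C h (by linarith)
  · have h2 := Tg_per U F S C (Sec_conj h) (by simp; linarith)
    rw [map_add, map_one, h2, map_add, map_one]

end

/-! ### constants and conclusion -/

theorem exists_small (A B : ℝ) (hA : 0 < A) (hB : 0 ≤ B) : ∃ x : ℝ, 0 < x ∧ x ≤ A ∧ x ≤ 1 ∧ B * x ≤ A := by
  refine ⟨min (min A 1) (A / (B + 1)), by positivity, ?_, ?_, ?_⟩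
  · exact (min_le_left _ _).trans (min_le_left _ _)
  · exact (min_le_left _ _).trans (min_le_right _ _)
  · calc B * min (min A 1) (A / (B + 1)) ≤ B * (A / (B + 1)) := by
          gcongr; exact min_le_right _ _
      _ = A * (B / (B + 1)) := by ring
      _ ≤ A * 1 := by
          gcongr
          rw [div_le_one (by positivity)]; linarith
      _ = A := mul_one A

theorem exists_SC {c₁ K₁ : ℝ} (hc : 0 < c₁) (hK : 0 ≤ K₁) : ∃ c₃, SC c₁ K₁ c₃ := by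
  obtain ⟨x, h0, h1, h2, h3⟩ := exists_small (min (c₁ / 4) (1 / 100)) K₁ (by positivity) hK
  have h4 := h1.trans (min_le_left _ _)
  have h5 := h3.trans (min_le_right _ _)
  refine ⟨x, h0, by linarith, ?_, ?_⟩
  · calc K₁ * x ^ 2 = K₁ * x * x := by ring
      _ ≤ 1 / 100 * 1 := by gcongr
      _ = _ := by norm_num
  · calc K₁ * x ^ 3 = K₁ * x * (x * x) := by ring
      _ ≤ 1 / 100 * (1 * 1) := by gcongr
      _ = _ := by norm_num

theorem exists_UC {Y K₁ L r e a c₃ : ℝ} (hY : 0 < Y) (hK : 0 ≤ K₁) (hL : 0 ≤ L) (hr : 0 < r)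
    (he : 0 < e) (ha : 0 < a) (hc₃ : 0 < c₃) :
    ∃ h₀ C₁ C₂ c' : ℝ, UC Y K₁ L r e a h₀ C₁ C₂ c' c₃ := by
  set h₀ : ℝ := min (r / 4) (Y / 4) with hh₀
  have hh : 0 < h₀ := by positivity
  have hh1 : h₀ ≤ r / 4 := min_le_left _ _
  have hh2 : h₀ ≤ Y / 4 := min_le_right _ _
  set C₁ : ℝ := 4 * L / r * Y ^ 2 + 256 * K₁ / a with hC₁
  have hC0 : 0 ≤ C₁ := by positivity
  set C₂ : ℝ := L * Y + 2 * C₁ / a with hC₂
  have hC20 : 0 ≤ C₂ := by positivity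
  set A : ℝ := min (min (1 / 10) (e / 2)) (min (h₀ / 8) (c₃ / 4)) with hA
  have hA0 : 0 < A := by positivity
  have hA1 : A ≤ 1 / 10 := (min_le_left _ _).trans (min_le_left _ _)
  have hA2 : A ≤ e / 2 := (min_le_left _ _).trans (min_le_right _ _)
  have hA3 : A ≤ h₀ / 8 := (min_le_right _ _).trans (min_le_left _ _)
  have hA4 : A ≤ c₃ / 4 := (min_le_right _ _).trans (min_le_right _ _)
  obtain ⟨x, x0, x1, x2, x3⟩ := exists_small A (Y + C₁ + C₂) hA0 (by positivity)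
  have y1 : 0 ≤ Y * x := by positivity
  have y2 : 0 ≤ C₁ * x := by positivity
  have y3 : 0 ≤ C₂ * x := by positivity
  have x3' : Y * x + C₁ * x + C₂ * x ≤ A := by linarith [x3, add_mul (Y + C₁) C₂ x, add_mul Y C₁ x]
  have e4 : C₁ * x ^ 2 = (C₁ * x) * x := by ring
  have e5 : C₂ * x ^ 2 = (C₂ * x) * x := by ring
  refine ⟨h₀, C₁, C₂, x, ha, hh, by linarith, by linarith, x0, by linarith, by linarith,
    by linarith, ?_, ?_, by linarith, ?_, ?_, ?_, ?_, hL, hK, hC0, hC20⟩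
  · rw [e4]; nlinarith
  · rw [e5]; nlinarith
  · rw [hC₁]; have : 0 ≤ 256 * K₁ / a := by positivity
    linarith
  · have : C₁ * a = 4 * L / r * Y ^ 2 * a + 256 * K₁ := by rw [hC₁]; field_simp
    rw [this]
    have : 0 ≤ 4 * L / r * Y ^ 2 * a := by positivity
    linarith
  · rw [hC₂]; have : 0 ≤ 2 * C₁ / a := by positivity
    linarith
  · have : C₂ * a = L * Y * a + 2 * C₁ := by rw [hC₂]; field_simp
    rw [this]
    have : 0 ≤ L * Y * a := by positivity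
    linarith

theorem Fam_L0 {b θ : ℂ → ℂ → ℂ} {L r e : ℝ} (F : Fam b L r e θ) : 0 ≤ L := by
  have he := F.he
  have hr := F.hr
  have h1 := F.cl 0 ((e / 2 : ℝ) : ℂ) ⟨by simp [abs_of_pos he, he], by simp [hr]⟩
  have h2 : 0 < ‖((e / 2 : ℝ) : ℂ)‖ := by
    rw [norm_pos_iff]; simpa using he.ne'
  have h3 : 0 ≤ L * ‖((e / 2 : ℝ) : ℂ)‖ ^ 2 := (norm_nonneg _).trans h1
  by_contra h4
  push Not at h4
  have : L * ‖((e / 2 : ℝ) : ℂ)‖ ^ 2 < 0 := mul_neg_of_neg_of_pos h4 (by positivity)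
  linarith

/-- TRIG-T4 -/
theorem t4 : Vale.Agent.P097.H536.T4 := by
  intro Y c K L r e a b θ hb F ha
  obtain ⟨c₁, K₁, S⟩ := exists_SK hb
  obtain ⟨c₃, C⟩ := exists_SC S.hc S.hK
  obtain ⟨h₀, C₁, C₂, c', U⟩ := exists_UC (e := e) hb.hY S.hK (Fam_L0 F) F.hr F.he ha C.h0
  refine ⟨c', C₂, h₀, Tf b θ h₀, U.c0, U.C20, U.hh, ?_, ?_, ?_, ?_⟩
  · rintro ⟨t, w⟩ h
    exact (Tf_at U F S C h).differentiableWithinAt
  · intro t w h
    exact Tf_cl U F S C h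
  · intro t w h
    exact Tf_per U F S C h
  · intro t w h ht _
    exact Tf_low U F h ht

end Vale.Agent.P097.TT4
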