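import Vale.Agent.P097.H799.Res3
import Vale.Agent.P097.H707.OneStep

/-!
# (RES) in the form consumed by helper707's iteration
-/

set_option linter.all false

namespace Vale.Agent.P097.TA

theorem resP {b : ℂ → ℂ → ℂ} {ρ M η CH : ℝ} (hG : Gen ρ M b) (hη : 0 < η)
    (hL : LeafMap b η CH) (hCH : 1 ≤ CH) :
    0 < CR ρ M ∧ 0 < ρ / 100 ∧ 0 < min η (ρ / (4000 * M * CH)) ∧ 0 < ρ / 4 ∧
    ResP b 6 (CR ρ M) (ρ / 100) (min η (ρ / (4000 * M * CH))) (ρ / 4) := by
  have hρ := hG.hρ
  have hM := hG.hM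
  have hM0 : 0 < M := by linarith
  have hCH0 : 0 < CH := by linarith
  have hCR : 0 < CR ρ M := by
    have := hG.B2_nonneg; have := hG.B3_nonneg
    unfold CR; positivity
  refine ⟨hCR, by positivity, lt_min hη (by positivity), by positivity, ?_⟩
  intro r r' e dl E θ K hr' hrr' hr he he0 hdl0 hdl hE hK hC h
  exact res hG hL hCH h hr hr' hrr' hdl (he0.trans (min_le_left _ _))
    (he0.trans (min_le_right _ _)) K hC

end Vale.Agent.P097.TA
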