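import Vale.Agent.P097.H707.Tools

/-!
# Bounds for the generating function `Fg b` and its derivatives
-/

set_option linter.all false

open scoped ComplexConjugate Topology
open Filter Metric

namespace Vale.Agent.P097.TA

/-- pairs of points in a strip, close to each other -/
def GD (s : ℝ) : Set (ℂ × ℂ) := {p | |p.1.im| < s ∧ |p.2.im| < s ∧ ‖p.2 - p.1‖ < s}

theorem mem_GD {s : ℝ} {x y : ℂ} : (x, y) ∈ GD s ↔ |x.im| < s ∧ |y.im| < s ∧ ‖y - x‖ < s := Iff.rfl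

theorem isOpen_GD (s : ℝ) : IsOpen (GD s) := by
  have h1 : Continuous fun p : ℂ × ℂ => |p.1.im| :=
    (Complex.continuous_im.comp continuous_fst).abs
  have h2 : Continuous fun p : ℂ × ℂ => |p.2.im| :=
    (Complex.continuous_im.comp continuous_snd).abs
  have h3 : Continuous fun p : ℂ × ℂ => ‖p.2 - p.1‖ := by fun_prop
  exact (isOpen_lt h1 continuous_const).inter
    ((isOpen_lt h2 continuous_const).inter (isOpen_lt h3 continuous_const))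

theorem GD_mono {s t : ℝ} (h : s ≤ t) : GD s ⊆ GD t := fun _ hq =>
  ⟨hq.1.trans_le h, hq.2.1.trans_le h, hq.2.2.trans_le h⟩

theorem convex_GD (s : ℝ) : Convex ℝ (GD s) := by
  have h1 : Convex ℝ {x : ℂ | |x.im| < s} := H799c s
  have h3 : Convex ℝ {p : ℂ × ℂ | ‖p.2 - p.1‖ < s} := by
    have : {p : ℂ × ℂ | ‖p.2 - p.1‖ < s} =
        ((LinearMap.snd ℝ ℂ ℂ - LinearMap.fst ℝ ℂ ℂ) : ℂ × ℂ →ₗ[ℝ] ℂ) ⁻¹' (ball 0 s) := by
      ext p; simp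
    rw [this]
    exact (convex_ball _ _).linear_preimage _
  have h2 : Convex ℝ {p : ℂ × ℂ | |p.1.im| < s} := h1.linear_preimage (LinearMap.fst ℝ ℂ ℂ)
  have h2' : Convex ℝ {p : ℂ × ℂ | |p.2.im| < s} := h1.linear_preimage (LinearMap.snd ℝ ℂ ℂ)
  exact h2.inter (h2'.inter h3)
where
  H799c (s : ℝ) : Convex ℝ {x : ℂ | |x.im| < s} := by
    have : {x : ℂ | |x.im| < s} = Complex.imLm ⁻¹' (ball 0 s) := by
      ext p; simp
    rw [this]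
    exact (convex_ball _ _).linear_preimage _

theorem GD_ball {s t : ℝ} {q q' : ℂ × ℂ} (hq : q ∈ GD s) (h : q' ∈ ball q t) :
    q' ∈ GD (s + 2 * t) := by
  rw [mem_ball, dist_eq_norm] at h
  have h1 : ‖q'.1 - q.1‖ < t := (norm_fst_le (q' - q)).trans_lt h
  have h2 : ‖q'.2 - q.2‖ < t := (norm_snd_le (q' - q)).trans_lt h
  have ht : 0 < t := (norm_nonneg _).trans_lt h1
  have i1 : |q'.1.im - q.1.im| < t := by
    rw [← Complex.sub_im]; exact (Complex.abs_im_le_norm _).trans_lt h1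
  have i2 : |q'.2.im - q.2.im| < t := by
    rw [← Complex.sub_im]; exact (Complex.abs_im_le_norm _).trans_lt h2
  refine ⟨?_, ?_, ?_⟩
  · calc |q'.1.im| = |(q'.1.im - q.1.im) + q.1.im| := by ring_nf
      _ ≤ |q'.1.im - q.1.im| + |q.1.im| := abs_add_le _ _
      _ < s + 2 * t := by linarith [hq.1]
  · calc |q'.2.im| = |(q'.2.im - q.2.im) + q.2.im| := by ring_nf
      _ ≤ |q'.2.im - q.2.im| + |q.2.im| := abs_add_le _ _
      _ < s + 2 * t := by linarith [hq.2.1]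
  · calc ‖q'.2 - q'.1‖ = ‖(q'.2 - q.2) - (q'.1 - q.1) + (q.2 - q.1)‖ := by ring_nf
      _ ≤ ‖(q'.2 - q.2) - (q'.1 - q.1)‖ + ‖q.2 - q.1‖ := norm_add_le _ _
      _ ≤ ‖q'.2 - q.2‖ + ‖q'.1 - q.1‖ + ‖q.2 - q.1‖ := by gcongr; exact norm_sub_le _ _
      _ < s + 2 * t := by linarith [hq.2.2]

/-! ## Cauchy estimates on balls -/

theorem JD.fderiv_ball {f : ℂ → ℂ → ℂ} {S : Set (ℂ × ℂ)} {B t : ℝ} {q : ℂ × ℂ} (ht : 0 < t)
    (hf : JD f S) (hB : Bd f B S) (hS : ball q t ⊆ S) :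
    ‖fderiv ℂ (fun p : ℂ × ℂ => f p.1 p.2) q‖ ≤ B / t :=
  Vale.Agent.P268.norm_fderiv_le_of_ball ht (DifferentiableOn.mono hf hS)
    (fun y hy => hB y.1 y.2 (hS hy))

theorem JD.dx_ball {f : ℂ → ℂ → ℂ} {S : Set (ℂ × ℂ)} {B t : ℝ} {x y : ℂ} (ht : 0 < t)
    (hf : JD f S) (hSo : IsOpen S) (hB : Bd f B S) (hS : ball (x, y) t ⊆ S) :
    ‖TA.dx f x y‖ ≤ B / t := by
  have hq : (x, y) ∈ S := hS (mem_ball_self ht)
  rw [hf.dx_eq hSo hq]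
  refine (ContinuousLinearMap.le_opNorm _ _).trans ?_
  have : ‖((1 : ℂ), (0 : ℂ))‖ = 1 := by simp [Prod.norm_mk]
  rw [this, mul_one]
  exact hf.fderiv_ball ht hB hS

theorem JD.de_ball {f : ℂ → ℂ → ℂ} {S : Set (ℂ × ℂ)} {B t : ℝ} {x y : ℂ} (ht : 0 < t)
    (hf : JD f S) (hSo : IsOpen S) (hB : Bd f B S) (hS : ball (x, y) t ⊆ S) :
    ‖TA.de f x y‖ ≤ B / t := by
  have hq : (x, y) ∈ S := hS (mem_ball_self ht)
  rw [hf.de_eq hSo hq]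
  refine (ContinuousLinearMap.le_opNorm _ _).trans ?_
  have : ‖((0 : ℂ), (1 : ℂ))‖ = 1 := by simp [Prod.norm_mk]
  rw [this, mul_one]
  exact hf.fderiv_ball ht hB hS

theorem Bd.dx_GD {f : ℂ → ℂ → ℂ} {B s t : ℝ} (ht : 0 < t) (hf : JD f (GD s)) (hB : Bd f B (GD s)) :
    Bd (TA.dx f) (B / t) (GD (s - 2 * t)) := fun x y h =>
  hf.dx_ball ht (isOpen_GD s) hB fun q hq => by
    have := GD_ball h hq
    rwa [sub_add_cancel] at this

theorem Bd.de_GD {f : ℂ → ℂ → ℂ} {B s t : ℝ} (ht : 0 < t) (hf : JD f (GD s)) (hB : Bd f B (GD s)) :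
    Bd (TA.de f) (B / t) (GD (s - 2 * t)) := fun x y h =>
  hf.de_ball ht (isOpen_GD s) hB fun q hq => by
    have := GD_ball h hq
    rwa [sub_add_cancel] at this

/-! ## The generating function -/

/-- the fifth order part -/
noncomputable def Gg (b : ℂ → ℂ → ℂ) (x y : ℂ) : ℂ := (y - x) ^ 5 * b ((x + y) / 2) (y - x)

theorem Fg_eq (b : ℂ → ℂ → ℂ) (x y : ℂ) : Fg b x y = (y - x) ^ 3 / 6 + Gg b x y := rfl

theorem F1_eq_dx (b : ℂ → ℂ → ℂ) : F1 b = dx (Fg b) := rfl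
theorem F2_eq_de (b : ℂ → ℂ → ℂ) : F2 b = de (Fg b) := rfl
theorem F12_eq (b : ℂ → ℂ → ℂ) : F12 b = dx (de (Fg b)) := rfl

section

variable {b : ℂ → ℂ → ℂ} {ρ M : ℝ}

theorem Gen.mid_mem {x y : ℂ} (h : (x, y) ∈ GD ρ) : |((x + y) / 2).im| < ρ := by
  have e : ((x + y) / 2).im = (x.im + y.im) / 2 := by
    rw [Complex.div_ofNat_im, Complex.add_im]
  rw [e, abs_lt]
  obtain ⟨h1, h2, _⟩ := h
  rw [abs_lt] at h1 h2
  constructor <;> linarith [h1.1, h1.2, h2.1, h2.2]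

theorem Gen.JD_Gg (h : Gen ρ M b) : JD (Gg b) (GD ρ) := by
  have h1 : JD (fun x y => b ((x + y) / 2) (y - x)) (GD ρ) := by
    refine JD.comp (T := {p | |p.1.im| < ρ ∧ ‖p.2‖ < ρ}) h.hol
      ((JD.fst.add JD.snd).div (JD.const 2) fun _ _ _ => two_ne_zero) (JD.snd.sub JD.fst) ?_
    intro x y hxy
    exact ⟨Gen.mid_mem hxy, hxy.2.2⟩
  exact ((JD.snd.sub JD.fst).pow 5).mul h1

theorem JD_cube (S : Set (ℂ × ℂ)) : JD (fun x y => (y - x) ^ 3 / 6) S :=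
  ((JD.snd.sub JD.fst).pow 3).div (JD.const 6) fun _ _ _ => by norm_num

theorem Gen.JD_Fg (h : Gen ρ M b) : JD (Fg b) (GD ρ) := (JD_cube _).add h.JD_Gg

theorem Gen.Gg_le (h : Gen ρ M b) {x y : ℂ} (hq : (x, y) ∈ GD ρ) :
    ‖Gg b x y‖ ≤ M * ‖y - x‖ ^ 5 := by
  unfold Gg
  rw [norm_mul, norm_pow, mul_comm]
  gcongr
  exact h.bd _ _ (Gen.mid_mem hq) hq.2.2

theorem Gen.Bd_Fg (h : Gen ρ M b) : Bd (Fg b) (2 * M) (GD ρ) := by
  intro x y hq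
  have h0 : 0 ≤ ‖y - x‖ := norm_nonneg _
  have h1 : ‖y - x‖ ≤ 1 := hq.2.2.le.trans h.hρ1
  have hM := h.hM
  rw [Fg_eq]
  calc ‖(y - x) ^ 3 / 6 + Gg b x y‖ ≤ ‖(y - x) ^ 3 / 6‖ + ‖Gg b x y‖ := norm_add_le _ _
    _ ≤ ‖y - x‖ ^ 3 / 6 + M * ‖y - x‖ ^ 5 := by
        gcongr
        · rw [norm_div, norm_pow]; simp
        · exact h.Gg_le hq
    _ ≤ 1 / 6 + M * 1 := by
        gcongr
        · exact pow_le_one₀ h0 h1
        · exact pow_le_one₀ h0 h1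
    _ ≤ 2 * M := by linarith

theorem Gen.JD_F1 (h : Gen ρ M b) : JD (F1 b) (GD ρ) := h.JD_Fg.dx (isOpen_GD ρ)
theorem Gen.JD_F2 (h : Gen ρ M b) : JD (F2 b) (GD ρ) := h.JD_Fg.de (isOpen_GD ρ)
theorem Gen.JD_F11 (h : Gen ρ M b) : JD (dx (F1 b)) (GD ρ) := h.JD_F1.dx (isOpen_GD ρ)
theorem Gen.JD_F12 (h : Gen ρ M b) : JD (F12 b) (GD ρ) := h.JD_F2.dx (isOpen_GD ρ)
theorem Gen.JD_F22 (h : Gen ρ M b) : JD (de (F2 b)) (GD ρ) := h.JD_F2.de (isOpen_GD ρ)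

theorem Gen.F12_symm (h : Gen ρ M b) {x y : ℂ} (hq : (x, y) ∈ GD ρ) :
    de (F1 b) x y = F12 b x y := (h.JD_Fg.dx_de (isOpen_GD ρ) hq).symm

theorem Gen.Bd_F1 (h : Gen ρ M b) : Bd (F1 b) (2 * M / (ρ / 16)) (GD (7 * ρ / 8)) := by
  have := Bd.dx_GD (t := ρ / 16) (by have := h.hρ; positivity) h.JD_Fg h.Bd_Fg
  rwa [show ρ - 2 * (ρ / 16) = 7 * ρ / 8 by ring] at this

theorem Gen.Bd_F2 (h : Gen ρ M b) : Bd (F2 b) (2 * M / (ρ / 16)) (GD (7 * ρ / 8)) := by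
  have := Bd.de_GD (t := ρ / 16) (by have := h.hρ; positivity) h.JD_Fg h.Bd_Fg
  rwa [show ρ - 2 * (ρ / 16) = 7 * ρ / 8 by ring] at this

/-- bound of the second derivatives -/
noncomputable def B2 (ρ M : ℝ) : ℝ := 2 * M / (ρ / 16) / (ρ / 16)

/-- bound of the third derivatives -/
noncomputable def B3 (ρ M : ℝ) : ℝ := B2 ρ M / (ρ / 16)

theorem Gen.Bd_F11 (h : Gen ρ M b) : Bd (dx (F1 b)) (B2 ρ M) (GD (3 * ρ / 4)) := by
  have hρ := h.hρ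
  have := Bd.dx_GD (t := ρ / 16) (by positivity)
    (h.JD_F1.mono (GD_mono (by linarith : 7 * ρ / 8 ≤ ρ))) h.Bd_F1
  rwa [show 7 * ρ / 8 - 2 * (ρ / 16) = 3 * ρ / 4 by ring] at this

theorem Gen.Bd_F12 (h : Gen ρ M b) : Bd (F12 b) (B2 ρ M) (GD (3 * ρ / 4)) := by
  have hρ := h.hρ
  have := Bd.dx_GD (t := ρ / 16) (by positivity)
    (h.JD_F2.mono (GD_mono (by linarith : 7 * ρ / 8 ≤ ρ))) h.Bd_F2
  rwa [show 7 * ρ / 8 - 2 * (ρ / 16) = 3 * ρ / 4 by ring] at this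

theorem Gen.Bd_F22 (h : Gen ρ M b) : Bd (de (F2 b)) (B2 ρ M) (GD (3 * ρ / 4)) := by
  have hρ := h.hρ
  have := Bd.de_GD (t := ρ / 16) (by positivity)
    (h.JD_F2.mono (GD_mono (by linarith : 7 * ρ / 8 ≤ ρ))) h.Bd_F2
  rwa [show 7 * ρ / 8 - 2 * (ρ / 16) = 3 * ρ / 4 by ring] at this

/-- Lipschitz bound for a bounded holomorphic function. -/
theorem JD.lip_GD {f : ℂ → ℂ → ℂ} {B s t : ℝ} (ht : 0 < t) (hf : JD f (GD (s + 2 * t)))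
    (hB : Bd f B (GD (s + 2 * t))) {q q' : ℂ × ℂ} (hq : q ∈ GD s) (hq' : q' ∈ GD s) :
    ‖f q.1 q.2 - f q'.1 q'.2‖ ≤ B / t * ‖q - q'‖ := by
  refine (convex_GD s).norm_image_sub_le_of_norm_hasFDerivWithin_le (𝕜 := ℂ)
    (f := fun q : ℂ × ℂ => f q.1 q.2) (f' := fderiv ℂ (fun q : ℂ × ℂ => f q.1 q.2))
    (fun x hx => ?_) (fun x hx => ?_) hq' hq
  · exact (hf.at (isOpen_GD _) (x := x.1) (ε := x.2)
      (GD_mono (by linarith) hx)).hasFDerivAt.hasFDerivWithinAt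
  · exact hf.fderiv_ball ht hB fun y hy => GD_ball hx hy

theorem Gen.lip_F11 (h : Gen ρ M b) {q q' : ℂ × ℂ} (hq : q ∈ GD (5 * ρ / 8))
    (hq' : q' ∈ GD (5 * ρ / 8)) :
    ‖dx (F1 b) q.1 q.2 - dx (F1 b) q'.1 q'.2‖ ≤ B3 ρ M * ‖q - q'‖ := by
  have hρ := h.hρ
  have e : 5 * ρ / 8 + 2 * (ρ / 16) = 3 * ρ / 4 := by ring
  refine JD.lip_GD (t := ρ / 16) (s := 5 * ρ / 8) (B := B2 ρ M) (by positivity) ?_ ?_ hq hq'
  · rw [e]; exact h.JD_F11.mono (GD_mono (by linarith))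
  · rw [e]; exact h.Bd_F11

theorem Gen.lip_F12 (h : Gen ρ M b) {q q' : ℂ × ℂ} (hq : q ∈ GD (5 * ρ / 8))
    (hq' : q' ∈ GD (5 * ρ / 8)) :
    ‖F12 b q.1 q.2 - F12 b q'.1 q'.2‖ ≤ B3 ρ M * ‖q - q'‖ := by
  have hρ := h.hρ
  have e : 5 * ρ / 8 + 2 * (ρ / 16) = 3 * ρ / 4 := by ring
  refine JD.lip_GD (t := ρ / 16) (s := 5 * ρ / 8) (B := B2 ρ M) (by positivity) ?_ ?_ hq hq'
  · rw [e]; exact h.JD_F12.mono (GD_mono (by linarith))
  · rw [e]; exact h.Bd_F12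

theorem Gen.lip_F22 (h : Gen ρ M b) {q q' : ℂ × ℂ} (hq : q ∈ GD (5 * ρ / 8))
    (hq' : q' ∈ GD (5 * ρ / 8)) :
    ‖de (F2 b) q.1 q.2 - de (F2 b) q'.1 q'.2‖ ≤ B3 ρ M * ‖q - q'‖ := by
  have hρ := h.hρ
  have e : 5 * ρ / 8 + 2 * (ρ / 16) = 3 * ρ / 4 := by ring
  refine JD.lip_GD (t := ρ / 16) (s := 5 * ρ / 8) (B := B2 ρ M) (by positivity) ?_ ?_ hq hq'
  · rw [e]; exact h.JD_F22.mono (GD_mono (by linarith))
  · rw [e]; exact h.Bd_F22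

/-- `F₁₂ = -(y - x) + O(δ³)` for `|y - x| ≤ δ`. -/
theorem Gen.F12_asym (h : Gen ρ M b) {x y : ℂ} {δ : ℝ} (hδ : 0 < δ) (hδρ : δ ≤ ρ / 16)
    (hq : (x, y) ∈ GD (3 * ρ / 4)) (hd : ‖y - x‖ ≤ δ) : ‖F12 b x y + (y - x)‖ ≤ 972 * M * δ ^ 3 := by
  have hρ := h.hρ
  have hM : 0 ≤ M := zero_le_one.trans h.hM
  set S : Set (ℂ × ℂ) := GD ρ ∩ {p | ‖p.2 - p.1‖ < 3 * δ} with hS
  have hSo : IsOpen S := (isOpen_GD ρ).inter (isOpen_lt (by fun_prop) continuous_const)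
  have hball : ball (x, y) δ ⊆ S := by
    intro q hq'
    refine ⟨GD_mono (by linarith) (GD_ball hq hq'), ?_⟩
    have h0 : (x, y) ∈ {p : ℂ × ℂ | ‖p.2 - p.1‖ ≤ δ} := hd
    rw [mem_ball, dist_eq_norm] at hq'
    have h1 : ‖q.1 - x‖ < δ := (norm_fst_le (q - (x, y))).trans_lt hq'
    have h2 : ‖q.2 - y‖ < δ := (norm_snd_le (q - (x, y))).trans_lt hq'
    show ‖q.2 - q.1‖ < 3 * δ
    calc ‖q.2 - q.1‖ = ‖(q.2 - y) - (q.1 - x) + (y - x)‖ := by ring_nf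
      _ ≤ ‖(q.2 - y) - (q.1 - x)‖ + ‖y - x‖ := norm_add_le _ _
      _ ≤ ‖q.2 - y‖ + ‖q.1 - x‖ + ‖y - x‖ := by gcongr; exact norm_sub_le _ _
      _ < 3 * δ := by linarith
  have hG : JD (Gg b) S := h.JD_Gg.mono Set.inter_subset_left
  have hGb : Bd (Gg b) (M * (3 * δ) ^ 5) S := by
    intro u w hu
    refine (h.Gg_le hu.1).trans ?_
    have : ‖w - u‖ < 3 * δ := hu.2
    gcongr
  have hG1 : JD (TA.de (Gg b)) (ball (x, y) (δ / 2)) :=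
    (hG.de hSo).mono ((ball_subset_ball (by linarith)).trans hball)
  have hG1b : Bd (TA.de (Gg b)) (M * (3 * δ) ^ 5 / (δ / 2)) (ball (x, y) (δ / 2)) := by
    intro u w hu
    refine hG.de_ball (by positivity) hSo hGb fun q hq' => hball ?_
    rw [mem_ball] at *
    calc dist q (x, y) ≤ dist q (u, w) + dist (u, w) (x, y) := dist_triangle _ _ _
      _ < δ := by linarith
  have hG2 := hG1.dx_ball (t := δ / 2) (x := x) (y := y) (by positivity) isOpen_ball hG1b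
    subset_rfl
  have hqρ : (x, y) ∈ GD ρ := GD_mono (by linarith) hq
  -- decomposition
  have hde : ∀ u w : ℂ, (u, w) ∈ GD ρ → TA.de (Fg b) u w = (w - u) ^ 2 / 2 + TA.de (Gg b) u w := by
    intro u w hu
    have h1 : HasDerivAt (fun w => (w - u) ^ 3 / 6 + Gg b u w)
        ((w - u) ^ 2 / 2 + TA.de (Gg b) u w) w := by
      have h2 : HasDerivAt (fun w : ℂ => (w - u) ^ 3 / 6) ((w - u) ^ 2 / 2) w := by
        have := (((hasDerivAt_id w).sub_const u).pow 3).div_const 6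
        refine this.congr_deriv ?_
        simp; ring
      exact h2.add (h.JD_Gg.hasDerivAt_e (isOpen_GD ρ) hu)
    exact h1.deriv
  have hdx : F12 b x y = -(y - x) + TA.dx (TA.de (Gg b)) x y := by
    rw [F12_eq]
    have h1 : HasDerivAt (fun u => (y - u) ^ 2 / 2 + TA.de (Gg b) u y)
        (-(y - x) + TA.dx (TA.de (Gg b)) x y) x := by
      have h2 : HasDerivAt (fun u : ℂ => (y - u) ^ 2 / 2) (-(y - x)) x := by
        have := (((hasDerivAt_id x).const_sub y).pow 2).div_const 2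
        refine this.congr_deriv ?_
        simp; ring
      exact h2.add ((h.JD_Gg.de (isOpen_GD ρ)).hasDerivAt_x (isOpen_GD ρ) hqρ)
    refine (h1.congr_of_eventuallyEq ?_).deriv
    have hn : ∀ᶠ u in 𝓝 x, (u, y) ∈ GD ρ := by
      have : ContinuousAt (fun u : ℂ => (u, y)) x := by fun_prop
      exact this.eventually ((isOpen_GD ρ).mem_nhds hqρ)
    filter_upwards [hn] with u hu
    exact hde u y hu
  rw [hdx]
  calc ‖-(y - x) + TA.dx (TA.de (Gg b)) x y + (y - x)‖ = ‖TA.dx (TA.de (Gg b)) x y‖ := by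
        congr 1; ring
    _ ≤ M * (3 * δ) ^ 5 / (δ / 2) / (δ / 2) := hG2
    _ = 972 * M * δ ^ 3 := by field_simp; ring

end

end Vale.Agent.P097.TA
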