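import Vale.Agent.P097.H402.Rat.Defs

/-! # P097 / RAT-D0: definitions and interface

`z = exp (i φ)`, `y = D(z) η`, `x = D(z) χ`: in the variables `(z, η)` the pencil Hamiltonian and its
laws are analytic at every point `(z₀, 0)`, `z₀ ∈ ℂ`, zeros of `D` and `z₀ = 0` included. -/

set_option linter.all false

open Complex Metric Filter Topology Set Polynomial
open scoped ComplexConjugate

namespace Vale.Agent.P097.RatD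

open Vale.Agent.P097.H402.Rat

/-- `E(φ, D(z) η) / D(z) ^ 3` -/
noncomputable def GG (Q : ℕ → ℂ[X]) (z η : ℂ) : ℂ := ∑' m, (Q m).eval z * η ^ m

/-- `z exp (i D(z) s)` -/
noncomputable def zz (D : ℂ[X]) (z s : ℂ) : ℂ := z * Complex.exp (I * D.eval z * s)

/-- `D (zz) / D (z)` -/
noncomputable def qq (D : ℂ[X]) (z s : ℂ) : ℂ :=
  1 + s * ∫ t in (0 : ℝ)..1, I * zz D z (t * s) * (derivative D).eval (zz D z (t * s))

/-- `R (φ + D(z) s) / R φ` -/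
noncomputable def rr (N D : ℂ[X]) (z s : ℂ) : ℂ :=
  Complex.exp (s * ∫ t in (0 : ℝ)..1, N.eval (zz D z (t * s)) / qq D z (t * s))

/-- `sin u / u` -/
noncomputable def sc (u : ℂ) : ℂ := if u = 0 then 1 else Complex.sin u / u

/-- normalised chord equation: `η` is the direction of the chord to `zz D z χ` -/
def Ch (N D : ℂ[X]) (z χ η : ℂ) : Prop :=
  ∫ t in (0 : ℝ)..1, rr N D z (t * χ) * ((t * χ - η) * sc (D.eval z * (t * χ - η))) = 0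

/-- RAT-D0 -/
def PD0 : Prop := ∀ (R : ℂ → ℂ) (δ : ℝ) (E ξ X : ℂ → ℂ → ℂ) (N D : ℂ[X]) (Q : ℕ → ℂ[X]) (C : ℝ),
  Dat R δ E ξ X N D Q C → ∀ z₀ : ℂ,
  AnalyticAt ℂ (fun η => GG Q z₀ η) 0 ∧
  (¬ ∀ᶠ η in 𝓝 (0 : ℂ), GG Q z₀ η = 0) ∧
  (∀ η, GG Q z₀ (-η) = -GG Q z₀ η) ∧
  ∃ h : ℂ → ℂ, AnalyticAt ℂ h 0 ∧ h 0 = 0 ∧ (∀ᶠ χ in 𝓝 (0 : ℂ), Ch N D z₀ χ (h χ)) ∧
    (∀ᶠ χ in 𝓝 (0 : ℂ), GG Q z₀ (h χ) =
      rr N D z₀ χ * qq D z₀ χ ^ 3 * GG Q (zz D z₀ χ) ((χ - h χ) / qq D z₀ χ))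

end Vale.Agent.P097.RatD
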