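import Vale.Agent.P097.H799.Sym

/-!
# The resonance condition (RES) of Theorem A
-/

set_option linter.all false

open scoped ComplexConjugate Topology
open Filter Metric

namespace Vale.Agent.P097.TA

/-- the constant of the resonance theorem -/
noncomputable def CR (ρ M : ℝ) : ℝ := 400 + 18432 * (B2 ρ M + B3 ρ M)

section

variable {b θ : ℂ → ℂ → ℂ} {ρ M η CH r r' e dl E ε : ℝ}

theorem mem_WW_real (hε : |ε| < e) {a : ℝ} {x : ℂ} (hx : |x.im| < r) : (x, (ε : ℂ)) ∈ WW a r e := by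
  refine ⟨?_, ?_⟩
  · simpa using hε
  · simpa using hx

theorem Apx.der (h : Apx b θ r e dl E) (hε : |ε| < e) {x : ℂ} (hx : |x.im| < r) :
    HasDerivAt (fun x => θ x ε) (dx θ x ε) x :=
  h.hol.hasDerivAt_x (isOpen_WW 0 r e) (mem_WW_real hε hx)

/-- increments of `θ` along real steps -/
theorem Apx.incr (h : Apx b θ r e dl E) (hε : |ε| < e) {x : ℂ} (hx : |x.im| < r) (s : ℝ) :
    ‖θ (x + s) ε - θ x ε - s‖ ≤ dl * |s| := by
  have hx' : |(x + s).im| < r := by simpa using hx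
  have key := (H799.convex_strip r).norm_image_sub_le_of_norm_hasDerivWithin_le
    (f := fun x => θ x ε - x) (f' := fun x => dx θ x ε - 1) (C := dl) (x := x) (y := x + s)
    (fun y hy => ((h.der hε hy).sub (hasDerivAt_id y)).hasDerivWithinAt)
    (fun y hy => h.dx1 y ε (mem_WW_real hε hy)) hx hx'
  have e1 : θ (x + s) ε - (x + s) - (θ x ε - x) = θ (x + s) ε - θ x ε - s := by ring
  rw [e1, add_sub_cancel_left, Complex.norm_real, Real.norm_eq_abs] at key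
  exact key

theorem Apx.per_nat (h : Apx b θ r e dl E) (hε : |ε| < e) {x : ℂ} (hx : |x.im| < r) (p : ℕ) :
    θ (x + p) ε = θ x ε + p := by
  induction p with
  | zero => simp
  | succ p ih =>
    have hx' : |(x + p).im| < r := by simpa using hx
    have e1 : x + ((p + 1 : ℕ) : ℂ) = x + p + 1 := by push_cast; ring
    rw [e1, h.per _ _ (mem_WW_real hε hx'), ih]
    push_cast; ring

theorem Apx.pair (h : Apx b θ r e dl E) (hρ : 0 < ρ) (hρ1 : ρ ≤ 1) (hr : r ≤ ρ / 4)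
    (hdl : dl ≤ ρ / 100) (hε : |ε| < e)
    (hε' : |ε| ≤ ρ / 100) {x : ℂ} (hx : |x.im| < r) {q : ℂ × ℂ} (hq : ‖q‖ ≤ ρ / 16) :
    (θ x ε, θ (x + ε) ε) + q ∈ GD (5 * ρ / 8) := by
  have hx' : |(x + ε).im| < r := by simpa using hx
  have hcl := h.cl x ε (mem_WW_real hε hx)
  have hcl' := h.cl (x + ε) ε (mem_WW_real hε hx')
  have hinc := h.incr hε hx ε
  have hdl0 : 0 ≤ dl := (norm_nonneg _).trans hcl
  have hq1 : ‖q.1‖ ≤ ρ / 16 := (norm_fst_le q).trans hq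
  have hq2 : ‖q.2‖ ≤ ρ / 16 := (norm_snd_le q).trans hq
  refine ⟨?_, ?_, ?_⟩
  · show |(θ x ε + q.1).im| < 5 * ρ / 8
    have e1 : (θ x ε + q.1).im = x.im + (θ x ε - x).im + q.1.im := by simp
    rw [e1]
    have a1 : |(θ x ε - x).im| ≤ ρ / 100 := (Complex.abs_im_le_norm _).trans (hcl.trans hdl)
    have a2 : |q.1.im| ≤ ρ / 16 := (Complex.abs_im_le_norm _).trans hq1
    calc |x.im + (θ x ε - x).im + q.1.im| ≤ |x.im| + |(θ x ε - x).im| + |q.1.im| := abs_add_three _ _ _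
      _ < 5 * ρ / 8 := by linarith
  · show |(θ (x + ε) ε + q.2).im| < 5 * ρ / 8
    have e1 : (θ (x + ε) ε + q.2).im = (x + ε).im + (θ (x + ε) ε - (x + ε)).im + q.2.im := by simp
    rw [e1]
    have a1 : |(θ (x + ε) ε - (x + ε)).im| ≤ ρ / 100 :=
      (Complex.abs_im_le_norm _).trans (hcl'.trans hdl)
    have a2 : |q.2.im| ≤ ρ / 16 := (Complex.abs_im_le_norm _).trans hq2
    calc |(x + ε).im + (θ (x + ε) ε - (x + ε)).im + q.2.im|
        ≤ |(x + ε).im| + |(θ (x + ε) ε - (x + ε)).im| + |q.2.im| := abs_add_three _ _ _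
      _ < 5 * ρ / 8 := by linarith
  · show ‖θ (x + ε) ε + q.2 - (θ x ε + q.1)‖ < 5 * ρ / 8
    have e1 : θ (x + ε) ε + q.2 - (θ x ε + q.1) =
        (θ (x + ε) ε - θ x ε - ε) + ε + q.2 - q.1 := by ring
    rw [e1]
    have hn : ‖(ε : ℂ)‖ = |ε| := by simp
    have h3 : dl * |ε| ≤ ρ / 100 := by
      calc dl * |ε| ≤ (ρ / 100) * 1 := by
            apply mul_le_mul hdl (by linarith) (abs_nonneg _) (by positivity)
        _ = ρ / 100 := by ring
    calc ‖(θ (x + ε) ε - θ x ε - ε) + ε + q.2 - q.1‖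
        ≤ ‖(θ (x + ε) ε - θ x ε - ε) + ε + q.2‖ + ‖q.1‖ := norm_sub_le _ _
      _ ≤ ‖θ (x + ε) ε - θ x ε - ε‖ + ‖(ε : ℂ)‖ + ‖q.2‖ + ‖q.1‖ := by
          gcongr; exact norm_add₃_le
      _ < 5 * ρ / 8 := by rw [hn]; linarith

theorem Apx.pair0 (h : Apx b θ r e dl E) (hρ : 0 < ρ) (hρ1 : ρ ≤ 1) (hr : r ≤ ρ / 4)
    (hdl : dl ≤ ρ / 100) (hε : |ε| < e)
    (hε' : |ε| ≤ ρ / 100) {x : ℂ} (hx : |x.im| < r) :
    (θ x ε, θ (x + ε) ε) ∈ GD (5 * ρ / 8) := by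
  have := h.pair hρ hρ1 hr hdl hε hε' hx (q := 0) (by simp; positivity)
  simpa using this

/-- Euler-Lagrange residue as a function of the phase, with its derivative -/
theorem Apx.der_EL (hG : Gen ρ M b) (h : Apx b θ r e dl E) (hr : r ≤ ρ / 4)
    (hdl : dl ≤ ρ / 100) (hε : |ε| < e) (hε' : |ε| ≤ ρ / 100) {x : ℂ} (hx : |x.im| < r) :
    HasDerivAt (fun x => F1 b (θ x ε) (θ (x + ε) ε) + F2 b (θ (x - ε) ε) (θ x ε))
      (dx (F1 b) (θ x ε) (θ (x + ε) ε) * dx θ x ε + F12 b (θ x ε) (θ (x + ε) ε) * dx θ (x + ε) ε +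
        F12 b (θ (x - ε) ε) (θ x ε) * dx θ (x - ε) ε + de (F2 b) (θ (x - ε) ε) (θ x ε) * dx θ x ε)
      x := by
  have hρ := hG.hρ
  have hx1 : |(x + ε).im| < r := by simpa using hx
  have hx2 : |(x - ε).im| < r := by simpa using hx
  have q1 : (θ x ε, θ (x + ε) ε) ∈ GD ρ :=
    GD_mono (by linarith) (h.pair0 hρ hG.hρ1 hr hdl hε hε' hx)
  have q2 : (θ (x - ε) ε, θ x ε) ∈ GD ρ := by
    have := h.pair0 hρ hG.hρ1 hr hdl hε hε' hx2
    rw [sub_add_cancel] at this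
    exact GD_mono (by linarith) this
  have d0 := h.der hε hx
  have d1 : HasDerivAt (fun x => θ (x + ε) ε) (dx θ (x + ε) ε) x := by
    have := HasDerivAt.comp_add_const x (ε : ℂ) (h.der hε hx1)
    exact this
  have d2 : HasDerivAt (fun x => θ (x - ε) ε) (dx θ (x - ε) ε) x := by
    have := HasDerivAt.comp_sub_const x (ε : ℂ) (h.der hε hx2)
    exact this
  have e1 := hG.JD_F1.hasDerivAt_comp (isOpen_GD ρ) d0 d1 q1
  have e2 := hG.JD_F2.hasDerivAt_comp (isOpen_GD ρ) d2 d0 q2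
  rw [hG.F12_symm q1] at e1
  have := e1.add e2
  refine this.congr_deriv ?_
  rw [F12_eq]
  show _ + (dx (F2 b) _ _ * _ + _) = _
  rw [F2_eq_de]
  ring

end

end Vale.Agent.P097.TA
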