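import Vale.Agent.P097.H799.Res


/-!
# The resonance condition (RES) of Theorem A, part 2
-/

set_option linter.all false

open scoped ComplexConjugate Topology
open Filter Metric Finset

namespace Vale.Agent.P097.TA

section

variable {b θ : ℂ → ℂ → ℂ} {ρ M η CH r r' e dl E ε : ℝ}

/-- derivative of the Euler-Lagrange residue: Cauchy bound -/
theorem Apx.der_EL_le (hG : Gen ρ M b) (h : Apx b θ r e dl E) (hr : r ≤ ρ / 4) (hr' : r' < r)
    (hdl : dl ≤ ρ / 100) (hε : |ε| < e) (hε' : |ε| ≤ ρ / 100) {x : ℂ} (hx : |x.im| < r') :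
    ‖dx (F1 b) (θ x ε) (θ (x + ε) ε) * dx θ x ε + F12 b (θ x ε) (θ (x + ε) ε) * dx θ (x + ε) ε +
        F12 b (θ (x - ε) ε) (θ x ε) * dx θ (x - ε) ε +
        de (F2 b) (θ (x - ε) ε) (θ x ε) * dx θ x ε‖ ≤ E / (r - r') := by
  have hs : ∀ z ∈ closedBall x (r - r'), |z.im| < r := by
    intro z hz
    rw [mem_closedBall, dist_eq_norm] at hz
    have h1 : |(z - x).im| ≤ r - r' := (Complex.abs_im_le_norm _).trans hz
    have e1 : z.im = (z - x).im + x.im := by simp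
    rw [e1]
    calc _ ≤ |(z - x).im| + |x.im| := abs_add_le _ _
      _ < r := by linarith
  rw [← (h.der_EL hG hr hdl hε hε' (hx.trans hr')).deriv]
  refine Complex.norm_deriv_le_of_forall_mem_sphere_norm_le (by linarith) ?_ ?_
  · apply DifferentiableOn.diffContOnCl_ball (U := {z : ℂ | |z.im| < r})
    · intro z hz
      exact (h.der_EL hG hr hdl hε hε' hz).differentiableAt.differentiableWithinAt
    · exact hs
  · intro z hz
    have hz' := hs z (sphere_subset_closedBall hz)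
    have := h.er z ε (mem_WW_real hε hz')
    rw [add_comm]
    exact this

/-- the weights are close to `ε` -/
theorem Apx.weight (hG : Gen ρ M b) (h : Apx b θ r e dl E) (hr : r ≤ ρ / 4)
    (hdl : dl ≤ ρ / 100) (hε : |ε| < e) (hε0 : 0 < ε) (hε' : ε ≤ ρ / (4000 * M)) {x : ℂ}
    (hx : |x.im| < r) :
    ‖H799.cw (fun q => F12 b q.1 q.2) (fun x => θ x ε) (fun x => dx θ x ε) ε x - ε‖ ≤ ε / 4 := by
  have hρ := hG.hρ
  have hρ1 := hG.hρ1
  have hM := hG.hM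
  have hM0 : 0 < M := by linarith
  have hε1 : ε ≤ ρ / 4000 := hε'.trans (by
    apply div_le_div_of_nonneg_left hρ.le (by norm_num); linarith)
  have habs : |ε| = ε := abs_of_pos hε0
  have hx' : |(x + ε).im| < r := by simpa using hx
  have q1 := h.pair0 hρ hρ1 hr hdl hε (by rw [habs]; linarith) hx
  have hinc := h.incr hε hx ε
  rw [habs] at hinc
  have hv := h.dx1 x ε (mem_WW_real hε hx)
  have hv' := h.dx1 (x + ε) ε (mem_WW_real hε hx')
  have hdl0 : 0 ≤ dl := (norm_nonneg _).trans hv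
  have hdl1 : dl ≤ 1 / 100 := by linarith
  have hd : ‖θ (x + ε) ε - θ x ε‖ ≤ 2 * ε := by
    calc ‖θ (x + ε) ε - θ x ε‖ = ‖(θ (x + ε) ε - θ x ε - ε) + ε‖ := by ring_nf
      _ ≤ ‖θ (x + ε) ε - θ x ε - ε‖ + ‖(ε : ℂ)‖ := norm_add_le _ _
      _ ≤ dl * ε + ε := by gcongr; simp [habs]
      _ ≤ 2 * ε := by nlinarith
  have h12 := hG.F12_asym (δ := 2 * ε) (by positivity) (by linarith) (GD_mono (by linarith) q1) hd
  have hMε : 972 * M * (2 * ε) ^ 3 ≤ ε / 1000 := by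
    have h1 : 4000 * M * ε ≤ 1 := by
      rw [le_div_iff₀ (by positivity)] at hε'; linarith
    have h2 : M * ε ^ 2 ≤ 1 / 16000000 := by
      have : 4000 * M * ε * ε ≤ 1 * (1 / 4000) := by
        apply mul_le_mul h1 (by linarith) hε0.le (by norm_num)
      nlinarith
    calc 972 * M * (2 * ε) ^ 3 = 7776 * (M * ε ^ 2) * ε := by ring
      _ ≤ 7776 * (1 / 16000000) * ε := by gcongr
      _ ≤ ε / 1000 := by linarith
  set F := F12 b (θ x ε) (θ (x + ε) ε) with hF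
  set d := θ (x + ε) ε - θ x ε with hdd
  set v := dx θ x ε with hvv
  set v' := dx θ (x + ε) ε with hvv'
  have hcw : H799.cw (fun q => F12 b q.1 q.2) (fun x => θ x ε) (fun x => dx θ x ε) ε x =
      -F * v * v' := rfl
  rw [hcw]
  have hFε : ‖-F - ε‖ ≤ ε / 50 := by
    calc ‖-F - ε‖ = ‖-(F + d) + (d - ε)‖ := by ring_nf
      _ ≤ ‖-(F + d)‖ + ‖d - ε‖ := norm_add_le _ _
      _ ≤ ε / 1000 + dl * ε := by
          rw [norm_neg]; exact add_le_add (h12.trans hMε) hinc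
      _ ≤ ε / 50 := by nlinarith
  have hvvn : ‖v * v' - 1‖ ≤ 3 / 100 := by
    calc ‖v * v' - 1‖ = ‖(v - 1) * (v' - 1) + (v - 1) + (v' - 1)‖ := by ring_nf
      _ ≤ ‖(v - 1) * (v' - 1)‖ + ‖v - 1‖ + ‖v' - 1‖ := norm_add₃_le
      _ ≤ dl * dl + dl + dl := by
          gcongr; rw [norm_mul]; gcongr
      _ ≤ 3 / 100 := by nlinarith
  have hFn : ‖-F‖ ≤ 2 * ε := by
    calc ‖-F‖ = ‖(-F - ε) + ε‖ := by ring_nf
      _ ≤ ‖-F - ε‖ + ‖(ε : ℂ)‖ := norm_add_le _ _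
      _ ≤ ε / 50 + ε := by gcongr; simp [habs]
      _ ≤ 2 * ε := by linarith
  calc ‖-F * v * v' - ε‖ = ‖-F * (v * v' - 1) + (-F - ε)‖ := by ring_nf
    _ ≤ ‖-F * (v * v' - 1)‖ + ‖-F - ε‖ := norm_add_le _ _
    _ ≤ 2 * ε * (3 / 100) + ε / 50 := by
        gcongr; rw [norm_mul]; gcongr
    _ ≤ ε / 4 := by linarith

/-- the numbers -/
theorem numbers {N P B₂ B₃ C E s : ℝ} (hN : 1 ≤ N) (hP : 1 ≤ P) (hE : 0 ≤ E) (hs : 0 < s)
    (hs1 : s ≤ 1) (hB₂ : 0 ≤ B₂) (hB₃ : 0 ≤ B₃) (hC : C = 400 + 18432 * (B₂ + B₃))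
    (h : C * N ^ 6 * E ≤ s) :
    24 * N ^ 2 * E / (P / N) ≤ (P / N) / 16 ∧
    24 * N ^ 2 * (E / s) / (P / N) + 9216 * B₃ * N ^ 4 * E / (P / N) ^ 2 ≤ 1 ∧
    32 * N * B₂ * (24 * N ^ 2 * E / (P / N)) ^ 2 ≤ N * (C * N ^ 6 * E ^ 2) := by
  have hN0 : 0 < N := by linarith
  have hP0 : 0 < P := by linarith
  have hX : 0 ≤ N ^ 6 * E := by positivity
  have h0 : 400 * (N ^ 6 * E) + 18432 * B₂ * (N ^ 6 * E) + 18432 * B₃ * (N ^ 6 * E) ≤ s := by
    rw [hC] at h; linarith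
  have hB2X : 0 ≤ B₂ * (N ^ 6 * E) := by positivity
  have hB3X : 0 ≤ B₃ * (N ^ 6 * E) := by positivity
  have hN4 : N ^ 4 * E ≤ N ^ 6 * E := by
    apply mul_le_mul_of_nonneg_right _ hE
    exact pow_le_pow_right₀ hN (by norm_num)
  have hN3 : N ^ 3 * E ≤ N ^ 6 * E := by
    apply mul_le_mul_of_nonneg_right _ hE
    exact pow_le_pow_right₀ hN (by norm_num)
  have hP2 : 1 ≤ P ^ 2 := one_le_pow₀ hP
  refine ⟨?_, ?_, ?_⟩
  · rw [div_le_div_iff₀ (by positivity) (by norm_num)]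
    have e1 : P / N * (P / N) = P ^ 2 / N ^ 2 := by field_simp
    rw [e1, le_div_iff₀ (by positivity)]
    calc 24 * N ^ 2 * E * 16 * N ^ 2 = 384 * (N ^ 4 * E) := by ring
      _ ≤ 384 * (N ^ 6 * E) := by gcongr
      _ ≤ 1 := by linarith
      _ ≤ P ^ 2 := hP2
  · have e1 : 24 * N ^ 2 * (E / s) / (P / N) = 24 * (N ^ 3 * E) / (s * P) := by
      field_simp
    have e2 : 9216 * B₃ * N ^ 4 * E / (P / N) ^ 2 = 9216 * B₃ * (N ^ 6 * E) / P ^ 2 := by
      field_simp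
    rw [e1, e2]
    have h1 : 24 * (N ^ 3 * E) / (s * P) ≤ 1 / 2 := by
      rw [div_le_iff₀ (by positivity)]
      calc 24 * (N ^ 3 * E) ≤ 24 * (N ^ 6 * E) := by gcongr
        _ ≤ 1 / 2 * s := by linarith
        _ ≤ 1 / 2 * (s * P) := by
            gcongr; nlinarith
    have h2 : 9216 * B₃ * (N ^ 6 * E) / P ^ 2 ≤ 1 / 2 := by
      rw [div_le_iff₀ (by positivity)]
      calc 9216 * B₃ * (N ^ 6 * E) ≤ 1 / 2 := by nlinarith
        _ ≤ 1 / 2 * P ^ 2 := by linarith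
    linarith
  · have e1 : 32 * N * B₂ * (24 * N ^ 2 * E / (P / N)) ^ 2 =
        N * (18432 * B₂ * (N ^ 6 * E ^ 2)) / P ^ 2 := by
      field_simp; ring
    rw [e1, div_le_iff₀ (by positivity), hC]
    have h3 : 0 ≤ N ^ 6 * E ^ 2 := by positivity
    calc N * (18432 * B₂ * (N ^ 6 * E ^ 2)) ≤
        N * ((400 + 18432 * (B₂ + B₃)) * (N ^ 6 * E ^ 2)) := by
          gcongr; nlinarith
      _ ≤ N * ((400 + 18432 * (B₂ + B₃)) * (N ^ 6 * E ^ 2)) * P ^ 2 := by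
          apply le_mul_of_one_le_right _ hP2
          positivity
      _ = _ := by ring

end

end Vale.Agent.P097.TA
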