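import Vale.Agent.P097.H799.Res2

/-!
# The resonance condition (RES) of Theorem A, part 3
-/

set_option linter.all false

open scoped ComplexConjugate Topology
open Filter Metric Finset

namespace Vale.Agent.P097.TA

section

variable {b θ : ℂ → ℂ → ℂ} {ρ M η CH r r' e dl E : ℝ}

/-- the action of the resonant approximate chain is almost constant, `p > 0`. -/
theorem res_action (hG : Gen ρ M b) (hL : LeafMap b η CH) (hCH : 1 ≤ CH)
    (h : Apx b θ r e dl E) (hr : r ≤ ρ / 4) (hr0 : 0 < r') (hr' : r' < r) (hdl : dl ≤ ρ / 100)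
    (heη : e ≤ η) (he : e ≤ ρ / (4000 * M * CH)) (n p : ℕ) (hn : 0 < n) (hp : 0 < p)
    (hnp : (p : ℝ) / n < e) (hC : CR ρ M * (n : ℝ) ^ 6 * E ≤ r - r') :
    ∃ A : ℂ, ∀ x : ℂ, |x.im| < r' →
      ‖∑ i ∈ range n, Fg b (θ (x + i * ((p / n : ℝ) : ℂ)) ((p / n : ℝ) : ℂ))
        (θ (x + (i + 1 : ℕ) * ((p / n : ℝ) : ℂ)) ((p / n : ℝ) : ℂ)) - A‖ ≤
        n * (CR ρ M * (n : ℝ) ^ 6 * E ^ 2) / 2 := by
  have hρ := hG.hρ
  have hρ1 := hG.hρ1
  have hM := hG.hM
  have hM0 : 0 < M := by linarith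
  have hCH0 : 0 < CH := by linarith
  have hN : (1 : ℝ) ≤ n := by exact_mod_cast hn
  have hP : (1 : ℝ) ≤ p := by exact_mod_cast hp
  set ε : ℝ := (p : ℝ) / n with hεdef
  have hε0 : 0 < ε := by positivity
  have habs : |ε| = ε := abs_of_pos hε0
  have hεe : |ε| < e := by rw [habs]; exact hnp
  have hε4 : ε ≤ ρ / (4000 * M) := by
    refine hnp.le.trans (he.trans ?_)
    apply div_le_div_of_nonneg_left hρ.le (by positivity)
    nlinarith
  have hε5 : ε ≤ ρ / 4000 := hε4.trans (by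
    apply div_le_div_of_nonneg_left hρ.le (by norm_num); linarith)
  have hε100 : |ε| ≤ ρ / 100 := by rw [habs]; linarith
  have hx0 : |(0 : ℂ).im| < r := by simpa using hr0.trans hr'
  have hE : 0 ≤ E := (norm_nonneg _).trans (h.er 0 ε (mem_WW_real hεe hx0))
  obtain ⟨num1, num2, num3⟩ := numbers (C := CR ρ M) hN hP hE (by linarith : 0 < r - r')
    (by linarith) hG.B2_nonneg hG.B3_nonneg rfl hC
  rw [← hεdef] at num1 num2 num3
  set ρU : ℝ := 24 * (n : ℝ) ^ 2 * E / ε with hρU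
  have hρU0 : 0 ≤ ρU := by positivity
  -- the approximate family at `ε`
  have hA : H799.Approx (fun q => F1 b q.1 q.2) (fun q => F2 b q.1 q.2)
      (fun q => dx (F1 b) q.1 q.2) (fun q => F12 b q.1 q.2) (fun q => de (F2 b) q.1 q.2)
      (GD (5 * ρ / 8)) (fun x => θ x ε) (fun x => dx θ x ε) ε r' ε ρU E (E / (r - r')) := by
    refine ⟨hε0, ?_, ?_, ?_, ?_, ?_, ?_, ?_⟩
    · intro x hx
      exact h.der hεe (hx.trans hr')
    · exact (h.hol.dx (isOpen_WW 0 r e)).differentiableOn_x fun x hx =>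
        mem_WW_real hεe (lt_trans hx hr')
    · intro x hx
      have := h.dx1 x ε (mem_WW_real hεe (hx.trans hr'))
      calc ‖dx θ x ε‖ = ‖(dx θ x ε - 1) + 1‖ := by ring_nf
        _ ≤ ‖dx θ x ε - 1‖ + ‖(1 : ℂ)‖ := norm_add_le _ _
        _ ≤ 2 := by rw [norm_one]; linarith
    · intro x hx
      have := h.er x ε (mem_WW_real hεe (hx.trans hr'))
      rw [add_comm]
      exact this
    · intro x hx
      exact h.der_EL_le hG hr hr' hdl hεe hε100 hx
    · intro x hx
      exact h.weight hG hr hdl hεe hε0 hε4 (hx.trans hr')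
    · intro x hx q hq
      exact h.pair hρ hρ1 hr hdl hεe hε100 (hx.trans hr') (hq.trans (by linarith))
  -- reality
  have hθc : ∀ x ∈ WW 0 r e, θ (conj x.1) (conj x.2) = conj (θ x.1 x.2) := fun x hx => h.re _ _ hx
  have hxr : ∀ x : ℝ, ((x : ℂ), (ε : ℂ)) ∈ WW 0 r e := fun x => mem_WW_real hεe (by
    simpa using hr0.trans hr')
  have hθr : ∀ x : ℝ, (θ x ε).im = 0 := by
    intro x
    have := h.re x ε (hxr x)
    rw [Complex.conj_ofReal, Complex.conj_ofReal] at this
    exact Complex.conj_eq_iff_im.1 this.symm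
  have hvr : ∀ x : ℝ, (dx θ x ε).im = 0 := by
    intro x
    have := dx_conj_symm (isOpen_WW 0 r e) (fun x y hxy => h.re x y hxy) (hxr x)
    rw [Complex.conj_ofReal, Complex.conj_ofReal] at this
    exact Complex.conj_eq_iff_im.1 this.symm
  have h58 : GD (5 * ρ / 8) ⊆ GD ρ := GD_mono (by linarith)
  have hR : H799.RealData (fun q => F1 b q.1 q.2) (fun q => F2 b q.1 q.2)
      (fun q => F12 b q.1 q.2) (GD (5 * ρ / 8)) (fun x => θ x ε) (fun x => dx θ x ε) :=
    ⟨hθr, hvr, fun q hq h1 h2 => im_zero_of_conj hG.F1_conj (h58 hq) h1 h2,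
      fun q hq h1 h2 => im_zero_of_conj hG.F2_conj (h58 hq) h1 h2,
      fun q hq h1 h2 => im_zero_of_conj hG.F12_conj (h58 hq) h1 h2⟩
  -- the leaf
  obtain ⟨f, g, hf, hfg, hgf, hper, hgap, hel⟩ := hL n p hn hp (hnp.trans_le heη)
  set δ₀ : ℝ := ρ / (1000 * M) with hδ₀
  have hgapδ : CH * ε < δ₀ := by
    have h1 : CH * ε < CH * e := by gcongr
    have h2 : CH * e ≤ ρ / (4000 * M) := by
      calc CH * e ≤ CH * (ρ / (4000 * M * CH)) := by gcongr
        _ = ρ / (4000 * M) := by field_simp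
    have h3 : ρ / (4000 * M) ≤ δ₀ := by
      apply div_le_div_of_nonneg_left hρ.le (by positivity); linarith
    linarith
  have hLf : H799.Leaf (fun q => F1 b q.1 q.2) (fun q => F2 b q.1 q.2) (DR δ₀) f g n p := by
    refine ⟨hf, hfg, hgf, fun y => ⟨(hgap y).1, (hgap y).2.trans_lt hgapδ⟩, fun y => ?_, hper⟩
    have := hel y
    unfold EL at this
    rw [add_comm]
    exact this
  have htw := hG.twist (δ₀ := δ₀) le_rfl
  have hδ4 : 4 * ε ≤ δ₀ := by
    calc 4 * ε ≤ 4 * (ρ / (4000 * M)) := by gcongr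
      _ = δ₀ := by rw [hδ₀]; field_simp; norm_num
  have hδρ : δ₀ ≤ ρ := by
    rw [hδ₀]; apply div_le_self hρ.le; linarith
  have hmain := H799.resonant_action (F := fun q => Fg b q.1 q.2) hG.gf hG.B3_nonneg hA hr0 hn
    (by rw [hρU]) num2 hR htw hLf ?_ ?_ ?_
  · obtain ⟨A, hA⟩ := hmain
    refine ⟨A, fun x hx => ?_⟩
    refine (hA x hx).trans ?_
    linarith
  · -- pairs are in the real domain
    intro x a c ha hc
    have hinc := h.incr hεe (x := x) (by simpa using hr0.trans hr') ε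
    rw [habs] at hinc
    have h1 : |(θ (x + ε) ε - θ x ε - ε).re| ≤ dl * ε := (Complex.abs_re_le_norm _).trans hinc
    have h2 : (θ (x + ε) ε - θ x ε - ε).re = (θ (x + ε) ε).re - (θ x ε).re - ε := by simp
    rw [h2] at h1
    have h3 : dl * ε ≤ ε / 100 := by nlinarith
    rw [abs_le] at h1 ha hc
    refine ⟨?_, ?_⟩
    · show 0 < c - a
      linarith [h1.1, ha.2, hc.1]
    · show c - a < δ₀
      linarith [h1.2, ha.1, hc.2]
  · -- periodicity
    intro a c hac
    have := (hG.F1_per_nat (GD_mono hδρ (DR_GD hac)) p).2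
    simp only
    rw [← this]
    push_cast
    rfl
  · intro x hx
    have e1 : (x : ℂ) + (n : ℂ) * (ε : ℂ) = x + (p : ℕ) := by
      rw [hεdef]; push_cast
      have : (n : ℂ) ≠ 0 := by exact_mod_cast hn.ne'
      field_simp
    show θ (x + n * ε) ε = θ x ε + ((p : ℝ) : ℂ)
    rw [e1, h.per_nat hεe (lt_trans hx hr') p]
    simp

/-- continuity of the action density along real shifts -/
theorem ff_cont (hG : Gen ρ M b) (h : Apx b θ r e dl E) (hr : r ≤ ρ / 4) (hr0 : 0 < r)
    (hdl : dl ≤ ρ / 100) {ε : ℝ} (hε : |ε| < e) (hε' : |ε| ≤ ρ / 100) (s : ℂ) (hs : |s.im| < r) :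
    Continuous fun t : ℝ => ff b θ (t + s) ε := by
  rw [continuous_iff_continuousAt]
  intro t
  have hρ := hG.hρ
  have h1 : |((t : ℂ) + s + ε / 2).im| < r := by
    have : ((t : ℂ) + s + ε / 2).im = s.im := by
      rw [Complex.add_im, Complex.add_im, Complex.div_ofNat_im]; simp
    rw [this]; exact hs
  have h2 : |((t : ℂ) + s - ε / 2).im| < r := by
    have : ((t : ℂ) + s - ε / 2).im = s.im := by
      rw [Complex.sub_im, Complex.add_im, Complex.div_ofNat_im]; simp
    rw [this]; exact hs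
  have q : (θ ((t : ℂ) + s - ε / 2) ε, θ ((t : ℂ) + s + ε / 2) ε) ∈ GD ρ := by
    have := h.pair0 hρ hG.hρ1 hr hdl hε hε' h2
    have e1 : (t : ℂ) + s - ε / 2 + ε = t + s + ε / 2 := by ring
    rw [e1] at this
    exact GD_mono (by linarith) this
  have c1 : ContinuousAt (fun t : ℝ => θ ((t : ℂ) + s + ε / 2) ε) t := by
    have := (h.der hε h1).continuousAt
    exact ContinuousAt.comp (f := fun t : ℝ => (t : ℂ) + s + ε / 2) (g := fun x => θ x ε) this
      (by fun_prop)
  have c2 : ContinuousAt (fun t : ℝ => θ ((t : ℂ) + s - ε / 2) ε) t := by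
    have := (h.der hε h2).continuousAt
    exact ContinuousAt.comp (f := fun t : ℝ => (t : ℂ) + s - ε / 2) (g := fun x => θ x ε) this
      (by fun_prop)
  have c3 := (hG.JD_Fg.at (isOpen_GD ρ) q).continuousAt
  exact ContinuousAt.comp (f := fun t : ℝ => (θ ((t : ℂ) + s - ε / 2) ε, θ ((t : ℂ) + s + ε / 2) ε))
    (g := fun q : ℂ × ℂ => Fg b q.1 q.2) c3 (c2.prodMk c1)

/-- periodicity of the action density -/
theorem ff_per (hG : Gen ρ M b) (h : Apx b θ r e dl E) (hr : r ≤ ρ / 4)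
    (hdl : dl ≤ ρ / 100) {ε : ℝ} (hε : |ε| < e) (hε' : |ε| ≤ ρ / 100) {x : ℂ} (hx : |x.im| < r) :
    ff b θ (x + 1) ε = ff b θ x ε := by
  have hρ := hG.hρ
  have h1 : |(x + ε / 2).im| < r := by
    have : (x + ε / 2).im = x.im := by
      rw [Complex.add_im, Complex.div_ofNat_im]; simp
    rw [this]; exact hx
  have h2 : |(x - ε / 2).im| < r := by
    have : (x - ε / 2).im = x.im := by
      rw [Complex.sub_im, Complex.div_ofNat_im]; simp
    rw [this]; exact hx
  have q : (θ (x - ε / 2) ε, θ (x + ε / 2) ε) ∈ GD ρ := by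
    have := h.pair0 hρ hG.hρ1 hr hdl hε hε' h2
    have e1 : x - ε / 2 + ε = x + ε / 2 := by ring
    rw [e1] at this
    exact GD_mono (by linarith) this
  unfold ff
  have e1 : x + 1 - ε / 2 = x - ε / 2 + 1 := by ring
  have e2 : x + 1 + ε / 2 = x + ε / 2 + 1 := by ring
  rw [e1, e2, h.per _ _ (mem_WW_real hε h1), h.per _ _ (mem_WW_real hε h2)]
  exact hG.Fg_per q

/-- oddness of the action density in the rotation number -/
theorem ff_odd (hG : Gen ρ M b) (h : Apx b θ r e dl E) (hr : r ≤ ρ / 4)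
    (hdl : dl ≤ ρ / 100) {ε : ℝ} (hε : |ε| < e) (hε' : |ε| ≤ ρ / 100) {x : ℂ} (hx : |x.im| < r) :
    ff b θ x (-ε) = -ff b θ x ε := by
  have hρ := hG.hρ
  have h1 : |(x + ε / 2).im| < r := by
    have : (x + ε / 2).im = x.im := by
      rw [Complex.add_im, Complex.div_ofNat_im]; simp
    rw [this]; exact hx
  have h2 : |(x - ε / 2).im| < r := by
    have : (x - ε / 2).im = x.im := by
      rw [Complex.sub_im, Complex.div_ofNat_im]; simp
    rw [this]; exact hx
  have q : (θ (x - ε / 2) ε, θ (x + ε / 2) ε) ∈ GD ρ := by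
    have := h.pair0 hρ hG.hρ1 hr hdl hε hε' h2
    have e1 : x - ε / 2 + ε = x + ε / 2 := by ring
    rw [e1] at this
    exact GD_mono (by linarith) this
  unfold ff
  have e1 : x - -(ε : ℂ) / 2 = x + ε / 2 := by ring
  have e2 : x + -(ε : ℂ) / 2 = x - ε / 2 := by ring
  rw [e1, e2, h.ev _ _ (mem_WW_real hε h1), h.ev _ _ (mem_WW_real hε h2)]
  exact hG.Fg_anti' q

/-- **(RES)**, positive resonances -/
theorem res_pos (hG : Gen ρ M b) (hL : LeafMap b η CH) (hCH : 1 ≤ CH)
    (h : Apx b θ r e dl E) (hr : r ≤ ρ / 4) (hr0 : 0 < r') (hr' : r' < r) (hdl : dl ≤ ρ / 100)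
    (heη : e ≤ η) (he : e ≤ ρ / (4000 * M * CH)) (n p : ℕ) (hn : 0 < n) (hp : 0 < p)
    (hnp : (p : ℝ) / n < e) (hC : CR ρ M * (n : ℝ) ^ 6 * E ≤ r - r') (x : ℂ) (hx : |x.im| < r') :
    ‖(∑ i ∈ range n, ff b θ (x + i * ((p / n : ℝ) : ℂ)) ((p / n : ℝ) : ℂ)) / n -
      mn (ff b θ) ((p / n : ℝ) : ℂ)‖ ≤ CR ρ M * (n : ℝ) ^ 6 * E ^ 2 := by
  obtain ⟨A, hA⟩ := res_action hG hL hCH h hr hr0 hr' hdl heη he n p hn hp hnp hC
  have hρ := hG.hρ
  have hM := hG.hM
  have hM0 : 0 < M := by linarith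
  have hN : (1 : ℝ) ≤ n := by exact_mod_cast hn
  have hP : (1 : ℝ) ≤ p := by exact_mod_cast hp
  set ε : ℝ := (p : ℝ) / n with hεdef
  have hε0 : 0 < ε := by positivity
  have habs : |ε| = ε := abs_of_pos hε0
  have hεe : |ε| < e := by rw [habs]; exact hnp
  have hε4 : ε ≤ ρ / (4000 * M) := by
    refine hnp.le.trans (he.trans ?_)
    apply div_le_div_of_nonneg_left hρ.le (by positivity)
    nlinarith
  have hε5 : ε ≤ ρ / 4000 := hε4.trans (by
    apply div_le_div_of_nonneg_left hρ.le (by norm_num); linarith)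
  have hε100 : |ε| ≤ ρ / 100 := by rw [habs]; linarith
  set μ : ℝ := n * (CR ρ M * (n : ℝ) ^ 6 * E ^ 2) / 2 with hμ
  have hn0 : (n : ℂ) ≠ 0 := by exact_mod_cast hn.ne'
  -- the centred version
  have hA' : ∀ y : ℂ, |y.im| < r' → ‖∑ i ∈ range n, ff b θ (y + i * (ε : ℂ)) ε - A‖ ≤ μ := by
    intro y hy
    have hy' : |(y - ε / 2).im| < r' := by
      have : (y - ε / 2).im = y.im := by
        rw [Complex.sub_im, Complex.div_ofNat_im]; simp
      rw [this]; exact hy
    have := hA (y - ε / 2) hy'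
    convert this using 4 with i hi
    unfold ff
    congr 2
    · ring
    · push_cast; ring
  have h1 := hA' x hx
  -- the mean
  have hmean : ∀ i : ℕ, ∫ t in (0 : ℝ)..1, ff b θ (t + i * (ε : ℂ)) ε = mn (ff b θ) ε := by
    intro i
    have hperf : Function.Periodic (fun t : ℝ => ff b θ t ε) 1 := by
      intro t
      show ff b θ ((t + 1 : ℝ) : ℂ) ε = ff b θ t ε
      push_cast
      exact ff_per hG h hr hdl hεe hε100 (by simpa using hr0.trans hr')
    have e1 : (fun t : ℝ => ff b θ (t + i * (ε : ℂ)) ε) =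
        fun t : ℝ => (fun t : ℝ => ff b θ t ε) (t + i * ε) := by
      funext t; push_cast; rfl
    rw [e1, intervalIntegral.integral_comp_add_right (fun t : ℝ => ff b θ t ε)]
    have := hperf.intervalIntegral_add_eq (0 + i * ε) 0
    rw [zero_add] at this
    rw [zero_add, add_comm (1 : ℝ), this]
    rw [zero_add]
    rfl
  have hint : ∀ i : ℕ, IntervalIntegrable (fun t : ℝ => ff b θ (t + i * (ε : ℂ)) ε)
      MeasureTheory.volume 0 1 := fun i =>
    (ff_cont hG h hr (hr0.trans hr') hdl hεe hε100 _ (by simpa using hr0.trans hr')).intervalIntegrable _ _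
  have h2 : ‖n * mn (ff b θ) ε - A‖ ≤ μ := by
    have e1 : n * mn (ff b θ) ε - A =
        ∫ t in (0 : ℝ)..1, (∑ i ∈ range n, ff b θ (t + i * (ε : ℂ)) ε - A) := by
      rw [intervalIntegral.integral_sub]
      · rw [intervalIntegral.integral_finset_sum fun i _ => hint i]
        simp only [hmean]
        simp
      · exact (continuous_finset_sum _ fun i _ => ff_cont hG h hr (hr0.trans hr') hdl hεe hε100 _
          (by simpa using hr0.trans hr')).intervalIntegrable _ _
      · exact intervalIntegrable_const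
    rw [e1]
    have := intervalIntegral.norm_integral_le_of_norm_le_const (a := (0 : ℝ)) (b := 1) (C := μ)
      (f := fun t : ℝ => ∑ i ∈ range n, ff b θ (t + i * (ε : ℂ)) ε - A)
      fun t _ => hA' t (by simpa using hr0)
    simpa using this
  have e2 : (∑ i ∈ range n, ff b θ (x + i * (ε : ℂ)) ε) / n - mn (ff b θ) ε =
      ((∑ i ∈ range n, ff b θ (x + i * (ε : ℂ)) ε - A) - (n * mn (ff b θ) ε - A)) / n := by
    rw [sub_sub_sub_cancel_right, sub_div, mul_div_cancel_left₀ _ hn0]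
  rw [e2, norm_div, Complex.norm_natCast, div_le_iff₀ (by positivity)]
  calc _ ≤ μ + μ := (norm_sub_le _ _).trans (add_le_add h1 h2)
    _ = CR ρ M * (n : ℝ) ^ 6 * E ^ 2 * n := by rw [hμ]; ring

theorem Gen.CR_nonneg (hG : Gen ρ M b) : 0 ≤ CR ρ M := by
  have := hG.B2_nonneg; have := hG.B3_nonneg
  unfold CR; positivity

/-- **(RES)**: the resonance condition for the action density of an approximate family of leaves,
with a quadratic bound on the full strip (packages A4 + A7). -/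
theorem res (hG : Gen ρ M b) (hL : LeafMap b η CH) (hCH : 1 ≤ CH)
    (h : Apx b θ r e dl E) (hr : r ≤ ρ / 4) (hr0 : 0 < r') (hr' : r' < r) (hdl : dl ≤ ρ / 100)
    (heη : e ≤ η) (he : e ≤ ρ / (4000 * M * CH)) (K : ℕ)
    (hC : CR ρ M * (K : ℝ) ^ 6 * E ≤ r - r') :
    Res (ff b θ) r' e K (CR ρ M * (K : ℝ) ^ 6 * E ^ 2) := by
  intro n p hn hnK hp hnp x hx
  have hE : 0 ≤ E := by
    have := h.er 0 0 ⟨by simpa using (abs_nonneg _).trans_lt hnp, by simpa using hr0.trans hr'⟩
    exact (norm_nonneg _).trans this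
  have hCR := hG.CR_nonneg
  have hn0 : 0 < n := hn
  have hnK' : (n : ℝ) ≤ K := by exact_mod_cast hnK
  have hC' : CR ρ M * (n : ℝ) ^ 6 * E ≤ r - r' := le_trans (by gcongr) hC
  have hfin : CR ρ M * (n : ℝ) ^ 6 * E ^ 2 ≤ CR ρ M * (K : ℝ) ^ 6 * E ^ 2 := by gcongr
  obtain ⟨q, rfl | rfl⟩ := Int.eq_nat_or_neg p
  · have hq : 0 < q := by
      rcases Nat.eq_zero_or_pos q with h0 | h0
      · subst h0; simp at hp
      · exact h0
    have hnp' : (q : ℝ) / n < e := by
      have := hnp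
      rw [Int.cast_natCast, abs_of_nonneg (by positivity)] at this
      exact this
    have := res_pos hG hL hCH h hr hr0 hr' hdl heη he n q hn0 hq hnp' hC' x hx
    refine le_trans ?_ (this.trans hfin)
    push_cast
    rfl
  · have hq : 0 < q := by
      rcases Nat.eq_zero_or_pos q with h0 | h0
      · subst h0; simp at hp
      · exact h0
    have hnp' : (q : ℝ) / n < e := by
      have := hnp
      push_cast at this
      rw [neg_div, abs_neg, abs_of_nonneg (by positivity)] at this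
      exact this
    have hM := hG.hM
    have hρ := hG.hρ
    have hM0 : 0 < M := by linarith
    set ε : ℝ := (q : ℝ) / n with hεdef
    have hε0 : 0 < ε := by positivity
    have habs : |ε| = ε := abs_of_pos hε0
    have hεe : |ε| < e := by rw [habs]; exact hnp'
    have hε4 : ε ≤ ρ / (4000 * M) := by
      refine hnp'.le.trans (he.trans ?_)
      apply div_le_div_of_nonneg_left hρ.le (by positivity)
      nlinarith
    have hε5 : ε ≤ ρ / 4000 := hε4.trans (by
      apply div_le_div_of_nonneg_left hρ.le (by norm_num); linarith)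
    have hε100 : |ε| ≤ ρ / 100 := by rw [habs]; linarith
    have e0 : (((-(q : ℤ) : ℤ) : ℂ)) / n = -(ε : ℂ) := by
      rw [hεdef]; push_cast; ring
    rw [e0]
    -- reflect the sum
    have hx' : |(x - (n - 1 : ℕ) * (ε : ℂ)).im| < r' := by simpa using hx
    have key := res_pos hG hL hCH h hr hr0 hr' hdl heη he n q hn0 hq hnp' hC'
      (x - (n - 1 : ℕ) * (ε : ℂ)) hx'
    have e1 : ∑ i ∈ range n, ff b θ (x + i * -(ε : ℂ)) (-(ε : ℂ)) =
        -∑ i ∈ range n, ff b θ (x - (n - 1 : ℕ) * (ε : ℂ) + i * (ε : ℂ)) ε := by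
      rw [← sum_range_reflect, ← sum_neg_distrib]
      refine sum_congr rfl fun i hi => ?_
      have hi' : i < n := mem_range.1 hi
      have e2 : x + ((n - 1 - i : ℕ) : ℂ) * -(ε : ℂ) = x - (n - 1 : ℕ) * (ε : ℂ) + i * (ε : ℂ) := by
        have : ((n - 1 - i : ℕ) : ℂ) = ((n - 1 : ℕ) : ℂ) - i := by
          rw [Nat.cast_sub (by omega)]
        rw [this]; ring
      rw [e2]
      exact ff_odd hG h hr hdl hεe hε100 (by simpa using hx.trans hr')
    have e3 : mn (ff b θ) (-(ε : ℂ)) = -mn (ff b θ) ε := by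
      unfold mn
      rw [← intervalIntegral.integral_neg]
      congr 1
      funext t
      exact ff_odd hG h hr hdl hεe hε100 (by simpa using hr0.trans hr')
    rw [e1, e3]
    refine le_trans (le_of_eq ?_) (key.trans hfin)
    rw [← norm_neg]
    congr 1
    ring

end

end Vale.Agent.P097.TA
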