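import Vale.Agent.P097.H799.GenB
import Vale.Agent.P097.H799.Dir
import Vale.Agent.P097.H536.Defs

/-!
# TRIG-T4, part 1: the reduced Euler-Lagrange function `k(y, δ)` on the cone

`∂₁F(y, y + δ) = -(δ²/2) (1 + δ² k(y, δ))`, `∂₂F(y - δ, y) = (δ²/2) (1 + δ² k(y, -δ))`.
-/

set_option linter.all false

open scoped ComplexConjugate Topology
open Filter Metric Complex

namespace Vale.Agent.P097.TT4

open Vale.Agent.P097.TA Vale.Agent.P097.H536

theorem mem_Cone {Y c : ℝ} {x y : ℂ} : (x, y) ∈ Cone Y c ↔ ‖y‖ < c * (Y - |x.im|) := Iff.rfl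

theorem isOpen_Cone (Y c : ℝ) : IsOpen (Cone Y c) := by
  have h1 : Continuous fun p : ℂ × ℂ => ‖p.2‖ := continuous_snd.norm
  have h2 : Continuous fun p : ℂ × ℂ => c * (Y - |p.1.im|) :=
    (continuous_const.sub (Complex.continuous_im.comp continuous_fst).abs).const_mul c |>.congr
      (fun _ => rfl)
  exact isOpen_lt h1 h2

theorem Cone_pos {Y c : ℝ} (hc : 0 < c) {x y : ℂ} (h : (x, y) ∈ Cone Y c) : 0 < Y - |x.im| := by
  have h1 : 0 < c * (Y - |x.im|) := (norm_nonneg y).trans_lt h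
  exact (pos_iff_pos_of_mul_pos h1).1 hc

theorem Cone_mono {Y c c' : ℝ} (hc : 0 < c) (h : c ≤ c') : Cone Y c ⊆ Cone Y c' := by
  rintro ⟨x, y⟩ hxy
  have h0 := Cone_pos hc hxy
  rw [mem_Cone] at *
  exact hxy.trans_le (by gcongr)

theorem abs_im_le_add (x y : ℂ) : |x.im| ≤ |y.im| + ‖x - y‖ := by
  have h1 : |x.im - y.im| ≤ ‖x - y‖ := by
    rw [← Complex.sub_im]; exact Complex.abs_im_le_norm _
  have h2 : |x.im| ≤ |x.im - y.im| + |y.im| := by
    calc |x.im| = |(x.im - y.im) + y.im| := by ring_nf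
      _ ≤ _ := abs_add_le _ _
  linarith

/-- the reduced Euler-Lagrange function -/
noncomputable def kk (b : ℂ → ℂ → ℂ) (y d : ℂ) : ℂ :=
  10 * b (y + d / 2) d - d * dx b (y + d / 2) d + 2 * d * de b (y + d / 2) d

section

variable {Y c K c₁ : ℝ} {b : ℂ → ℂ → ℂ}

theorem ball_sub (hc : 0 < c) (h1 : 0 < c₁) (h2 : c₁ ≤ c / 8) (h3 : c₁ ≤ 1 / 8) {y d : ℂ}
    (h : (y, d) ∈ Cone Y c₁) {q : ℂ × ℂ} (hq : q ∈ ball (y + d / 2, d) (c₁ * (Y - |y.im|))) :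
    q ∈ Cone Y c ∧ 3 / 4 * (Y - |y.im|) ≤ Y - |q.1.im| := by
  have hD := Cone_pos h1 h
  set D := Y - |y.im| with hDd
  rw [mem_Cone] at h
  rw [mem_ball, dist_eq_norm] at hq
  have i1 : ‖q.1 - (y + d / 2)‖ < c₁ * D := (norm_fst_le (q - (y + d / 2, d))).trans_lt hq
  have i2 : ‖q.2 - d‖ < c₁ * D := (norm_snd_le (q - (y + d / 2, d))).trans_lt hq
  have i3 : ‖q.1 - y‖ ≤ 3 / 2 * (c₁ * D) := by
    calc ‖q.1 - y‖ = ‖(q.1 - (y + d / 2)) + d / 2‖ := by ring_nf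
      _ ≤ ‖q.1 - (y + d / 2)‖ + ‖d / 2‖ := norm_add_le _ _
      _ ≤ c₁ * D + (c₁ * D) / 2 := by
          gcongr
          rw [norm_div]; simp only [Complex.norm_ofNat]; linarith
      _ = _ := by ring
  have i4 : 3 / 4 * D ≤ Y - |q.1.im| := by
    have := abs_im_le_add q.1 y
    nlinarith
  refine ⟨?_, i4⟩
  show ‖q.2‖ < c * (Y - |q.1.im|)
  calc ‖q.2‖ = ‖(q.2 - d) + d‖ := by ring_nf
    _ ≤ ‖q.2 - d‖ + ‖d‖ := norm_add_le _ _
    _ < c₁ * D + c₁ * D := by linarith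
    _ ≤ c * (3 / 4 * D) := by nlinarith
    _ ≤ _ := by gcongr

theorem mid_mem (hc : 0 < c) (h1 : 0 < c₁) (h2 : c₁ ≤ c / 8) (h3 : c₁ ≤ 1 / 8) {y d : ℂ}
    (h : (y, d) ∈ Cone Y c₁) : (y + d / 2, d) ∈ Cone Y c :=
  (ball_sub hc h1 h2 h3 h (mem_ball_self (mul_pos h1 (Cone_pos h1 h)))).1

theorem bd_ball (hb : GenC Y c K b) (h1 : 0 < c₁) (h2 : c₁ ≤ c / 8) (h3 : c₁ ≤ 1 / 8) {y d : ℂ}
    (h : (y, d) ∈ Cone Y c₁) {q : ℂ × ℂ} (hq : q ∈ ball (y + d / 2, d) (c₁ * (Y - |y.im|))) :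
    ‖b q.1 q.2‖ ≤ 2 * K / (Y - |y.im|) ^ 2 := by
  obtain ⟨i1, i2⟩ := ball_sub hb.hc h1 h2 h3 h hq
  have hD := Cone_pos h1 h
  have hK := hb.hK
  have i3 := hb.bd q.1 q.2 i1
  rw [le_div_iff₀ (by positivity)]
  have i4 : (3 / 4 * (Y - |y.im|)) ^ 2 ≤ (Y - |q.1.im|) ^ 2 := by gcongr
  have i5 : ‖b q.1 q.2‖ * (3 / 4 * (Y - |y.im|)) ^ 2 ≤ K :=
    (mul_le_mul_of_nonneg_left i4 (norm_nonneg _)).trans i3
  nlinarith [mul_nonneg (norm_nonneg (b q.1 q.2)) (sq_nonneg (Y - |y.im|))]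

theorem JD_kk (hb : GenC Y c K b) (h1 : 0 < c₁) (h2 : c₁ ≤ c / 8) (h3 : c₁ ≤ 1 / 8) :
    JD (kk b) (Cone Y c₁) := by
  have hm : JD (fun y d => y + d / 2) (Cone Y c₁) :=
    JD.fst.add (JD.snd.div (JD.const 2) fun _ _ _ => two_ne_zero)
  have hmem : ∀ y d : ℂ, (y, d) ∈ Cone Y c₁ → (y + d / 2, d) ∈ Cone Y c := fun y d h =>
    mid_mem hb.hc h1 h2 h3 h
  have e1 : JD (fun y d => b (y + d / 2) d) (Cone Y c₁) := JD.comp hb.hol hm JD.snd hmem
  have e2 : JD (fun y d => dx b (y + d / 2) d) (Cone Y c₁) :=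
    JD.comp (hb.hol.dx (isOpen_Cone Y c)) hm JD.snd hmem
  have e3 : JD (fun y d => de b (y + d / 2) d) (Cone Y c₁) :=
    JD.comp (hb.hol.de (isOpen_Cone Y c)) hm JD.snd hmem
  exact ((e1.const_mul 10).sub (JD.snd.mul e2)).add (((JD.snd.const_mul 2)).mul e3)

theorem kk_bd (hb : GenC Y c K b) (h1 : 0 < c₁) (h2 : c₁ ≤ c / 8) (h3 : c₁ ≤ 1 / 8) {y d : ℂ}
    (h : (y, d) ∈ Cone Y c₁) : ‖kk b y d‖ * (Y - |y.im|) ^ 2 ≤ 26 * K := by
  have hD := Cone_pos h1 h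
  have hK := hb.hK
  have hs : 0 < c₁ * (Y - |y.im|) := mul_pos h1 hD
  set D := Y - |y.im| with hDd
  set B := ball (y + d / 2, d) (c₁ * D) with hB
  have hJ : JD b B := hb.hol.mono fun q hq => (ball_sub hb.hc h1 h2 h3 h hq).1
  have hBd : Bd b (2 * K / D ^ 2) B := fun u v huv => bd_ball hb h1 h2 h3 h huv
  have j0 : ‖b (y + d / 2) d‖ ≤ 2 * K / D ^ 2 := hBd _ _ (mem_ball_self hs)
  have j1 : ‖dx b (y + d / 2) d‖ ≤ 2 * K / D ^ 2 / (c₁ * D) :=
    hJ.dx_ball hs isOpen_ball hBd subset_rfl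
  have j2 : ‖de b (y + d / 2) d‖ ≤ 2 * K / D ^ 2 / (c₁ * D) :=
    hJ.de_ball hs isOpen_ball hBd subset_rfl
  have hd : ‖d‖ ≤ c₁ * D := (mem_Cone.1 h).le
  have j3 : ‖d‖ * (2 * K / D ^ 2 / (c₁ * D)) ≤ 2 * K / D ^ 2 := by
    calc ‖d‖ * (2 * K / D ^ 2 / (c₁ * D)) ≤ (c₁ * D) * (2 * K / D ^ 2 / (c₁ * D)) := by gcongr
      _ = 2 * K / D ^ 2 := by field_simp
  have j4 : ‖kk b y d‖ ≤ 26 * K / D ^ 2 := by
    unfold kk
    calc ‖10 * b (y + d / 2) d - d * dx b (y + d / 2) d + 2 * d * de b (y + d / 2) d‖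
        ≤ ‖10 * b (y + d / 2) d‖ + ‖d * dx b (y + d / 2) d‖ + ‖2 * d * de b (y + d / 2) d‖ :=
          (norm_add_le _ _).trans (by gcongr; exact norm_sub_le _ _)
      _ = 10 * ‖b (y + d / 2) d‖ + ‖d‖ * ‖dx b (y + d / 2) d‖ + 2 * (‖d‖ * ‖de b (y + d / 2) d‖) := by
          simp only [norm_mul, Complex.norm_ofNat]; ring
      _ ≤ 10 * (2 * K / D ^ 2) + 2 * K / D ^ 2 + 2 * (2 * K / D ^ 2) := by
          gcongr
          · exact (mul_le_mul_of_nonneg_left j1 (norm_nonneg _)).trans j3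
          · exact (mul_le_mul_of_nonneg_left j2 (norm_nonneg _)).trans j3
      _ = _ := by ring
  calc ‖kk b y d‖ * D ^ 2 ≤ 26 * K / D ^ 2 * D ^ 2 := by gcongr
    _ = 26 * K := by field_simp

/-! ### evenness -/

theorem dx_neg (hb : GenC Y c K b) {m d : ℂ} (h : (m, d) ∈ Cone Y c) : dx b m (-d) = dx b m d := by
  have h1 : (fun t => b t (-d)) =ᶠ[𝓝 m] fun t => b t d := by
    have hc : ContinuousAt (fun t : ℂ => (t, d)) m := by fun_prop
    filter_upwards [hc.eventually ((isOpen_Cone Y c).mem_nhds h)] with t ht using hb.even t d ht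
  exact h1.deriv_eq

theorem de_neg (hb : GenC Y c K b) {m d : ℂ} (h : (m, d) ∈ Cone Y c) :
    de b m (-d) = -de b m d := by
  have h1 : (fun t => b m t) =ᶠ[𝓝 d] fun t => b m (-t) := by
    have hc : ContinuousAt (fun t : ℂ => (m, t)) d := by fun_prop
    filter_upwards [hc.eventually ((isOpen_Cone Y c).mem_nhds h)] with t ht using
      (hb.even m t ht).symm
  have h2 : de b m d = deriv (fun t => b m (-t)) d := h1.deriv_eq
  rw [h2, deriv_comp_neg, neg_neg]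
  rfl

/-! ### the derivatives of the generating function -/

theorem F1_kk (hb : GenC Y c K b) (h1 : 0 < c₁) (h2 : c₁ ≤ c / 8) (h3 : c₁ ≤ 1 / 8) {y d : ℂ}
    (h : (y, d) ∈ Cone Y c₁) : F1 b y (y + d) = -(d ^ 2 / 2) * (1 + d ^ 2 * kk b y d) := by
  have hm := mid_mem hb.hc h1 h2 h3 h
  have hm' : ((y + (y + d)) / 2, (y + d) - y) ∈ Cone Y c := by
    rwa [show (y + (y + d)) / 2 = y + d / 2 by ring, show (y + d) - y = d by ring]
  have e1 : HasDerivAt (fun t => b ((t + (y + d)) / 2) ((y + d) - t))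
      (dx b ((y + (y + d)) / 2) ((y + d) - y) * (1 / 2)
        + de b ((y + (y + d)) / 2) ((y + d) - y) * (-1)) y :=
    hb.hol.hasDerivAt_comp (isOpen_Cone Y c) (u := fun t => (t + (y + d)) / 2)
      (v := fun t => (y + d) - t) (((hasDerivAt_id y).add_const (y + d)).div_const 2)
      ((hasDerivAt_id y).const_sub (y + d)) hm'
  have e2 : HasDerivAt (fun t : ℂ => (y + d) - t) (-1) y := (hasDerivAt_id y).const_sub (y + d)
  have e3 : HasDerivAt (fun t => Fg b t (y + d))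
      (3 * ((y + d) - y) ^ 2 * (-1) / 6 + ((5 * ((y + d) - y) ^ 4 * (-1)) *
        b ((y + (y + d)) / 2) ((y + d) - y) + ((y + d) - y) ^ 5 *
        (dx b ((y + (y + d)) / 2) ((y + d) - y) * (1 / 2)
        + de b ((y + (y + d)) / 2) ((y + d) - y) * (-1)))) y := by
    unfold Fg
    refine HasDerivAt.add ?_ (HasDerivAt.mul ?_ e1)
    · have := (e2.pow 3).div_const 6
      refine this.congr_deriv ?_
      simp
    · have := e2.pow 5
      refine this.congr_deriv ?_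
      simp
  have e4 : F1 b y (y + d) = _ := e3.deriv
  rw [e4, show (y + (y + d)) / 2 = y + d / 2 by ring, show (y + d) - y = d by ring]
  unfold kk
  ring

theorem F2_kk (hb : GenC Y c K b) (h1 : 0 < c₁) (h2 : c₁ ≤ c / 8) (h3 : c₁ ≤ 1 / 8) {y d : ℂ}
    (h : (y, d) ∈ Cone Y c₁) : F2 b (y - d) y = d ^ 2 / 2 * (1 + d ^ 2 * kk b y (-d)) := by
  have h' : (y, -d) ∈ Cone Y c₁ := by rw [mem_Cone, norm_neg]; exact h
  have hm0 := mid_mem hb.hc h1 h2 h3 h'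
  have hm : (y + -d / 2, d) ∈ Cone Y c := by rw [mem_Cone] at hm0 ⊢; rwa [norm_neg] at hm0
  have hm' : (((y - d) + y) / 2, y - (y - d)) ∈ Cone Y c := by
    rwa [show ((y - d) + y) / 2 = y + -d / 2 by ring, show y - (y - d) = d by ring]
  have e1 : HasDerivAt (fun t => b (((y - d) + t) / 2) (t - (y - d)))
      (dx b (((y - d) + y) / 2) (y - (y - d)) * (1 / 2)
        + de b (((y - d) + y) / 2) (y - (y - d)) * 1) y :=
    hb.hol.hasDerivAt_comp (isOpen_Cone Y c) (u := fun t => ((y - d) + t) / 2)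
      (v := fun t => t - (y - d)) (((hasDerivAt_id y).const_add (y - d)).div_const 2)
      ((hasDerivAt_id y).sub_const (y - d)) hm'
  have e2 : HasDerivAt (fun t : ℂ => t - (y - d)) 1 y := (hasDerivAt_id y).sub_const (y - d)
  have e3 : HasDerivAt (fun t => Fg b (y - d) t)
      (3 * (y - (y - d)) ^ 2 / 6 + ((5 * (y - (y - d)) ^ 4) *
        b (((y - d) + y) / 2) (y - (y - d)) + (y - (y - d)) ^ 5 *
        (dx b (((y - d) + y) / 2) (y - (y - d)) * (1 / 2)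
        + de b (((y - d) + y) / 2) (y - (y - d)) * 1))) y := by
    unfold Fg
    refine HasDerivAt.add ?_ (HasDerivAt.mul ?_ e1)
    · have := (e2.pow 3).div_const 6
      refine this.congr_deriv ?_
      simp
    · have := e2.pow 5
      refine this.congr_deriv ?_
      simp
  have e4 : F2 b (y - d) y = _ := e3.deriv
  rw [e4, show ((y - d) + y) / 2 = y + -d / 2 by ring, show y - (y - d) = d by ring]
  unfold kk
  rw [hb.even _ _ hm, dx_neg hb hm, de_neg hb hm]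
  ring

end

end Vale.Agent.P097.TT4
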