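import Vale.Agent.P097.H799.TrigK

/-!
# TRIG-T4, part 2: the step map `(x, y) ↦ z`, `EL b x y z = 0`
-/

set_option linter.all false

open scoped ComplexConjugate Topology
open Filter Metric Complex

namespace Vale.Agent.P097.TT4

open Vale.Agent.P097.TA Vale.Agent.P097.H536

/-- reduced Euler-Lagrange function with its bounds -/
structure SK (Y c₁ K₁ : ℝ) (b k : ℂ → ℂ → ℂ) : Prop where
  hY : 0 < Y
  hc : 0 < c₁
  hK : 0 ≤ K₁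
  hol : JD k (Cone Y c₁)
  bd : ∀ y d : ℂ, (y, d) ∈ Cone Y c₁ → ‖k y d‖ * (Y - |y.im|) ^ 2 ≤ K₁
  lip : ∀ y d d' : ℂ, (y, d) ∈ Cone Y c₁ → (y, d') ∈ Cone Y c₁ →
    ‖k y d - k y d'‖ * (Y - |y.im|) ^ 3 ≤ K₁ * ‖d - d'‖
  f1 : ∀ y d : ℂ, (y, d) ∈ Cone Y c₁ → F1 b y (y + d) = -(d ^ 2 / 2) * (1 + d ^ 2 * k y d)
  f2 : ∀ y d : ℂ, (y, d) ∈ Cone Y c₁ → F2 b (y - d) y = d ^ 2 / 2 * (1 + d ^ 2 * k y (-d))
  per : ∀ y d : ℂ, (y, d) ∈ Cone Y c₁ → k (y + 1) d = k y d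

theorem SK.mono {Y c₁ c₂ K₁ : ℝ} {b k : ℂ → ℂ → ℂ} (S : SK Y c₁ K₁ b k) (h0 : 0 < c₂)
    (h : c₂ ≤ c₁) : SK Y c₂ K₁ b k :=
  have hs := Cone_mono (Y := Y) h0 h
  { hY := S.hY, hc := h0, hK := S.hK, hol := S.hol.mono hs,
    bd := fun y d h => S.bd y d (hs h)
    lip := fun y d d' h h' => S.lip y d d' (hs h) (hs h')
    f1 := fun y d h => S.f1 y d (hs h)
    f2 := fun y d h => S.f2 y d (hs h)
    per := fun y d h => S.per y d (hs h) }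

theorem kk_per {Y c K c₁ : ℝ} {b : ℂ → ℂ → ℂ} (hb : GenC Y c K b) (h1 : 0 < c₁) (h2 : c₁ ≤ c / 8)
    (h3 : c₁ ≤ 1 / 8) {y d : ℂ} (h : (y, d) ∈ Cone Y c₁) : kk b (y + 1) d = kk b y d := by
  have hm := mid_mem hb.hc h1 h2 h3 h
  have hp : Per b (Cone Y c) := hb.per
  unfold kk
  rw [show y + 1 + d / 2 = (y + d / 2) + 1 by ring, hb.per _ _ hm,
    hp.dx (isOpen_Cone Y c) _ _ hm, hp.de (isOpen_Cone Y c) _ _ hm]

theorem exists_SK {Y c K : ℝ} {b : ℂ → ℂ → ℂ} (hb : GenC Y c K b) :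
    ∃ c₁ K₁ : ℝ, SK Y c₁ K₁ b (kk b) := by
  have hc := hb.hc
  have hK := hb.hK
  set c₀ : ℝ := min (c / 8) (1 / 8) with hc₀
  have h1 : 0 < c₀ := by positivity
  have h2 : c₀ ≤ c / 8 := min_le_left _ _
  have h3 : c₀ ≤ 1 / 8 := min_le_right _ _
  have hs := Cone_mono (Y := Y) (c := c₀ / 2) (by positivity) (by linarith : c₀ / 2 ≤ c₀)
  refine ⟨c₀ / 2, 26 * K * (1 + 2 / c₀), hb.hY, by positivity, by positivity,
    (JD_kk hb h1 h2 h3).mono hs, ?_, ?_, fun y d h => F1_kk hb h1 h2 h3 (hs h),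
    fun y d h => F2_kk hb h1 h2 h3 (hs h), fun y d h => kk_per hb h1 h2 h3 (hs h)⟩
  · intro y d h
    refine (kk_bd hb h1 h2 h3 (hs h)).trans ?_
    have : 0 ≤ 26 * K * (2 / c₀) := by positivity
    nlinarith
  · intro y d d' h h'
    have hD := Cone_pos (by positivity) h
    set D := Y - |y.im| with hDd
    have hder : ∀ x ∈ ball (0 : ℂ) (c₀ / 2 * D), ‖deriv (fun t => kk b y t) x‖ ≤
        26 * K / D ^ 2 / (c₀ / 2 * D) := by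
      intro x hx
      rw [mem_ball_zero_iff] at hx
      have hsub : ∀ z ∈ closedBall x (c₀ / 2 * D), (y, z) ∈ Cone Y c₀ := by
        intro z hz
        rw [mem_closedBall, dist_eq_norm] at hz
        rw [mem_Cone]
        calc ‖z‖ = ‖(z - x) + x‖ := by ring_nf
          _ ≤ ‖z - x‖ + ‖x‖ := norm_add_le _ _
          _ < c₀ / 2 * D + c₀ / 2 * D := by linarith
          _ = c₀ * D := by ring
      refine Complex.norm_deriv_le_of_forall_mem_sphere_norm_le (by positivity) ?_ ?_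
      · exact ((JD_kk hb h1 h2 h3).differentiableOn_e (U := closedBall x (c₀ / 2 * D))
          hsub).diffContOnCl_ball (le_refl _)
      · intro z hz
        rw [le_div_iff₀ (by positivity)]
        exact kk_bd hb h1 h2 h3 (hsub z (sphere_subset_closedBall hz))
    have hdiff : ∀ x ∈ ball (0 : ℂ) (c₀ / 2 * D), DifferentiableAt ℂ (fun t => kk b y t) x := by
      intro x hx
      rw [mem_ball_zero_iff] at hx
      exact ((JD_kk hb h1 h2 h3).hasDerivAt_e (isOpen_Cone Y c₀) (hs hx)).differentiableAt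
    have hl := (convex_ball (0 : ℂ) (c₀ / 2 * D)).norm_image_sub_le_of_norm_deriv_le
      (f := fun t => kk b y t) hdiff hder (x := d') (y := d)
      (by rw [mem_ball_zero_iff]; exact h') (by rw [mem_ball_zero_iff]; exact h)
    have e : 26 * K / D ^ 2 / (c₀ / 2 * D) * D ^ 3 = 26 * K * (2 / c₀) := by
      field_simp
    calc ‖kk b y d - kk b y d'‖ * D ^ 3
        ≤ (26 * K / D ^ 2 / (c₀ / 2 * D) * ‖d - d'‖) * D ^ 3 := by gcongr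
      _ = (26 * K * (2 / c₀)) * ‖d - d'‖ := by rw [← e]; ring
      _ ≤ 26 * K * (1 + 2 / c₀) * ‖d - d'‖ := by
          have : 0 ≤ 26 * K * ‖d - d'‖ := by positivity
          nlinarith

/-! ### one variable -/

section core

variable {k : ℂ → ℂ} {δ : ℂ} {m P Q : ℝ}

theorem pow4_sub_le {a b : ℂ} {R : ℝ} (ha : ‖a‖ ≤ R) (hb : ‖b‖ ≤ R) :
    ‖a ^ 4 - b ^ 4‖ ≤ 4 * R ^ 3 * ‖a - b‖ := by
  have hR : 0 ≤ R := (norm_nonneg _).trans ha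
  have e : a ^ 4 - b ^ 4 = (a ^ 3 + a ^ 2 * b + a * b ^ 2 + b ^ 3) * (a - b) := by ring
  rw [e, norm_mul]
  gcongr
  calc ‖a ^ 3 + a ^ 2 * b + a * b ^ 2 + b ^ 3‖
      ≤ ‖a ^ 3‖ + ‖a ^ 2 * b‖ + ‖a * b ^ 2‖ + ‖b ^ 3‖ := by
        refine (norm_add_le _ _).trans ?_
        gcongr
        refine (norm_add_le _ _).trans ?_
        gcongr
        exact norm_add_le _ _
    _ ≤ R ^ 3 + R ^ 2 * R + R * R ^ 2 + R ^ 3 := by
        simp only [norm_mul, norm_pow]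
        gcongr
    _ = 4 * R ^ 3 := by ring

/-- numerator of the fixed point map -/
noncomputable def Nk (k : ℂ → ℂ) (δ U : ℂ) : ℂ := δ ^ 4 * k (-δ) - (δ + U) ^ 4 * k (δ + U)

theorem hsmall (hm : ‖δ‖ = m) {U : ℂ} (hU : ‖U‖ ≤ m / 2) : ‖δ + U‖ ≤ 3 / 2 * m := by
  calc ‖δ + U‖ ≤ ‖δ‖ + ‖U‖ := norm_add_le _ _
    _ ≤ 3 / 2 * m := by rw [hm]; linarith

theorem hden (hm : ‖δ‖ = m) {U : ℂ} (hU : ‖U‖ ≤ m / 2) : 3 / 2 * m ≤ ‖2 * δ + U‖ := by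
  have h3 : ‖2 * δ‖ ≤ ‖2 * δ + U‖ + ‖U‖ := by
    calc ‖2 * δ‖ = ‖(2 * δ + U) - U‖ := by ring_nf
      _ ≤ _ := norm_sub_le _ _
  rw [norm_mul, hm] at h3
  simp only [Complex.norm_ofNat] at h3
  linarith

theorem hden0 (hm : ‖δ‖ = m) (hm0 : 0 < m) {U : ℂ} (hU : ‖U‖ ≤ m / 2) : 2 * δ + U ≠ 0 :=
  fun h => by
    have := hden hm hU
    rw [h, norm_zero] at this
    linarith

theorem Nk_bd (hm : ‖δ‖ = m) (hm0 : 0 < m)
    (hP : ∀ η, ‖η‖ ≤ 3 / 2 * m → ‖k η‖ ≤ P) {U : ℂ} (hU : ‖U‖ ≤ m / 2) :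
    ‖Nk k δ U‖ ≤ 97 / 16 * (P * m ^ 4) := by
  have i1 := hP (-δ) (by rw [norm_neg, hm]; linarith)
  have i2 := hP (δ + U) (hsmall hm hU)
  have i3 := hsmall hm hU
  have hP0 : 0 ≤ P := (norm_nonneg _).trans i1
  calc ‖Nk k δ U‖ ≤ ‖δ ^ 4 * k (-δ)‖ + ‖(δ + U) ^ 4 * k (δ + U)‖ := norm_sub_le _ _
    _ ≤ m ^ 4 * P + (3 / 2 * m) ^ 4 * P := by
        rw [norm_mul, norm_mul, norm_pow, norm_pow, hm]
        gcongr
    _ = _ := by ring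

theorem Nk_lip (hm : ‖δ‖ = m) (hm0 : 0 < m)
    (hP : ∀ η, ‖η‖ ≤ 3 / 2 * m → ‖k η‖ ≤ P)
    (hQ : ∀ η η', ‖η‖ ≤ 3 / 2 * m → ‖η'‖ ≤ 3 / 2 * m → ‖k η - k η'‖ ≤ Q * ‖η - η'‖)
    {U V : ℂ} (hU : ‖U‖ ≤ m / 2) (hV : ‖V‖ ≤ m / 2) :
    ‖Nk k δ U - Nk k δ V‖ ≤ (27 / 2 * (P * m ^ 3) + 81 / 16 * (Q * m ^ 4)) * ‖U - V‖ := by
  have i1 := hP (δ + V) (hsmall hm hV)
  have i2 := hQ (δ + U) (δ + V) (hsmall hm hU) (hsmall hm hV)
  rw [show δ + U - (δ + V) = U - V by ring] at i2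
  have i3 := pow4_sub_le (hsmall hm hU) (hsmall hm hV)
  rw [show δ + U - (δ + V) = U - V by ring] at i3
  have i4 := hsmall hm hU
  calc ‖Nk k δ U - Nk k δ V‖ = ‖(δ + U) ^ 4 * (k (δ + U) - k (δ + V))
        + ((δ + U) ^ 4 - (δ + V) ^ 4) * k (δ + V)‖ := by
          rw [← norm_neg]; congr 1; simp only [Nk]; ring
    _ ≤ ‖δ + U‖ ^ 4 * ‖k (δ + U) - k (δ + V)‖ + ‖(δ + U) ^ 4 - (δ + V) ^ 4‖ * ‖k (δ + V)‖ := by
        refine (norm_add_le _ _).trans ?_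
        rw [norm_mul, norm_mul, norm_pow]
    _ ≤ (3 / 2 * m) ^ 4 * (Q * ‖U - V‖) + (4 * (3 / 2 * m) ^ 3 * ‖U - V‖) * P := by
        gcongr
    _ = _ := by ring

theorem Tk_lip (hm : ‖δ‖ = m) (hm0 : 0 < m)
    (hP : ∀ η, ‖η‖ ≤ 3 / 2 * m → ‖k η‖ ≤ P)
    (hQ : ∀ η η', ‖η‖ ≤ 3 / 2 * m → ‖η'‖ ≤ 3 / 2 * m → ‖k η - k η'‖ ≤ Q * ‖η - η'‖)
    (hP0 : 0 ≤ P) (hQ0 : 0 ≤ Q)
    (h1 : P * m ^ 2 ≤ 1 / 100) (h2 : Q * m ^ 3 ≤ 1 / 100)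
    {U V : ℂ} (hU : ‖U‖ ≤ m / 2) (hV : ‖V‖ ≤ m / 2) :
    ‖Nk k δ U / (2 * δ + U) - Nk k δ V / (2 * δ + V)‖ ≤ ‖U - V‖ / 2 := by
  have u0 := hden0 hm hm0 hU
  have v0 := hden0 hm hm0 hV
  have u1 := hden hm hU
  have v1 := hden hm hV
  have e : Nk k δ U / (2 * δ + U) - Nk k δ V / (2 * δ + V) =
      (Nk k δ U - Nk k δ V) / (2 * δ + U) + Nk k δ V * (V - U) / ((2 * δ + U) * (2 * δ + V)) := by
    field_simp; ring
  have j1 : ‖(Nk k δ U - Nk k δ V) / (2 * δ + U)‖ ≤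
      (27 / 2 * (P * m ^ 3) + 81 / 16 * (Q * m ^ 4)) * ‖U - V‖ / (3 / 2 * m) := by
    rw [norm_div]
    exact div_le_div₀ (by positivity) (Nk_lip hm hm0 hP hQ hU hV) (by positivity) u1
  have j2 : ‖Nk k δ V * (V - U) / ((2 * δ + U) * (2 * δ + V))‖ ≤
      97 / 16 * (P * m ^ 4) * ‖U - V‖ / ((3 / 2 * m) * (3 / 2 * m)) := by
    rw [norm_div, norm_mul, norm_mul, norm_sub_rev V U]
    have := Nk_bd hm hm0 hP hV
    apply div_le_div₀ (by positivity) (by gcongr) (by positivity) (by gcongr)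
  have j3 : (27 / 2 * (P * m ^ 3) + 81 / 16 * (Q * m ^ 4)) * ‖U - V‖ / (3 / 2 * m) =
      (9 * (P * m ^ 2) + 27 / 8 * (Q * m ^ 3)) * ‖U - V‖ := by
    field_simp; ring
  have j4 : 97 / 16 * (P * m ^ 4) * ‖U - V‖ / ((3 / 2 * m) * (3 / 2 * m)) =
      97 / 36 * (P * m ^ 2) * ‖U - V‖ := by
    field_simp; ring
  rw [e]
  refine (norm_add_le _ _).trans ((add_le_add j1 j2).trans ?_)
  rw [j3, j4]
  have := norm_nonneg (U - V)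
  nlinarith [mul_le_mul_of_nonneg_right h1 this, mul_le_mul_of_nonneg_right h2 this]

theorem Tk_zero (hm : ‖δ‖ = m) (hm0 : 0 < m)
    (hQ : ∀ η η', ‖η‖ ≤ 3 / 2 * m → ‖η'‖ ≤ 3 / 2 * m → ‖k η - k η'‖ ≤ Q * ‖η - η'‖) :
    ‖Nk k δ 0 / (2 * δ + 0)‖ ≤ Q * m ^ 4 := by
  have hδ : δ ≠ 0 := by rw [← norm_pos_iff, hm]; exact hm0
  have e : Nk k δ 0 / (2 * δ + 0) = δ ^ 3 / 2 * (k (-δ) - k δ) := by
    simp only [Nk, add_zero]
    field_simp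
  rw [e, norm_mul, norm_div, norm_pow, hm]
  have i1 := hQ (-δ) δ (by rw [norm_neg, hm]; linarith) (by rw [hm]; linarith)
  have i2 : ‖-δ - δ‖ = 2 * m := by
    rw [show -δ - δ = -(2 * δ) by ring, norm_neg, norm_mul, hm]; simp
  rw [i2] at i1
  simp only [Complex.norm_ofNat]
  calc m ^ 3 / 2 * ‖k (-δ) - k δ‖ ≤ m ^ 3 / 2 * (Q * (2 * m)) := by gcongr
    _ = _ := by ring

/-- the solution `U = δ₊ - δ₋` -/
theorem step_core (hm : ‖δ‖ = m) (hm0 : 0 < m)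
    (hP : ∀ η, ‖η‖ ≤ 3 / 2 * m → ‖k η‖ ≤ P)
    (hQ : ∀ η η', ‖η‖ ≤ 3 / 2 * m → ‖η'‖ ≤ 3 / 2 * m → ‖k η - k η'‖ ≤ Q * ‖η - η'‖)
    (hP0 : 0 ≤ P) (hQ0 : 0 ≤ Q)
    (h1 : P * m ^ 2 ≤ 1 / 100) (h2 : Q * m ^ 3 ≤ 1 / 100) :
    ∃ U : ℂ, ‖U‖ ≤ 2 * (Q * m ^ 4) ∧ U * (2 * δ + U) = Nk k δ U ∧
      ∀ V : ℂ, ‖V‖ ≤ m / 2 → V * (2 * δ + V) = Nk k δ V → V = U := by
  set T : (Unit → ℂ) → (Unit → ℂ) := fun U _ => Nk k δ (U ()) / (2 * δ + U ()) with hT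
  have hC : H799.HalfContr T (m / 2) := by
    refine ⟨fun i => ?_, fun U V hU hV d hd i => ?_⟩
    · show ‖Nk k δ 0 / (2 * δ + 0)‖ ≤ m / 2 / 2
      refine (Tk_zero hm hm0 hQ).trans ?_
      nlinarith
    · refine (Tk_lip hm hm0 hP hQ hP0 hQ0 h1 h2 (hU ()) (hV ())).trans ?_
      have := hd ()
      linarith
  obtain ⟨U, hU1, hU2, hU3, -⟩ := hC.exists_fp (δ := Q * m ^ 4) (fun _ => Tk_zero hm hm0 hQ)
  have hfix : Nk k δ (U ()) / (2 * δ + U ()) = U () := congrFun hU1 ()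
  refine ⟨U (), hU3 (), ?_, fun V hV hVe => ?_⟩
  · rw [div_eq_iff (hden0 hm hm0 (hU2 ()))] at hfix
    exact hfix.symm
  · have h3 : T (fun _ => V) = fun _ => V := by
      funext i
      show Nk k δ V / (2 * δ + V) = V
      rw [div_eq_iff (hden0 hm hm0 hV)]
      exact hVe.symm
    have h4 := hC.unique (U := fun _ => V) (V := U) h3 hU1 (fun _ => hV) hU2
    have h5 := congrFun h4 ()
    exact h5

end core

end Vale.Agent.P097.TT4
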