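import Vale.Agent.P097.H799.TrigS
import Vale.Agent.P268.Hol

/-!
# TRIG-T4, part 3: the step map as a holomorphic function
-/

set_option linter.all false

open scoped ComplexConjugate Topology
open Filter Metric Complex

namespace Vale.Agent.P097.TT4

open Vale.Agent.P097.TA Vale.Agent.P097.H536

/-- `z` is the next point after `x, y` -/
def IsStep (b : ℂ → ℂ → ℂ) (x y z : ℂ) : Prop :=
  ‖z - y - (y - x)‖ ≤ ‖y - x‖ / 2 ∧ EL b x y z = 0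

open Classical in
/-- the step map -/
noncomputable def St (b : ℂ → ℂ → ℂ) (x y : ℂ) : ℂ :=
  if h : ∃ z, IsStep b x y z then h.choose else 0

/-- domain of the step map -/
def Om (Y c₃ : ℝ) : Set (ℂ × ℂ) := {p | p.1 ≠ p.2 ∧ ‖p.2 - p.1‖ < c₃ * (Y - |p.2.im|)}

theorem isOpen_Om (Y c₃ : ℝ) : IsOpen (Om Y c₃) := by
  have h0 : IsOpen {p : ℂ × ℂ | p.1 ≠ p.2} := isOpen_ne_fun continuous_fst continuous_snd
  have h1 : Continuous fun p : ℂ × ℂ => ‖p.2 - p.1‖ := (continuous_snd.sub continuous_fst).norm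
  have h2 : Continuous fun p : ℂ × ℂ => c₃ * (Y - |p.2.im|) :=
    (continuous_const.sub (Complex.continuous_im.comp continuous_snd).abs).const_mul c₃ |>.congr
      (fun _ => rfl)
  exact h0.inter (isOpen_lt h1 h2)

/-- smallness of the constant of the step domain -/
structure SC (c₁ K₁ c₃ : ℝ) : Prop where
  h0 : 0 < c₃
  h1 : 4 * c₃ ≤ c₁
  h2 : K₁ * c₃ ^ 2 ≤ 1 / 100
  h3 : K₁ * c₃ ^ 3 ≤ 1 / 100

section

variable {Y c₁ K₁ c₃ : ℝ} {b k : ℂ → ℂ → ℂ}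

theorem EL_k (S : SK Y c₁ K₁ b k) {y δ η : ℂ} (h : (y, δ) ∈ Cone Y c₁) (h' : (y, η) ∈ Cone Y c₁) :
    EL b (y - δ) y (y + η) =
      (δ ^ 2 * (1 + δ ^ 2 * k y (-δ)) - η ^ 2 * (1 + η ^ 2 * k y η)) / 2 := by
  unfold EL
  rw [S.f2 y δ h, S.f1 y η h']
  ring

theorem EL_iff (S : SK Y c₁ K₁ b k) {y δ U : ℂ} (h : (y, δ) ∈ Cone Y c₁)
    (h' : (y, δ + U) ∈ Cone Y c₁) :
    EL b (y - δ) y (y + (δ + U)) = 0 ↔ U * (2 * δ + U) = Nk (k y) δ U := by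
  rw [EL_k S h h']
  unfold Nk
  constructor
  · intro e
    linear_combination (-2) * e
  · intro e
    linear_combination (-1 / 2) * e

theorem cone_of (S : SK Y c₁ K₁ b k) (C : SC c₁ K₁ c₃) {y η : ℂ} {m : ℝ}
    (hm : m < c₃ * (Y - |y.im|)) (hη : ‖η‖ ≤ 3 / 2 * m) : (y, η) ∈ Cone Y c₁ := by
  rw [mem_Cone]
  have h0 : 0 ≤ m := by linarith [norm_nonneg η]
  have h1 := C.h1
  have h2 := C.h0
  have h3 : 0 < Y - |y.im| := by
    have : 0 < c₃ * (Y - |y.im|) := h0.trans_lt hm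
    exact (pos_iff_pos_of_mul_pos this).1 h2
  nlinarith

theorem step_main (S : SK Y c₁ K₁ b k) (C : SC c₁ K₁ c₃) {x y : ℂ} (h : (x, y) ∈ Om Y c₃) :
    ∃ z, IsStep b x y z ∧ ‖z - y - (y - x)‖ * (Y - |y.im|) ^ 3 ≤ 2 * K₁ * ‖y - x‖ ^ 4 ∧
      ‖z - y - (y - x)‖ ≤ ‖y - x‖ / 50 ∧
      ∀ z', IsStep b x y z' → z' = z := by
  obtain ⟨h1, h2⟩ := h
  simp only at h1 h2
  set D := Y - |y.im| with hD
  set δ := y - x with hδ
  set m := ‖δ‖ with hm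
  have hm0 : 0 < m := norm_pos_iff.2 (sub_ne_zero.2 (Ne.symm h1))
  have hc₃ := C.h0
  have hD0 : 0 < D := by
    have : 0 < c₃ * D := hm0.trans h2
    exact (pos_iff_pos_of_mul_pos this).1 hc₃
  have hK := S.hK
  have hc : ∀ η : ℂ, ‖η‖ ≤ 3 / 2 * m → (y, η) ∈ Cone Y c₁ := fun η hη => cone_of S C h2 hη
  have hP : ∀ η, ‖η‖ ≤ 3 / 2 * m → ‖k y η‖ ≤ K₁ / D ^ 2 := fun η hη => by
    rw [le_div_iff₀ (by positivity)]; exact S.bd y η (hc η hη)
  have hQ : ∀ η η', ‖η‖ ≤ 3 / 2 * m → ‖η'‖ ≤ 3 / 2 * m →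
      ‖k y η - k y η'‖ ≤ K₁ / D ^ 3 * ‖η - η'‖ := fun η η' hη hη' => by
    rw [div_mul_eq_mul_div, le_div_iff₀ (by positivity)]
    exact S.lip y η η' (hc η hη) (hc η' hη')
  have q1 : m / D ≤ c₃ := by rw [div_le_iff₀ hD0]; exact h2.le
  have q0 : 0 ≤ m / D := by positivity
  have hs1 : K₁ / D ^ 2 * m ^ 2 ≤ 1 / 100 := by
    calc K₁ / D ^ 2 * m ^ 2 = K₁ * (m / D) ^ 2 := by field_simp
      _ ≤ K₁ * c₃ ^ 2 := by gcongr
      _ ≤ _ := C.h2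
  have hs2 : K₁ / D ^ 3 * m ^ 3 ≤ 1 / 100 := by
    calc K₁ / D ^ 3 * m ^ 3 = K₁ * (m / D) ^ 3 := by field_simp
      _ ≤ K₁ * c₃ ^ 3 := by gcongr
      _ ≤ _ := C.h3
  obtain ⟨U, u1, u2, u3⟩ := step_core (k := k y) (δ := δ) (m := m) hm.symm hm0 hP hQ
    (by positivity) (by positivity) hs1 hs2
  have u1' : ‖U‖ ≤ m / 50 := by
    refine u1.trans ?_
    have : 2 * (K₁ / D ^ 3 * m ^ 4) = 2 * (K₁ / D ^ 3 * m ^ 3) * m := by ring
    rw [this]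
    nlinarith
  have hU : ‖U‖ ≤ m / 2 := by linarith
  have ex : y - δ = x := by rw [hδ]; ring
  refine ⟨y + (δ + U), ⟨?_, ?_⟩, ?_, ?_, ?_⟩
  · rw [show y + (δ + U) - y - δ = U by ring]; exact hU
  · have := (EL_iff S (hc δ (by linarith)) (hc (δ + U) (hsmall hm.symm hU))).2 u2
    rwa [ex] at this
  · rw [show y + (δ + U) - y - δ = U by ring]
    calc ‖U‖ * D ^ 3 ≤ 2 * (K₁ / D ^ 3 * m ^ 4) * D ^ 3 := by gcongr
      _ = _ := by field_simp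
  · rw [show y + (δ + U) - y - δ = U by ring]; exact u1'
  · intro z' hz'
    obtain ⟨v1, v2⟩ := hz'
    set V := z' - y - δ with hV
    have hzV : z' = y + (δ + V) := by rw [hV]; ring
    have hV' : ‖V‖ ≤ m / 2 := v1
    have : V * (2 * δ + V) = Nk (k y) δ V := by
      rw [← EL_iff S (hc δ (by linarith)) (hc (δ + V) (hsmall hm.symm hV')), ex, ← hzV]
      exact v2
    rw [hzV, u3 V hV' this]

theorem St_spec (S : SK Y c₁ K₁ b k) (C : SC c₁ K₁ c₃) {x y : ℂ} (h : (x, y) ∈ Om Y c₃) :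
    IsStep b x y (St b x y) := by
  have h1 : ∃ z, IsStep b x y z := (step_main S C h).imp fun z hz => hz.1
  unfold St
  rw [dif_pos h1]
  exact h1.choose_spec

theorem St_uniq (S : SK Y c₁ K₁ b k) (C : SC c₁ K₁ c₃) {x y z : ℂ} (h : (x, y) ∈ Om Y c₃)
    (hz : IsStep b x y z) : z = St b x y := by
  obtain ⟨z₀, -, -, -, h4⟩ := step_main S C h
  rw [h4 z hz, h4 _ (St_spec S C h)]

theorem St_bd (S : SK Y c₁ K₁ b k) (C : SC c₁ K₁ c₃) {x y : ℂ} (h : (x, y) ∈ Om Y c₃) :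
    ‖St b x y - y - (y - x)‖ * (Y - |y.im|) ^ 3 ≤ 2 * K₁ * ‖y - x‖ ^ 4 := by
  obtain ⟨z₀, h1, h2, h3, h4⟩ := step_main S C h
  rw [h4 _ (St_spec S C h)]
  exact h2

theorem St_bd' (S : SK Y c₁ K₁ b k) (C : SC c₁ K₁ c₃) {x y : ℂ} (h : (x, y) ∈ Om Y c₃) :
    ‖St b x y - y - (y - x)‖ ≤ ‖y - x‖ / 50 := by
  obtain ⟨z₀, h1, h2, h3, h4⟩ := step_main S C h
  rw [h4 _ (St_spec S C h)]
  exact h3

theorem Om_one {x y : ℂ} (h : (x, y) ∈ Om Y c₃) : (x + 1, y + 1) ∈ Om Y c₃ := by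
  obtain ⟨h1, h2⟩ := h
  simp only at h1 h2
  refine ⟨fun h => h1 (add_right_cancel h), ?_⟩
  show ‖(y + 1) - (x + 1)‖ < c₃ * (Y - |(y + 1).im|)
  rw [show (y + 1) - (x + 1) = y - x by ring]
  simpa using h2

theorem St_per (S : SK Y c₁ K₁ b k) (C : SC c₁ K₁ c₃) {x y : ℂ} (h : (x, y) ∈ Om Y c₃) :
    St b (x + 1) (y + 1) = St b x y + 1 := by
  symm
  apply St_uniq S C (Om_one h)
  obtain ⟨h1, h2⟩ := St_spec S C h
  obtain ⟨g1, g2⟩ := h
  simp only at g1 g2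
  set z := St b x y with hz
  refine ⟨?_, ?_⟩
  · rw [show z + 1 - (y + 1) - (y + 1 - (x + 1)) = z - y - (y - x) by ring,
      show (y + 1) - (x + 1) = y - x by ring]
    exact h1
  · have e1 : ‖z - y‖ ≤ 3 / 2 * ‖y - x‖ := by
      calc ‖z - y‖ = ‖(z - y - (y - x)) + (y - x)‖ := by ring_nf
        _ ≤ ‖z - y - (y - x)‖ + ‖y - x‖ := norm_add_le _ _
        _ ≤ _ := by linarith
    have c1 : (y, y - x) ∈ Cone Y c₁ := cone_of S C g2 (by linarith [norm_nonneg (y - x)])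
    have c1' : (y, -(y - x)) ∈ Cone Y c₁ := cone_of S C g2 (by
      rw [norm_neg]; linarith [norm_nonneg (y - x)])
    have c2 : (y, z - y) ∈ Cone Y c₁ := cone_of S C g2 e1
    have d1 : (y + 1, y - x) ∈ Cone Y c₁ := by rw [mem_Cone] at c1 ⊢; simpa using c1
    have d2 : (y + 1, z - y) ∈ Cone Y c₁ := by rw [mem_Cone] at c2 ⊢; simpa using c2
    have e2 := EL_k S c1 c2
    have e3 := EL_k S d1 d2
    rw [show y - (y - x) = x by ring, show y + (z - y) = z by ring, h2] at e2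
    rw [show (y + 1) - (y - x) = x + 1 by ring, show (y + 1) + (z - y) = z + 1 by ring,
      S.per _ _ c1', S.per _ _ c2] at e3
    rw [e3, ← e2]

/-! ### holomorphy -/

/-- implicit function theorem with two parameters -/
theorem impl2 (Ψ : (ℂ × ℂ) × ℂ → ℂ) (p₀ : ℂ × ℂ) (z₀ : ℂ) (hΨ : AnalyticAt ℂ Ψ (p₀, z₀))
    (h0 : Ψ (p₀, z₀) = 0) (d : ℂ) (hd : HasDerivAt (fun z => Ψ (p₀, z)) d z₀) (hd0 : d ≠ 0) :
    ∃ φ : ℂ × ℂ → ℂ, AnalyticAt ℂ φ p₀ ∧ φ p₀ = z₀ ∧ (∀ᶠ p in 𝓝 p₀, Ψ (p, φ p) = 0) := by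
  have hcd1 : ContDiffAt ℂ 1 Ψ (p₀, z₀) := hΨ.contDiffAt
  have hfd : HasFDerivAt Ψ (fderiv ℂ Ψ (p₀, z₀)) (p₀, z₀) := hΨ.differentiableAt.hasFDerivAt
  have hinr : fderiv ℂ Ψ (p₀, z₀) (0, 1) = d := by
    have h1 : HasDerivAt (fun J : ℂ => (p₀, J)) ((0 : ℂ × ℂ), (1 : ℂ)) z₀ :=
      (hasDerivAt_const z₀ p₀).prodMk (hasDerivAt_id z₀)
    have h2 := HasFDerivAt.comp_hasDerivAt z₀ hfd h1
    exact h2.unique hd
  have hinv : (fderiv ℂ Ψ (p₀, z₀) ∘L .inr ℂ (ℂ × ℂ) ℂ).IsInvertible := by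
    refine ⟨ContinuousLinearEquiv.unitsEquivAut ℂ (Units.mk0 d hd0), ?_⟩
    ext
    simp [hinr]
  refine ⟨hcd1.implicitFunction (by simp) hinv, ?_, ?_, ?_⟩
  · have h1 := hcd1.contDiffAt_implicitFunction (by simp) hinv
    obtain ⟨u, hu, hd⟩ := h1.contDiffOn (m := 1) le_rfl (by simp)
    obtain ⟨v, hv1, hv2, hv3⟩ := _root_.mem_nhds_iff.1 hu
    exact Vale.Agent.P268.analyticAt_of_differentiableOn hv2
      ((hd.differentiableOn (by simp)).mono hv1) hv3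
  · exact hcd1.implicitFunction_apply_self (by simp) hinv
  · have h1 := hcd1.eventually_apply_implicitFunction (by simp) hinv
    rw [h0] at h1
    exact h1

theorem JD.analyticAt {f : ℂ → ℂ → ℂ} {S : Set (ℂ × ℂ)} (hf : JD f S) (hS : IsOpen S) {x y : ℂ}
    (h : (x, y) ∈ S) : AnalyticAt ℂ (fun p : ℂ × ℂ => f p.1 p.2) (x, y) :=
  Vale.Agent.P268.analyticAt_of_differentiableOn hS hf h

theorem JD_St (S : SK Y c₁ K₁ b k) (C : SC c₁ K₁ c₃) : JD (St b) (Om Y c₃) := by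
  rintro ⟨x, y⟩ h
  apply DifferentiableAt.differentiableWithinAt
  have hOm := (isOpen_Om Y c₃).mem_nhds h
  obtain ⟨g1, g2⟩ := id h
  simp only at g1 g2
  obtain ⟨h1, h2⟩ := St_spec S C h
  have h3 := St_bd' S C h
  set z := St b x y with hz
  set D := Y - |y.im| with hD
  set m := ‖y - x‖ with hm
  have hm0 : 0 < m := norm_pos_iff.2 (sub_ne_zero.2 (Ne.symm g1))
  have hc₃ := C.h0
  have hD0 : 0 < D := by
    have : 0 < c₃ * D := hm0.trans g2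
    exact (pos_iff_pos_of_mul_pos this).1 hc₃
  have hK := S.hK
  have hc : ∀ η : ℂ, ‖η‖ ≤ 3 / 2 * m → (y, η) ∈ Cone Y c₁ := fun η hη => cone_of S C g2 hη
  have e1 : ‖z - y‖ ≤ 3 / 2 * m := by
    calc ‖z - y‖ = ‖(z - y - (y - x)) + (y - x)‖ := by ring_nf
      _ ≤ ‖z - y - (y - x)‖ + ‖y - x‖ := norm_add_le _ _
      _ ≤ _ := by linarith
  have e0 : 1 / 2 * m ≤ ‖z - y‖ := by
    have : ‖y - x‖ ≤ ‖z - y‖ + ‖z - y - (y - x)‖ := by
      calc ‖y - x‖ = ‖(z - y) - (z - y - (y - x))‖ := by ring_nf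
        _ ≤ _ := norm_sub_le _ _
    linarith
  have cδ : (y, x - y) ∈ Cone Y c₁ := hc _ (by rw [norm_sub_rev]; linarith)
  have cη : (y, z - y) ∈ Cone Y c₁ := hc _ e1
  have oC := isOpen_Cone Y c₁
  -- the equation
  set Ψ : (ℂ × ℂ) × ℂ → ℂ := fun q =>
    (q.1.2 - q.1.1) ^ 2 * (1 + (q.1.2 - q.1.1) ^ 2 * k q.1.2 (q.1.1 - q.1.2)) -
      (q.2 - q.1.2) ^ 2 * (1 + (q.2 - q.1.2) ^ 2 * k q.1.2 (q.2 - q.1.2)) with hΨ
  have aΨ : AnalyticAt ℂ Ψ ((x, y), z) := by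
    have a1 : AnalyticAt ℂ (fun q : (ℂ × ℂ) × ℂ => q.1.1) ((x, y), z) :=
      (analyticAt_fst.comp analyticAt_fst)
    have a2 : AnalyticAt ℂ (fun q : (ℂ × ℂ) × ℂ => q.1.2) ((x, y), z) :=
      (analyticAt_snd.comp analyticAt_fst)
    have a3 : AnalyticAt ℂ (fun q : (ℂ × ℂ) × ℂ => q.2) ((x, y), z) := analyticAt_snd
    have k1 : AnalyticAt ℂ (fun q : (ℂ × ℂ) × ℂ => k q.1.2 (q.1.1 - q.1.2)) ((x, y), z) := by
      have h4 := JD.analyticAt S.hol oC cδ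
      have h5 : AnalyticAt ℂ (fun q : (ℂ × ℂ) × ℂ => (q.1.2, q.1.1 - q.1.2)) ((x, y), z) :=
        a2.prod (a1.sub a2)
      exact h4.comp_of_eq h5 rfl
    have k2 : AnalyticAt ℂ (fun q : (ℂ × ℂ) × ℂ => k q.1.2 (q.2 - q.1.2)) ((x, y), z) := by
      have h4 := JD.analyticAt S.hol oC cη
      have h5 : AnalyticAt ℂ (fun q : (ℂ × ℂ) × ℂ => (q.1.2, q.2 - q.1.2)) ((x, y), z) :=
        a2.prod (a3.sub a2)
      exact h4.comp_of_eq h5 rfl
    exact (((a2.sub a1).pow 2).mul (analyticAt_const.add (((a2.sub a1).pow 2).mul k1))).sub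
      (((a3.sub a2).pow 2).mul (analyticAt_const.add (((a3.sub a2).pow 2).mul k2)))
  have hEL : ∀ x' y' z' : ℂ, (y', x' - y') ∈ Cone Y c₁ → (y', z' - y') ∈ Cone Y c₁ →
      EL b x' y' z' = Ψ ((x', y'), z') / 2 := by
    intro x' y' z' i1 i2
    have i3 : (y', y' - x') ∈ Cone Y c₁ := by
      rw [mem_Cone] at i1 ⊢; rwa [norm_sub_rev]
    have i4 := EL_k S i3 i2
    rw [show y' - (y' - x') = x' by ring, show y' + (z' - y') = z' by ring,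
      show -(y' - x') = x' - y' by ring] at i4
    rw [i4]
  have Ψ0 : Ψ ((x, y), z) = 0 := by
    have := hEL x y z cδ cη
    rw [h2] at this
    have h4 : Ψ ((x, y), z) = 2 * (Ψ ((x, y), z) / 2) := by ring
    rw [h4, ← this, mul_zero]
  -- the derivative
  set η := z - y with hη
  have kder : HasDerivAt (fun t => k y t) (de k y η) η := S.hol.hasDerivAt_e oC cη
  have kbd : ‖k y η‖ ≤ K₁ / D ^ 2 := by
    rw [le_div_iff₀ (by positivity)]; exact S.bd y η cη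
  have kder_bd : ‖de k y η‖ ≤ K₁ / D ^ 3 := by
    refine norm_deriv_le_of_lip' (by positivity) ?_
    have hcont : ContinuousAt (fun t : ℂ => (y, t)) η := by fun_prop
    filter_upwards [hcont.eventually (oC.mem_nhds cη)] with t ht
    rw [div_mul_eq_mul_div, le_div_iff₀ (by positivity)]
    exact S.lip y t η ht cη
  have hder : HasDerivAt (fun z' => Ψ ((x, y), z'))
      (-(η * (2 + 4 * η ^ 2 * k y η + η ^ 3 * de k y η))) z := by
    have d1 : HasDerivAt (fun z' : ℂ => z' - y) 1 z := (hasDerivAt_id z).sub_const y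
    have d2 : HasDerivAt (fun z' : ℂ => k y (z' - y)) (de k y η) z := by
      have := HasDerivAt.comp z (h₂ := fun t => k y t) (h := fun z' : ℂ => z' - y) kder d1
      rw [mul_one] at this
      exact this
    have d3 := (((d1.pow 2).mul (((d1.pow 2).mul d2).const_add 1))).const_sub
      ((y - x) ^ 2 * (1 + (y - x) ^ 2 * k y (x - y)))
    refine d3.congr_deriv ?_
    simp only [Pi.pow_apply, Pi.mul_apply, ← hη]
    push_cast
    ring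
  have hq1 : m / D ≤ c₃ := by rw [div_le_iff₀ hD0]; exact g2.le
  have q0 : 0 ≤ m / D := by positivity
  have hs1 : K₁ / D ^ 2 * m ^ 2 ≤ 1 / 100 := by
    calc K₁ / D ^ 2 * m ^ 2 = K₁ * (m / D) ^ 2 := by field_simp
      _ ≤ K₁ * c₃ ^ 2 := by gcongr
      _ ≤ _ := C.h2
  have hs2 : K₁ / D ^ 3 * m ^ 3 ≤ 1 / 100 := by
    calc K₁ / D ^ 3 * m ^ 3 = K₁ * (m / D) ^ 3 := by field_simp
      _ ≤ K₁ * c₃ ^ 3 := by gcongr
      _ ≤ _ := C.h3
  have hne : -(η * (2 + 4 * η ^ 2 * k y η + η ^ 3 * de k y η)) ≠ 0 := by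
    have hη0 : η ≠ 0 := by rw [← norm_pos_iff]; linarith
    refine neg_ne_zero.2 (mul_ne_zero hη0 ?_)
    intro h4
    have j1 : ‖4 * η ^ 2 * k y η‖ ≤ 9 / 100 := by
      rw [norm_mul, norm_mul, norm_pow]
      simp only [Complex.norm_ofNat]
      calc 4 * ‖η‖ ^ 2 * ‖k y η‖ ≤ 4 * (3 / 2 * m) ^ 2 * (K₁ / D ^ 2) := by gcongr
        _ = 9 * (K₁ / D ^ 2 * m ^ 2) := by ring
        _ ≤ _ := by linarith
    have j2 : ‖η ^ 3 * de k y η‖ ≤ 27 / 800 := by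
      rw [norm_mul, norm_pow]
      calc ‖η‖ ^ 3 * ‖de k y η‖ ≤ (3 / 2 * m) ^ 3 * (K₁ / D ^ 3) := by gcongr
        _ = 27 / 8 * (K₁ / D ^ 3 * m ^ 3) := by ring
        _ ≤ _ := by linarith
    have j3 : (2 : ℂ) = -(4 * η ^ 2 * k y η + η ^ 3 * de k y η) := by linear_combination h4
    have j4 : ‖(2 : ℂ)‖ ≤ 9 / 100 + 27 / 800 := by
      rw [j3, norm_neg]
      exact (norm_add_le _ _).trans (add_le_add j1 j2)
    simp only [Complex.norm_ofNat] at j4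
    norm_num at j4
  obtain ⟨φ, p1, p2, p3⟩ := impl2 Ψ (x, y) z aΨ Ψ0 _ hder hne
  have hev : (fun p : ℂ × ℂ => St b p.1 p.2) =ᶠ[𝓝 (x, y)] φ := by
    have c1 : ContinuousAt φ (x, y) := p1.continuousAt
    have c2 : ∀ᶠ p in 𝓝 (x, y), (p.2, p.1 - p.2) ∈ Cone Y c₁ := by
      have hcont : ContinuousAt (fun p : ℂ × ℂ => (p.2, p.1 - p.2)) (x, y) := by fun_prop
      exact hcont.eventually (oC.mem_nhds cδ)
    have c3 : ∀ᶠ p in 𝓝 (x, y), (p.2, φ p - p.2) ∈ Cone Y c₁ := by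
      have hcont : ContinuousAt (fun p : ℂ × ℂ => (p.2, φ p - p.2)) (x, y) := by
        exact continuousAt_snd.prodMk (c1.sub continuousAt_snd)
      refine hcont.eventually (oC.mem_nhds ?_)
      show (y, φ (x, y) - y) ∈ Cone Y c₁
      rw [p2]
      exact cη
    have c4 : ∀ᶠ p in 𝓝 (x, y), ‖φ p - p.2 - (p.2 - p.1)‖ < ‖p.2 - p.1‖ / 2 := by
      have k1 : ContinuousAt (fun p : ℂ × ℂ => ‖φ p - p.2 - (p.2 - p.1)‖) (x, y) :=
        ((c1.sub continuousAt_snd).sub (continuousAt_snd.sub continuousAt_fst)).norm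
      have k2 : ContinuousAt (fun p : ℂ × ℂ => ‖p.2 - p.1‖ / 2) (x, y) := by fun_prop
      refine k1.eventually_lt k2 ?_
      show ‖φ (x, y) - y - (y - x)‖ < ‖y - x‖ / 2
      rw [p2]
      linarith
    filter_upwards [p3, c2, c3, c4, hOm] with p i1 i2 i3 i4 i5
    have i6 : IsStep b p.1 p.2 (φ p) := by
      refine ⟨i4.le, ?_⟩
      rw [hEL p.1 p.2 (φ p) i2 i3]
      show Ψ (p, φ p) / 2 = 0
      rw [i1, zero_div]
    exact (St_uniq S C (x := p.1) (y := p.2) i5 i6).symm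
  exact (p1.differentiableAt.congr_of_eventuallyEq hev)

end

end Vale.Agent.P097.TT4
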