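import Vale.Agent.P097.H799.TrigT

/-!
# TRIG-T4, part 4: extension of the family by steps
-/

set_option linter.all false

open scoped ComplexConjugate Topology
open Filter Metric Complex

namespace Vale.Agent.P097.TT4

open Vale.Agent.P097.TA Vale.Agent.P097.H536

/-- the constants -/
structure UC (Y K₁ L r e a h₀ C₁ C₂ c' c₃ : ℝ) : Prop where
  ha : 0 < a
  hh : 0 < h₀
  hr : 4 * h₀ ≤ r
  hY : 4 * h₀ ≤ Y
  c0 : 0 < c'
  c1 : c' ≤ 1 / 8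
  c2 : c' * Y ≤ e / 2
  c3 : c' * Y ≤ h₀ / 8
  c4 : C₁ * c' ^ 2 ≤ 1 / 10
  c5 : C₂ * c' ^ 2 ≤ 1 / 2
  c6 : 4 * c' ≤ c₃
  C1 : 4 * L / r * Y ^ 2 ≤ C₁
  C1' : 256 * K₁ ≤ C₁ * a
  C2 : L * Y ≤ C₂
  C2' : 2 * C₁ ≤ C₂ * a
  L0 : 0 ≤ L
  K0 : 0 ≤ K₁
  C10 : 0 ≤ C₁
  C20 : 0 ≤ C₂

/-- the iterates -/
noncomputable def Xs (b θ : ℂ → ℂ → ℂ) (h₀ : ℝ) : ℕ → ℂ → ℂ → ℂ
  | 0 => θ
  | n + 1 => fun t w => if t.im < h₀ then θ t w else
      St b (Xs b θ h₀ n (t - 2 * w) w) (Xs b θ h₀ n (t - w) w)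

theorem Xs_of_lt {b θ : ℂ → ℂ → ℂ} {h₀ : ℝ} (n : ℕ) {t w : ℂ} (h : t.im < h₀) :
    Xs b θ h₀ n t w = θ t w := by
  cases n with
  | zero => rfl
  | succ n => simp only [Xs, h, if_true]

theorem Xs_of_ge {b θ : ℂ → ℂ → ℂ} {h₀ : ℝ} (n : ℕ) {t w : ℂ} (h : ¬ t.im < h₀) :
    Xs b θ h₀ (n + 1) t w = St b (Xs b θ h₀ n (t - 2 * w) w) (Xs b θ h₀ n (t - w) w) := by
  simp only [Xs, h, if_false]

theorem Xs_stable {b θ : ℂ → ℂ → ℂ} {h₀ : ℝ} (n : ℕ) : ∀ {t w : ℂ}, 0 < w.im →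
    t.im < h₀ + n * w.im → Xs b θ h₀ (n + 1) t w = Xs b θ h₀ n t w := by
  induction n with
  | zero =>
    intro t w hw ht
    simp only [Nat.cast_zero, zero_mul, add_zero] at ht
    rw [Xs_of_lt _ ht, Xs_of_lt _ ht]
  | succ n ih =>
    intro t w hw ht
    by_cases h : t.im < h₀
    · rw [Xs_of_lt _ h, Xs_of_lt _ h]
    · push_cast at ht
      rw [Xs_of_ge (n + 1) h, Xs_of_ge n h, ih hw, ih hw]
      · simp only [sub_im]; linarith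
      · simp only [sub_im, mul_im, re_ofNat, im_ofNat, zero_mul, add_zero]; linarith

theorem Xs_stable' {b θ : ℂ → ℂ → ℂ} {h₀ : ℝ} {n m : ℕ} (hnm : n ≤ m) {t w : ℂ} (hw : 0 < w.im)
    (ht : t.im < h₀ + n * w.im) : Xs b θ h₀ m t w = Xs b θ h₀ n t w := by
  induction m, hnm using Nat.le_induction with
  | base => rfl
  | succ m hm ih =>
    rw [Xs_stable m hw, ih]
    refine ht.trans_le ?_
    gcongr

/-- the domain of the `n`-th iterate -/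
def Dn (Y c' a h₀ : ℝ) (n : ℕ) : Set (ℂ × ℂ) :=
  {p | a * ‖p.2‖ < p.2.im ∧ ‖p.2‖ < c' * (Y - |p.1.im|) ∧ -h₀ < p.1.im ∧ p.1.im < h₀ + n * p.2.im}

theorem isOpen_Dn (Y c' a h₀ : ℝ) (n : ℕ) : IsOpen (Dn Y c' a h₀ n) := by
  have hi1 : Continuous fun p : ℂ × ℂ => p.1.im := Complex.continuous_im.comp continuous_fst
  have hi2 : Continuous fun p : ℂ × ℂ => p.2.im := Complex.continuous_im.comp continuous_snd
  have hn : Continuous fun p : ℂ × ℂ => ‖p.2‖ := continuous_snd.norm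
  refine (isOpen_lt (hn.const_mul a |>.congr fun _ => rfl) hi2).inter
    ((isOpen_lt hn (((continuous_const.sub hi1.abs).const_mul c').congr fun _ => rfl)).inter
    ((isOpen_lt continuous_const hi1).inter (isOpen_lt hi1 ?_)))
  exact continuous_const.add ((hi2.const_mul (n : ℝ)).congr fun _ => rfl)

section

variable {Y c₁ K₁ L r e a h₀ C₁ C₂ c' c₃ : ℝ} {b k θ : ℂ → ℂ → ℂ}

/-- elementary facts at a point of the domain -/
structure DF (Y e a h₀ c' : ℝ) (t w : ℂ) : Prop where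
  D0 : 0 < Y - |t.im|
  DY : Y - |t.im| ≤ Y
  s0 : 0 < w.im
  sw : w.im ≤ ‖w‖
  as : a * ‖w‖ < w.im
  w0 : 0 < ‖w‖
  wD : ‖w‖ < c' * (Y - |t.im|)
  wh : ‖w‖ < h₀ / 8
  we : ‖w‖ < e / 2
  wD1 : ‖w‖ < Y - |t.im|

theorem Dn_facts (U : UC Y K₁ L r e a h₀ C₁ C₂ c' c₃) {n : ℕ} {t w : ℂ}
    (h : (t, w) ∈ Dn Y c' a h₀ n) : DF Y e a h₀ c' t w := by
  obtain ⟨h1, h2, h3, h4⟩ := h
  simp only at h1 h2 h3 h4
  have hc := U.c0
  have hc1 := U.c1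
  have g1 : 0 ≤ a * ‖w‖ := mul_nonneg U.ha.le (norm_nonneg _)
  have g2 : w.im ≤ ‖w‖ := (le_abs_self _).trans (Complex.abs_im_le_norm w)
  have g3 : 0 < w.im := g1.trans_lt h1
  have g4 : 0 < ‖w‖ := g3.trans_le g2
  have g5 : 0 < Y - |t.im| := (pos_iff_pos_of_mul_pos (g4.trans h2)).1 hc
  have g6 : Y - |t.im| ≤ Y := by linarith [abs_nonneg t.im]
  have g7 : c' * (Y - |t.im|) ≤ c' * Y := by gcongr
  have := U.c2
  have := U.c3
  exact ⟨g5, g6, g3, g2, h1, g4, h2, by linarith, by linarith, by nlinarith⟩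

theorem abs_im_of_pos {t : ℂ} (h : 0 ≤ t.im) : |t.im| = t.im := abs_of_nonneg h

theorem im_sub1 (t w : ℂ) : (t - w).im = t.im - w.im := Complex.sub_im _ _

theorem im_sub2 (t w : ℂ) : (t - 2 * w).im = t.im - 2 * w.im := by
  simp [Complex.sub_im, Complex.mul_im]

theorem Dn_sub1 (U : UC Y K₁ L r e a h₀ C₁ C₂ c' c₃) {n : ℕ} {t w : ℂ}
    (h : (t, w) ∈ Dn Y c' a h₀ (n + 1)) (ht : h₀ / 4 < t.im) :
    (t - w, w) ∈ Dn Y c' a h₀ n ∧ Y - |(t - w).im| = Y - |t.im| + w.im := by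
  have F := Dn_facts U h
  obtain ⟨h1, h2, h3, h4⟩ := h
  simp only at h1 h2 h3 h4
  have h0 := U.hh
  have hw := F.wh
  have hs := F.sw
  have hs0 := F.s0
  have hc := U.c0
  have e1 : |(t - w).im| = t.im - w.im := by
    rw [im_sub1, abs_of_nonneg]; linarith
  have e2 : |t.im| = t.im := abs_of_nonneg (by linarith)
  have e3 : Y - |(t - w).im| = Y - |t.im| + w.im := by rw [e1, e2]; ring
  refine ⟨⟨h1, ?_, ?_, ?_⟩, e3⟩
  · show ‖w‖ < c' * (Y - |(t - w).im|)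
    rw [e3]
    nlinarith
  · show -h₀ < (t - w).im
    rw [im_sub1]; linarith
  · show (t - w).im < h₀ + n * w.im
    rw [im_sub1]; push_cast at h4; linarith

theorem Dn_sub2 (U : UC Y K₁ L r e a h₀ C₁ C₂ c' c₃) {n : ℕ} {t w : ℂ}
    (h : (t, w) ∈ Dn Y c' a h₀ (n + 1)) (ht : h₀ / 2 < t.im) :
    (t - 2 * w, w) ∈ Dn Y c' a h₀ n := by
  have F := Dn_facts U h
  obtain ⟨h1, h2, h3, h4⟩ := h
  simp only at h1 h2 h3 h4
  have h0 := U.hh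
  have hw := F.wh
  have hs := F.sw
  have hs0 := F.s0
  have hc := U.c0
  have e1 : |(t - 2 * w).im| = t.im - 2 * w.im := by
    rw [im_sub2, abs_of_nonneg]; linarith
  have e2 : |t.im| = t.im := abs_of_nonneg (by linarith)
  refine ⟨h1, ?_, ?_, ?_⟩
  · show ‖w‖ < c' * (Y - |(t - 2 * w).im|)
    rw [e1]
    rw [e2] at h2
    nlinarith
  · show -h₀ < (t - 2 * w).im
    rw [im_sub2]; linarith
  · show (t - 2 * w).im < h₀ + n * w.im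
    rw [im_sub2]; push_cast at h4; linarith

/-! ### the family near the real phases -/

theorem mem_WW0 (U : UC Y K₁ L r e a h₀ C₁ C₂ c' c₃) {t w : ℂ} (hw : ‖w‖ < e / 2)
    (ht : |t.im| < 3 * h₀) : (t, w) ∈ WW 0 r e := by
  have := U.hr
  have := U.hh
  have := norm_nonneg w
  refine ⟨by simp only; linarith, ?_⟩
  simp only [zero_mul, add_zero]
  linarith

theorem th_df (U : UC Y K₁ L r e a h₀ C₁ C₂ c' c₃) (F : Fam b L r e θ) {t w : ℂ}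
    (hw : ‖w‖ < e / 2) (hwh : ‖w‖ < h₀ / 8) (ht : |t.im| < 3 / 2 * h₀) :
    ‖θ t w - θ (t - w) w - w‖ ≤ 4 * L / r * ‖w‖ ^ 3 := by
  have hr := F.hr
  have h4 := U.hr
  have hh := U.hh
  have hwn := norm_nonneg w
  have hL := U.L0
  set A : Set ℂ := {x : ℂ | |x.im| < r / 2} with hA
  have hAc : Convex ℝ A := by
    have e : A = Complex.im ⁻¹' (ball (0 : ℝ) (r / 2)) := by
      ext x; simp [hA]
    rw [e]
    exact (convex_ball (0 : ℝ) (r / 2)).is_linear_preimage Complex.imLm.isLinear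
  have hmem : ∀ x : ℂ, |x.im| < r → (x, w) ∈ WW 0 r e := fun x hx => by
    refine ⟨by simp only; linarith, ?_⟩
    simp only [zero_mul, add_zero]
    exact hx
  have hd : ∀ x : ℂ, |x.im| < r → DifferentiableAt ℂ (fun x => θ x w - x) x := fun x hx =>
    ((F.hol.hasDerivAt_x (isOpen_WW 0 r e) (hmem x hx)).differentiableAt).sub differentiableAt_id
  have hbd : ∀ x ∈ A, ‖deriv (fun x => θ x w - x) x‖ ≤ 4 * L / r * ‖w‖ ^ 2 := by
    intro x hx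
    have hsub : ∀ z ∈ closedBall x (r / 4), |z.im| < r := by
      intro z hz
      rw [mem_closedBall, dist_eq_norm] at hz
      have := abs_im_le_add z x
      have hx' : |x.im| < r / 2 := hx
      linarith
    have h5 : ‖deriv (fun x => θ x w - x) x‖ ≤ (L * ‖w‖ ^ 2) / (r / 4) := by
      refine Complex.norm_deriv_le_of_forall_mem_sphere_norm_le (by positivity) ?_ ?_
      · have : DifferentiableOn ℂ (fun x => θ x w - x) (closedBall x (r / 4)) := fun z hz =>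
          (hd z (hsub z hz)).differentiableWithinAt
        exact this.diffContOnCl_ball (le_refl _)
      · intro z hz
        exact F.cl z w (hmem z (hsub z (sphere_subset_closedBall hz)))
    refine h5.trans (le_of_eq ?_)
    field_simp
  have t1 : t ∈ A := by show |t.im| < r / 2; linarith
  have t2 : t - w ∈ A := by
    show |(t - w).im| < r / 2
    have := abs_im_le_add (t - w) t
    rw [show t - w - t = -w by ring, norm_neg] at this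
    linarith
  have h6 := hAc.norm_image_sub_le_of_norm_deriv_le (f := fun x => θ x w - x)
    (fun x hx => hd x (by have : |x.im| < r / 2 := hx; linarith)) hbd t2 t1
  rw [show θ t w - t - (θ (t - w) w - (t - w)) = θ t w - θ (t - w) w - w by ring,
    show t - (t - w) = w by ring] at h6
  refine h6.trans (le_of_eq (by ring))

theorem th_small (U : UC Y K₁ L r e a h₀ C₁ C₂ c' c₃) {n : ℕ} {t w : ℂ}
    (h : (t, w) ∈ Dn Y c' a h₀ n) : 4 * L / r * ‖w‖ ^ 3 * (Y - |t.im|) ^ 2 ≤ C₁ * ‖w‖ ^ 3 := by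
  have F := Dn_facts U h
  have h1 := U.C1
  have h2 := F.D0
  have h3 := F.DY
  have hr : 0 < r := by have := U.hr; have := U.hh; linarith
  have hL := U.L0
  calc 4 * L / r * ‖w‖ ^ 3 * (Y - |t.im|) ^ 2 ≤ 4 * L / r * ‖w‖ ^ 3 * Y ^ 2 := by gcongr
    _ = (4 * L / r * Y ^ 2) * ‖w‖ ^ 3 := by ring
    _ ≤ _ := by gcongr

/-- `(x, y)` lies in the domain of the step map -/
theorem Om_of (U : UC Y K₁ L r e a h₀ C₁ C₂ c' c₃) {x y w : ℂ} {E : ℝ} (hw : 0 < ‖w‖)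
    (h1 : ‖y - x - w‖ ≤ ‖w‖ / 10) (h2 : E / 2 ≤ Y - |y.im|) (h3 : ‖w‖ < c' * E) :
    (x, y) ∈ Om Y c₃ ∧ ‖y - x‖ ≤ 11 / 10 * ‖w‖ ∧ 9 / 10 * ‖w‖ ≤ ‖y - x‖ := by
  have e1 : ‖y - x‖ ≤ 11 / 10 * ‖w‖ := by
    calc ‖y - x‖ = ‖(y - x - w) + w‖ := by ring_nf
      _ ≤ ‖y - x - w‖ + ‖w‖ := norm_add_le _ _
      _ ≤ _ := by linarith
  have e2 : 9 / 10 * ‖w‖ ≤ ‖y - x‖ := by
    have : ‖w‖ ≤ ‖y - x‖ + ‖y - x - w‖ := by
      calc ‖w‖ = ‖(y - x) - (y - x - w)‖ := by ring_nf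
        _ ≤ _ := norm_sub_le _ _
    linarith
  have hc := U.c0
  have h6 := U.c6
  have hE : 0 < E := (pos_iff_pos_of_mul_pos (hw.trans h3)).1 hc
  refine ⟨⟨?_, ?_⟩, e1, e2⟩
  · intro h
    simp only at h
    rw [h, sub_self, norm_zero] at e2
    linarith
  · show ‖y - x‖ < c₃ * (Y - |y.im|)
    have : c' * E ≤ c' * (2 * (Y - |y.im|)) := by gcongr; linarith
    have h7 : 0 < Y - |y.im| := by linarith
    nlinarith

theorem th_small2 (U : UC Y K₁ L r e a h₀ C₁ C₂ c' c₃) {n : ℕ} {t w : ℂ}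
    (h : (t, w) ∈ Dn Y c' a h₀ n) : 4 * L / r * ‖w‖ ^ 3 ≤ ‖w‖ / 10 := by
  have F := Dn_facts U h
  have h1 := U.C1
  have h2 := F.D0
  have h3 := F.DY
  have h4 := U.c4
  have hc := U.c0
  have hr : 0 < r := by have := U.hr; have := U.hh; linarith
  have hL := U.L0
  have h5 : ‖w‖ ≤ c' * Y := F.wD.le.trans (by gcongr)
  calc 4 * L / r * ‖w‖ ^ 3 = (4 * L / r * ‖w‖ ^ 2) * ‖w‖ := by ring
    _ ≤ (4 * L / r * (c' * Y) ^ 2) * ‖w‖ := by gcongr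
    _ = (4 * L / r * Y ^ 2) * c' ^ 2 * ‖w‖ := by ring
    _ ≤ C₁ * c' ^ 2 * ‖w‖ := by gcongr
    _ ≤ 1 / 10 * ‖w‖ := by gcongr
    _ = _ := by ring

theorem th_step (U : UC Y K₁ L r e a h₀ C₁ C₂ c' c₃) (F : Fam b L r e θ) (S : SK Y c₁ K₁ b k)
    (C : SC c₁ K₁ c₃) {n : ℕ} {t w : ℂ} (h : (t, w) ∈ Dn Y c' a h₀ (n + 1)) (h1 : h₀ / 2 < t.im)
    (h2 : t.im < h₀) : θ t w = St b (θ (t - 2 * w) w) (θ (t - w) w) := by
  have G := Dn_facts U h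
  have hh := U.hh
  have hr := U.hr
  have q1 := th_small2 U h
  have hw := G.wh
  have hs := G.sw
  have hs0 := G.s0
  have hD := G.D0
  have at1 : |t.im| < 3 / 2 * h₀ := by rw [abs_of_pos (by linarith)]; linarith
  have at2 : |(t - w).im| < 3 / 2 * h₀ := by
    rw [im_sub1, abs_of_pos (by linarith)]; linarith
  have d1 := (th_df U F G.we hw at1).trans q1
  have d2 := (th_df U F G.we hw at2).trans q1
  rw [show t - w - w = t - 2 * w by ring] at d2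
  obtain ⟨m1, m2⟩ := Dn_sub1 U h (by linarith)
  have m3 : (t - w, w) ∈ WW 0 r e := mem_WW0 U G.we (by linarith)
  have d3 := F.cl _ _ m3
  have d4 : L * ‖w‖ ^ 2 ≤ (Y - |t.im|) / 2 := by
    have k1 := U.C2
    have k2 := U.c5
    have k3 := G.wD
    have k4 := U.L0
    have k5 := U.c0
    have k6 := G.DY
    have hY : 0 < Y := by have := U.hY; linarith
    have k7 : 0 ≤ c' * (Y - |t.im|) := by positivity
    have k8 : L * Y * (c' ^ 2 * (Y - |t.im|)) ≤ C₂ * (c' ^ 2 * (Y - |t.im|)) := by gcongr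
    calc L * ‖w‖ ^ 2 ≤ L * (c' * (Y - |t.im|)) ^ 2 := by gcongr
      _ = L * (Y - |t.im|) * (c' ^ 2 * (Y - |t.im|)) := by ring
      _ ≤ L * Y * (c' ^ 2 * (Y - |t.im|)) := by gcongr
      _ ≤ C₂ * (c' ^ 2 * (Y - |t.im|)) := k8
      _ = (C₂ * c' ^ 2) * (Y - |t.im|) := by ring
      _ ≤ 1 / 2 * (Y - |t.im|) := by gcongr
      _ = _ := by ring
  have d5 := abs_im_le_add (θ (t - w) w) (t - w)
  set z := θ t w with hz
  set y := θ (t - w) w with hy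
  set x := θ (t - 2 * w) w with hx
  obtain ⟨o1, o2, o3⟩ := Om_of U (x := x) (y := y) (E := Y - |(t - w).im|) G.w0 d2
    (by linarith) (by rw [m2]; nlinarith [U.c0, G.wD])
  refine St_uniq S C o1 ⟨?_, ?_⟩
  · calc ‖z - y - (y - x)‖ = ‖(z - y - w) - (y - x - w)‖ := by ring_nf
      _ ≤ ‖z - y - w‖ + ‖y - x - w‖ := norm_sub_le _ _
      _ ≤ _ := by linarith
  · have := F.er (t - w) w ?_
    · unfold Er at this
      rw [show t - w - w = t - 2 * w by ring, show t - w + w = t by ring] at this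
      exact this
    · refine ⟨?_, ?_⟩
      · simp only; have := G.we; have := F.he; linarith
      · simp only [one_mul]
        have : |w.im| ≤ ‖w‖ := Complex.abs_im_le_norm w
        linarith

/-! ### the invariants -/

/-- invariants of the iteration -/
structure Inv (Y a h₀ C₁ C₂ c' : ℝ) (b θ : ℂ → ℂ → ℂ) (n : ℕ) : Prop where
  hol : JD (Xs b θ h₀ n) (Dn Y c' a h₀ n)
  df : ∀ t w : ℂ, (t, w) ∈ Dn Y c' a h₀ n → h₀ / 4 < t.im →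
    ‖Xs b θ h₀ n t w - Xs b θ h₀ n (t - w) w - w‖ * (Y - |t.im|) ^ 2 ≤ C₁ * ‖w‖ ^ 3
  cl : ∀ t w : ℂ, (t, w) ∈ Dn Y c' a h₀ n →
    ‖Xs b θ h₀ n t w - t‖ * (Y - |t.im|) ≤ C₂ * ‖w‖ ^ 2
  per : ∀ t w : ℂ, (t, w) ∈ Dn Y c' a h₀ n → Xs b θ h₀ n (t + 1) w = Xs b θ h₀ n t w + 1

/-- properties of the previous two points -/
theorem st_data (U : UC Y K₁ L r e a h₀ C₁ C₂ c' c₃) {n : ℕ} (I : Inv Y a h₀ C₁ C₂ c' b θ n)
    {t w : ℂ} (h : (t, w) ∈ Dn Y c' a h₀ (n + 1)) (h1 : h₀ / 2 < t.im) {x y : ℂ}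
    (hx : x = Xs b θ h₀ n (t - 2 * w) w) (hy : y = Xs b θ h₀ n (t - w) w) :
    ‖y - x - w‖ * (Y - |t.im| + w.im) ^ 2 ≤ C₁ * ‖w‖ ^ 3 ∧
    ‖y - (t - w)‖ * (Y - |t.im| + w.im) ≤ C₂ * ‖w‖ ^ 2 ∧
    (Y - |t.im| + w.im) / 2 ≤ Y - |y.im| ∧ (x, y) ∈ Om Y c₃ ∧ ‖y - x‖ ≤ 11 / 10 * ‖w‖ := by
  have G := Dn_facts U h
  have hh := U.hh
  obtain ⟨m1, m2⟩ := Dn_sub1 U h (by linarith)
  have i1 := I.df _ _ m1 (by rw [im_sub1]; linarith [G.wh, G.sw])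
  have i2 := I.cl _ _ m1
  rw [show t - w - w = t - 2 * w by ring, m2, ← hx, ← hy] at i1
  rw [m2, ← hy] at i2
  have hD := G.D0
  have hs0 := G.s0
  have hE : 0 < Y - |t.im| + w.im := by linarith
  set E := Y - |t.im| + w.im with hEd
  have hwE : ‖w‖ < c' * E := by nlinarith [U.c0, G.wD]
  have hc := U.c0
  have hw := G.w0
  have j1 : ‖y - x - w‖ ≤ ‖w‖ / 10 := by
    have k1 : ‖y - x - w‖ * E ^ 2 ≤ ‖w‖ / 10 * E ^ 2 := by
      calc ‖y - x - w‖ * E ^ 2 ≤ C₁ * ‖w‖ ^ 3 := i1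
        _ = C₁ * ‖w‖ ^ 2 * ‖w‖ := by ring
        _ ≤ C₁ * (c' * E) ^ 2 * ‖w‖ := by
            have := U.C10
            gcongr
        _ = (C₁ * c' ^ 2) * (E ^ 2 * ‖w‖) := by ring
        _ ≤ 1 / 10 * (E ^ 2 * ‖w‖) := by
            have := U.c4
            gcongr
        _ = _ := by ring
    exact le_of_mul_le_mul_right k1 (by positivity)
  have j2 : ‖y - (t - w)‖ ≤ E / 2 := by
    have k1 : ‖y - (t - w)‖ * E ≤ E / 2 * E := by
      calc ‖y - (t - w)‖ * E ≤ C₂ * ‖w‖ ^ 2 := i2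
        _ ≤ C₂ * (c' * E) ^ 2 := by
            have := U.C20
            gcongr
        _ = (C₂ * c' ^ 2) * E ^ 2 := by ring
        _ ≤ 1 / 2 * E ^ 2 := by
            have := U.c5
            gcongr
        _ = _ := by ring
    exact le_of_mul_le_mul_right k1 hE
  have j3 := abs_im_le_add y (t - w)
  have j4 : E / 2 ≤ Y - |y.im| := by linarith
  obtain ⟨o1, o2, o3⟩ := Om_of U hw j1 j4 hwE
  exact ⟨i1, i2, j4, o1, o2⟩

/-- the step formula above height `h₀ / 2` -/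
theorem Xs_step (U : UC Y K₁ L r e a h₀ C₁ C₂ c' c₃) (F : Fam b L r e θ) (S : SK Y c₁ K₁ b k)
    (C : SC c₁ K₁ c₃) {n : ℕ} {t w : ℂ} (h : (t, w) ∈ Dn Y c' a h₀ (n + 1)) (h1 : h₀ / 2 < t.im) :
    Xs b θ h₀ (n + 1) t w = St b (Xs b θ h₀ n (t - 2 * w) w) (Xs b θ h₀ n (t - w) w) := by
  by_cases h2 : t.im < h₀
  · have G := Dn_facts U h
    have hs0 := G.s0
    rw [Xs_of_lt _ h2, Xs_of_lt _ (show (t - 2 * w).im < h₀ by rw [im_sub2]; linarith),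
      Xs_of_lt _ (show (t - w).im < h₀ by rw [im_sub1]; linarith)]
    exact th_step U F S C h h1 h2
  · exact Xs_of_ge n h2

theorem arith1 {D s W C₁ K₁ a : ℝ} (hD : 0 < D) (hs : 0 < s) (hW : 0 < W) (hC : 0 ≤ C₁)
    (hK : 0 ≤ K₁) (has : a * W < s) (h : 256 * K₁ ≤ C₁ * a) :
    (C₁ * W ^ 3 / (D + s) ^ 2 + 24 * K₁ * W ^ 4 / (D + s) ^ 3) * D ^ 2 ≤ C₁ * W ^ 3 := by
  have e : (C₁ * W ^ 3 / (D + s) ^ 2 + 24 * K₁ * W ^ 4 / (D + s) ^ 3) * D ^ 2 =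
      W ^ 3 * (D ^ 2 * (C₁ * (D + s) + 24 * K₁ * W)) / (D + s) ^ 3 := by
    field_simp
  rw [e, div_le_iff₀ (by positivity)]
  have k0 : 0 ≤ K₁ * W := mul_nonneg hK hW.le
  have k2 : 24 * K₁ * W ≤ C₁ * s := by
    calc 24 * K₁ * W ≤ 256 * K₁ * W := by linarith
      _ ≤ C₁ * a * W := by gcongr
      _ = C₁ * (a * W) := by ring
      _ ≤ C₁ * s := by gcongr
  have k3 : D ^ 2 * (D + 2 * s) ≤ (D + s) ^ 3 := by
    have : (D + s) ^ 3 = D ^ 2 * (D + 2 * s) + (D ^ 2 * s + 3 * D * s ^ 2 + s ^ 3) := by ring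
    have : 0 ≤ D ^ 2 * s + 3 * D * s ^ 2 + s ^ 3 := by positivity
    linarith
  have k4 : D ^ 2 * (C₁ * (D + s) + 24 * K₁ * W) ≤ C₁ * (D + s) ^ 3 := by
    calc D ^ 2 * (C₁ * (D + s) + 24 * K₁ * W) ≤ D ^ 2 * (C₁ * (D + s) + C₁ * s) := by gcongr
      _ = C₁ * (D ^ 2 * (D + 2 * s)) := by ring
      _ ≤ C₁ * (D + s) ^ 3 := by gcongr
  calc W ^ 3 * (D ^ 2 * (C₁ * (D + s) + 24 * K₁ * W)) ≤ W ^ 3 * (C₁ * (D + s) ^ 3) := by gcongr
    _ = _ := by ring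

theorem arith2 {D s W C₁ C₂ a : ℝ} (hD : 0 < D) (hs : 0 < s) (hW : 0 < W) (hC : 0 ≤ C₁)
    (hC2 : 0 ≤ C₂) (has : a * W < s) (hsD : s ≤ D) (h : 2 * C₁ ≤ C₂ * a) :
    (C₁ * W ^ 3 / D ^ 2 + C₂ * W ^ 2 / (D + s)) * D ≤ C₂ * W ^ 2 := by
  have e : (C₁ * W ^ 3 / D ^ 2 + C₂ * W ^ 2 / (D + s)) * D =
      W ^ 2 * (C₁ * W * (D + s) + C₂ * D ^ 2) / (D * (D + s)) := by
    field_simp
  rw [e, div_le_iff₀ (by positivity)]
  have k2 : C₁ * W * (D + s) ≤ C₂ * (s * D) := by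
    calc C₁ * W * (D + s) ≤ C₁ * W * (2 * D) := by gcongr; linarith
      _ = (2 * C₁) * (W * D) := by ring
      _ ≤ (C₂ * a) * (W * D) := by gcongr
      _ = C₂ * ((a * W) * D) := by ring
      _ ≤ C₂ * (s * D) := by gcongr
  have k4 : C₁ * W * (D + s) + C₂ * D ^ 2 ≤ C₂ * (D * (D + s)) := by
    have : C₂ * (D * (D + s)) = C₂ * D ^ 2 + C₂ * (s * D) := by ring
    linarith
  calc W ^ 2 * (C₁ * W * (D + s) + C₂ * D ^ 2) ≤ W ^ 2 * (C₂ * (D * (D + s))) := by gcongr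
    _ = _ := by ring

theorem arith3 {E Ey W K₁ q p : ℝ} (hE : 0 < E) (hq : 0 ≤ q) (h1 : E / 2 ≤ Ey) (hK : 0 ≤ K₁)
    (hp : 0 ≤ p) (hW : 0 < W) (h2 : q * Ey ^ 3 ≤ 2 * K₁ * p ^ 4) (h3 : p ≤ 11 / 10 * W) :
    q * E ^ 3 ≤ 24 * K₁ * W ^ 4 := by
  have k1 : (E / 2) ^ 3 ≤ Ey ^ 3 := by gcongr
  have k2 : q * (E / 2) ^ 3 ≤ 2 * K₁ * (11 / 10 * W) ^ 4 := by
    calc q * (E / 2) ^ 3 ≤ q * Ey ^ 3 := by gcongr
      _ ≤ 2 * K₁ * p ^ 4 := h2
      _ ≤ 2 * K₁ * (11 / 10 * W) ^ 4 := by gcongr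
  have k3 : 0 ≤ K₁ * W ^ 4 := by positivity
  have e1 : q * (E / 2) ^ 3 = q * E ^ 3 / 8 := by ring
  have e2 : 2 * K₁ * (11 / 10 * W) ^ 4 = 29282 / 10000 * (K₁ * W ^ 4) := by ring
  rw [e1, e2] at k2
  linarith

/-- the estimate of one step -/
theorem step_est (U : UC Y K₁ L r e a h₀ C₁ C₂ c' c₃) (S : SK Y c₁ K₁ b k)
    (C : SC c₁ K₁ c₃) {n : ℕ} (I : Inv Y a h₀ C₁ C₂ c' b θ n)
    {t w : ℂ} (h : (t, w) ∈ Dn Y c' a h₀ (n + 1)) (h1 : h₀ / 2 < t.im) {x y : ℂ}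
    (hx : x = Xs b θ h₀ n (t - 2 * w) w) (hy : y = Xs b θ h₀ n (t - w) w) :
    ‖St b x y - y - w‖ * (Y - |t.im|) ^ 2 ≤ C₁ * ‖w‖ ^ 3 ∧
    ‖St b x y - t‖ * (Y - |t.im|) ≤ C₂ * ‖w‖ ^ 2 := by
  obtain ⟨d1, d2, d3, d4, d5⟩ := st_data U I h h1 hx hy
  have G := Dn_facts U h
  have hD := G.D0
  have hs0 := G.s0
  have hw := G.w0
  have hE : 0 < Y - |t.im| + w.im := by linarith
  have b1 := St_bd S C d4
  have b2 := arith3 hE (norm_nonneg (St b x y - y - (y - x))) d3 U.K0 (norm_nonneg (y - x)) hw b1 d5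
  have b3 : ‖St b x y - y - w‖ ≤ C₁ * ‖w‖ ^ 3 / (Y - |t.im| + w.im) ^ 2
      + 24 * K₁ * ‖w‖ ^ 4 / (Y - |t.im| + w.im) ^ 3 := by
    calc ‖St b x y - y - w‖ = ‖(y - x - w) + (St b x y - y - (y - x))‖ := by ring_nf
      _ ≤ ‖y - x - w‖ + ‖St b x y - y - (y - x)‖ := norm_add_le _ _
      _ ≤ _ := by
          refine add_le_add ?_ ?_
          · rw [le_div_iff₀ (by positivity)]; exact d1
          · rw [le_div_iff₀ (by positivity)]; exact b2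
  have b4 : ‖St b x y - y - w‖ * (Y - |t.im|) ^ 2 ≤ C₁ * ‖w‖ ^ 3 :=
    (mul_le_mul_of_nonneg_right b3 (by positivity)).trans
      (arith1 hD hs0 hw U.C10 U.K0 G.as U.C1')
  refine ⟨b4, ?_⟩
  have b5 : ‖St b x y - t‖ ≤ C₁ * ‖w‖ ^ 3 / (Y - |t.im|) ^ 2
      + C₂ * ‖w‖ ^ 2 / (Y - |t.im| + w.im) := by
    calc ‖St b x y - t‖ = ‖(St b x y - y - w) + (y - (t - w))‖ := by ring_nf
      _ ≤ ‖St b x y - y - w‖ + ‖y - (t - w)‖ := norm_add_le _ _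
      _ ≤ _ := by
          refine add_le_add ?_ ?_
          · rw [le_div_iff₀ (by positivity)]; exact b4
          · rw [le_div_iff₀ (by positivity)]; exact d2
  exact (mul_le_mul_of_nonneg_right b5 hD.le).trans
    (arith2 hD hs0 hw U.C10 U.C20 G.as (G.sw.trans G.wD1.le) U.C2')

end

end Vale.Agent.P097.TT4
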